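import Vale.Agent.Lib.P329.Defs

namespace Vale.Agent.Lib.P329

variable {α : Type}

/-- concatenation of two sets of words -/
def catL (L K : Set (List α)) : Set (List α) := {w | ∃ u ∈ L, ∃ v ∈ K, u ++ v = w}

/-- Kleene star of a set of words -/
def strL (L : Set (List α)) : Set (List α) :=
  {w | ∃ S : List (List α), w = S.flatten ∧ ∀ y ∈ S, y ∈ L}

/-- sets of words of generalized star height at most `k` -/
def HT (k : ℕ) (L : Set (List α)) : Prop := ∃ e : GRE α, e.sh ≤ k ∧ ∀ w, w ∈ e.lang ↔ w ∈ L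

theorem HT.mono {k m : ℕ} (h : k ≤ m) {L : Set (List α)} (hL : HT k L) : HT m L := by
  obtain ⟨e, he, h1⟩ := hL
  exact ⟨e, he.trans h, h1⟩

theorem HT.of_eq {k : ℕ} {L K : Set (List α)} (hL : HT k L) (h : L = K) : HT k K := h ▸ hL

theorem HT.of_iff {k : ℕ} {L K : Set (List α)} (hL : HT k L) (h : ∀ w, w ∈ L ↔ w ∈ K) :
    HT k K := hL.of_eq (Set.ext h)

theorem HT.empty (k : ℕ) : HT k (∅ : Set (List α)) :=
  ⟨GRE.zero, by simp [GRE.sh], fun w => by simp [GRE.lang]⟩

theorem HT.nil (k : ℕ) : HT k ({[]} : Set (List α)) :=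
  ⟨GRE.one, by simp [GRE.sh], fun w => by simp [GRE.lang]⟩

theorem HT.char (k : ℕ) (a : α) : HT k ({[a]} : Set (List α)) :=
  ⟨GRE.char a, by simp [GRE.sh], fun w => Iff.rfl⟩

theorem HT.union {k : ℕ} {L K : Set (List α)} (hL : HT k L) (hK : HT k K) : HT k (L ∪ K) := by
  obtain ⟨e, he, h1⟩ := hL
  obtain ⟨f, hf, h2⟩ := hK
  refine ⟨GRE.plus e f, by simp [GRE.sh, he, hf], fun w => ?_⟩
  simp only [GRE.lang, Language.mem_add, h1, h2, Set.mem_union]

theorem HT.cat {k : ℕ} {L K : Set (List α)} (hL : HT k L) (hK : HT k K) : HT k (catL L K) := by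
  obtain ⟨e, he, h1⟩ := hL
  obtain ⟨f, hf, h2⟩ := hK
  refine ⟨GRE.comp e f, by simp [GRE.sh, he, hf], fun w => ?_⟩
  simp only [GRE.lang, Language.mem_mul, h1, h2, catL, Set.mem_ofPred_eq]

theorem HT.compl {k : ℕ} {L : Set (List α)} (hL : HT k L) : HT k (Lᶜ) := by
  obtain ⟨e, he, h1⟩ := hL
  refine ⟨GRE.compl e, by simp [GRE.sh, he], fun w => ?_⟩
  have : w ∈ (GRE.lang e)ᶜ ↔ ¬ (w ∈ GRE.lang e) := Iff.rfl
  simp only [GRE.lang, this, h1, Set.mem_compl_iff]

theorem HT.str {k : ℕ} {L : Set (List α)} (hL : HT k L) : HT (k + 1) (strL L) := by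
  obtain ⟨e, he, h1⟩ := hL
  refine ⟨GRE.star e, by simp [GRE.sh, he], fun w => ?_⟩
  simp only [GRE.lang, Language.mem_kstar, h1, strL, Set.mem_ofPred_eq]

theorem HT.inter {k : ℕ} {L K : Set (List α)} (hL : HT k L) (hK : HT k K) : HT k (L ∩ K) := by
  have : L ∩ K = (Lᶜ ∪ Kᶜ)ᶜ := by
    ext w; simp
  rw [this]
  exact (HT.union hL.compl hK.compl).compl

theorem HT.sdiff {k : ℕ} {L K : Set (List α)} (hL : HT k L) (hK : HT k K) : HT k (L \ K) := by
  rw [Set.sdiff_eq]
  exact HT.inter hL hK.compl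

theorem HT.univ (k : ℕ) : HT k (Set.univ : Set (List α)) := by
  have : (Set.univ : Set (List α)) = (∅ : Set (List α))ᶜ := by simp
  rw [this]
  exact (HT.empty k).compl

/-- finite unions -/
theorem HT.finset_sup {k : ℕ} {ι : Type} (s : Finset ι) (f : ι → Set (List α))
    (h : ∀ i ∈ s, HT k (f i)) : HT k {w | ∃ i ∈ s, w ∈ f i} := by
  classical
  induction s using Finset.induction_on with
  | empty =>
    have : {w | ∃ i ∈ (∅ : Finset ι), w ∈ f i} = (∅ : Set (List α)) := by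
      ext w; simp
    rw [this]; exact HT.empty k
  | insert a s ha ih =>
    have : {w | ∃ i ∈ insert a s, w ∈ f i} = f a ∪ {w | ∃ i ∈ s, w ∈ f i} := by
      ext w
      simp
    rw [this]
    exact HT.union (h a (Finset.mem_insert_self a s))
      (ih (fun i hi => h i (Finset.mem_insert_of_mem hi)))

theorem HT.iUnion {k : ℕ} {ι : Type} [Finite ι] (f : ι → Set (List α))
    (h : ∀ i, HT k (f i)) : HT k {w | ∃ i, w ∈ f i} := by
  classical
  have := Fintype.ofFinite ι
  have := HT.finset_sup (k := k) (Finset.univ : Finset ι) f (fun i _ => h i)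
  refine this.of_eq ?_
  ext w; simp

theorem HT.iInter {k : ℕ} {ι : Type} [Finite ι] (f : ι → Set (List α))
    (h : ∀ i, HT k (f i)) : HT k {w | ∀ i, w ∈ f i} := by
  have := (HT.iUnion (fun i => (f i)ᶜ) (fun i => (h i).compl)).compl
  refine this.of_eq ?_
  ext w
  simp

/-- union over the elements of a finite type satisfying a predicate -/
theorem HT.iUnion_prop {k : ℕ} {ι : Type} [Finite ι] (P : ι → Prop) (f : ι → Set (List α))
    (h : ∀ i, P i → HT k (f i)) : HT k {w | ∃ i, P i ∧ w ∈ f i} := by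
  classical
  have := HT.iUnion (k := k) (fun i : {i // P i} => f i.1) (fun i => h i.1 i.2)
  refine this.of_eq ?_
  ext w
  constructor
  · rintro ⟨⟨i, hi⟩, hw⟩; exact ⟨i, hi, hw⟩
  · rintro ⟨i, hi, hw⟩; exact ⟨⟨i, hi⟩, hw⟩

/-- The set of words all of whose letters satisfy `B` is star-free. -/
theorem HT.letters [Finite α] (k : ℕ) (B : α → Prop) :
    HT k {w : List α | ∀ a ∈ w, B a} := by
  have h1 : HT k {w | ∃ a, ¬ B a ∧ w ∈ catL (catL (Set.univ : Set (List α)) {[a]}) Set.univ} :=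
    HT.iUnion_prop _ _ (fun a _ => ((HT.univ k).cat (HT.char k a)).cat (HT.univ k))
  refine h1.compl.of_eq ?_
  ext w
  simp only [Set.mem_compl_iff, Set.mem_ofPred_eq]
  constructor
  · intro hw a ha
    by_contra hB
    apply hw
    refine ⟨a, hB, ?_⟩
    obtain ⟨s, t, rfl⟩ := List.append_of_mem ha
    exact ⟨s ++ [a], ⟨s, trivial, [a], rfl, rfl⟩, t, trivial, by simp⟩
  · rintro hw ⟨a, hB, u, ⟨s, -, c, hc, rfl⟩, t, -, rfl⟩
    have : c = [a] := hc
    subst this
    exact hB (hw a (by simp))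

/-- A set of words saturated by a finite-valued invariant all of whose fibres have height `≤ k`
has height `≤ k`. -/
theorem HT.of_invariant {k : ℕ} {ι : Type} [Finite ι] (inv : List α → ι)
    (h : ∀ i, HT k {w | inv w = i}) (L : Set (List α))
    (hsat : ∀ w w', inv w = inv w' → (w ∈ L ↔ w' ∈ L)) : HT k L := by
  have := HT.iUnion_prop (k := k) (fun i : ι => ∃ w ∈ L, inv w = i) (fun i => {w | inv w = i})
    (fun i _ => h i)
  refine this.of_eq ?_
  ext w
  constructor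
  · rintro ⟨i, ⟨w', hw', h1⟩, h2⟩
    exact (hsat w' w (h1.trans h2.symm)).1 hw'
  · intro hw
    exact ⟨inv w, ⟨w, hw, rfl⟩, rfl⟩

end Vale.Agent.Lib.P329
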