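import Vale.Agent.Lib.P329.Counter

namespace Vale.Agent.Lib.P329

set_option linter.unusedSectionVars false
set_option linter.unusedSimpArgs false

variable {α : Type} [DecidableEq α] {p : ℕ}

section general

variable {V : Type} [AddCommMonoid V] [DecidableEq V]

/-- the annotated word: every letter together with the level at which it is read -/
def ann (π : α → V) : V → List α → List (V × α)
  | _, [] => []
  | lam, a :: w => (lam, a) :: ann π (lam + π a) w

theorem ann_append (π : α → V) (lam : V) (u v : List α) :
    ann π lam (u ++ v) = ann π lam u ++ ann π (lam + (u.map π).sum) v := by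
  induction u generalizing lam with
  | nil => simp [ann]
  | cons a u ih => simp [ann, ih, add_assoc]

/-- number of occurrences of the letter `x` read at level `l` -/
def cnt (π : α → V) (l : V) (x : α) (w : List α) : ℕ := (ann π 0 w).count (l, x)

theorem cnt_nil (π : α → V) (l : V) (x : α) : cnt π l x [] = 0 := rfl

theorem cnt_snoc (π : α → V) (l : V) (x : α) (w : List α) (b : α) :
    cnt π l x (w ++ [b]) = cnt π l x w + (if (w.map π).sum = l ∧ b = x then 1 else 0) := by
  unfold cnt
  rw [ann_append, List.count_append]
  congr 1
  simp only [ann, zero_add]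
  by_cases h : (w.map π).sum = l ∧ b = x
  · obtain ⟨h1, h2⟩ := h
    simp [h1, h2]
  · rw [if_neg h]
    rw [List.count_eq_zero]
    simp only [List.mem_singleton, Prod.mk.injEq]
    rintro ⟨h1, h2⟩
    exact h ⟨h1.symm, h2.symm⟩

theorem sum_count_levels [Fintype V] (x : α) (L : List (V × α)) :
    ∑ l : V, L.count (l, x) = (L.map Prod.snd).count x := by
  induction L with
  | nil => simp
  | cons t L ih =>
    obtain ⟨m, a⟩ := t
    simp only [List.count_cons, List.map_cons, Finset.sum_add_distrib, ih]
    congr 1
    by_cases ha : a = x
    · subst ha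
      simp
    · simp [ha]

theorem ann_snd (π : α → V) (lam : V) (w : List α) :
    (ann π lam w).map Prod.snd = w := by
  induction w generalizing lam with
  | nil => rfl
  | cons a w ih => simp [ann, ih]

theorem sum_cnt [Fintype V] (π : α → V) (x : α) (w : List α) :
    ∑ l : V, cnt π l x w = w.count x := by
  unfold cnt
  rw [sum_count_levels, ann_snd]

end general

def Zout (f g : Bool) : Bool := f && !g
def Zin (f g : Bool) : Bool := !f && g
def Znone (_ _ : Bool) : Bool := false
def Zdiag (f g : Bool) : Bool := f && g
def Zcnt (f g : Bool) : Bool := !(f && g)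

variable {N : ℕ}

theorem crun_level (P : Par α p) (w : List α) (s : ZMod N × ZMod p × Bool) :
    (w.foldl (cstep N P) s).2.1 = s.2.1 + (w.map P.π).sum := by
  induction w generalizing s with
  | nil => simp
  | cons b w ih =>
    obtain ⟨c, lam, f⟩ := s
    rw [List.foldl_cons, ih]
    simp only [cstep]
    split_ifs with h1 h2
    · simp [← h1, add_assoc]
    · simp [← h1, add_assoc]
    · simp [add_assoc]

theorem step_inout (π : α → ZMod p) (l : ZMod p) (x : α) (hx : π x ≠ 0) (co ci : ZMod N)
    (lam : ZMod p) (f : Bool) (b : α) (A B : ℕ) (h2 : lam = l → f = false)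
    (h3 : (A : ZMod N) - (B : ZMod N) = ci - co + (if f then 1 else 0)) :
    (cstep N ⟨π, l, x, Zout⟩ (co, lam, f) b).2 = (cstep N ⟨π, l, x, Zin⟩ (ci, lam, f) b).2 ∧
    ((cstep N ⟨π, l, x, Zout⟩ (co, lam, f) b).2.1 = l →
      (cstep N ⟨π, l, x, Zout⟩ (co, lam, f) b).2.2 = false) ∧
    (((A + (if lam = l ∧ b = x then 1 else 0) : ℕ) : ZMod N)
        - ((B + (if lam = l - π x ∧ b = x then 1 else 0) : ℕ) : ZMod N)
      = (cstep N ⟨π, l, x, Zin⟩ (ci, lam, f) b).1 - (cstep N ⟨π, l, x, Zout⟩ (co, lam, f) b).1
        + (if (cstep N ⟨π, l, x, Zout⟩ (co, lam, f) b).2.2 then 1 else 0)) := by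
  have key : lam = l - π x ↔ lam + π x = l := eq_sub_iff_add_eq
  simp only [key]
  by_cases hb : b = x
  · subst hb
    by_cases hl : lam = l
    · have hf := h2 hl
      subst hf
      subst hl
      have e1 : ¬ (lam + π b = lam) := by simpa using hx
      simp only [cstep, Par.first, e1, if_false, if_true, and_true, decide_true, false_and,
        Bool.false_eq_true, add_zero, true_and] at h3 ⊢
      refine ⟨fun h => h.elim, ?_⟩
      push_cast
      linear_combination h3
    · by_cases ha : lam + π b = l
      · simp only [cstep, Par.first, ha, hl, if_true, if_false, and_true, decide_true, false_and,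
          true_and, add_zero]
        cases f
        · simp only [Zin, Zout, Bool.false_eq_true, if_false, add_zero] at h3 ⊢
          simp only [Bool.not_false, Bool.not_true, Bool.and_true, Bool.and_false, if_true,
            Bool.false_eq_true, if_false, implies_true, true_and]
          push_cast
          linear_combination h3
        · simp only [Zin, Zout, if_true] at h3 ⊢
          simp only [Bool.not_false, Bool.not_true, Bool.and_true, Bool.and_false, if_true,
            Bool.false_eq_true, if_false, implies_true, true_and]
          push_cast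
          linear_combination h3
      · simp only [cstep, Par.first, ha, hl, if_false, and_true, false_and, true_and, add_zero]
        exact ⟨fun h => h.elim, h3⟩
  · simp only [hb, and_false, if_false, add_zero]
    by_cases ha : lam + π b = l
    · by_cases hl : lam = l
      · have hf := h2 hl
        subst hf
        subst hl
        simp only [cstep, Par.first, ha, hb, if_true, decide_false, Zin, Zout,
          Bool.false_eq_true, if_false, add_zero, true_and, implies_true, Bool.not_false,
          Bool.and_true, Bool.and_false, Bool.false_and] at h3 ⊢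
        linear_combination h3
      · cases f
        · simp only [cstep, Par.first, ha, hl, hb, if_true, decide_false, Zin, Zout,
            Bool.false_eq_true, if_false, add_zero, true_and, implies_true, Bool.not_false,
            Bool.and_true, Bool.and_false, Bool.false_and] at h3 ⊢
          linear_combination h3
        · simp only [cstep, Par.first, ha, hl, hb, if_true, decide_false, Zin, Zout,
            Bool.false_eq_true, if_false, add_zero, true_and, implies_true, Bool.not_false,
            Bool.not_true, Bool.and_true, Bool.and_false, Bool.false_and, Bool.and_self] at h3 ⊢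
          linear_combination h3
    · by_cases hl : lam = l
      · have hf := h2 hl
        subst hf
        subst hl
        simp only [cstep, Par.first, ha, hb, if_true, decide_false,
          Bool.false_eq_true, if_false, add_zero, true_and] at h3 ⊢
        exact ⟨fun h => h.elim, h3⟩
      · simp only [cstep, Par.first, ha, hl, if_false, true_and]
        exact ⟨fun h => h.elim, h3⟩

theorem rel_inout (π : α → ZMod p) (l : ZMod p) (x : α) (hx : π x ≠ 0) (w : List α) :
    (w.foldl (cstep N ⟨π, l, x, Zout⟩) (0, 0, false)).2
        = (w.foldl (cstep N ⟨π, l, x, Zin⟩) (0, 0, false)).2 ∧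
    ((w.foldl (cstep N ⟨π, l, x, Zout⟩) (0, 0, false)).2.1 = l →
      (w.foldl (cstep N ⟨π, l, x, Zout⟩) (0, 0, false)).2.2 = false) ∧
    ((cnt π l x w : ZMod N) - (cnt π (l - π x) x w : ZMod N)
      = (w.foldl (cstep N ⟨π, l, x, Zin⟩) (0, 0, false)).1
        - (w.foldl (cstep N ⟨π, l, x, Zout⟩) (0, 0, false)).1
        + (if (w.foldl (cstep N ⟨π, l, x, Zout⟩) (0, 0, false)).2.2 then 1 else 0)) := by
  induction w using List.reverseRecOn with
  | nil => simp [cnt_nil]
  | append_singleton w b ih =>
    have hlev := crun_level (N := N) ⟨π, l, x, Zout⟩ w (0, 0, false)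
    simp only [zero_add] at hlev
    rw [List.foldl_append, List.foldl_append, cnt_snoc, cnt_snoc]
    simp only [List.foldl_cons, List.foldl_nil]
    generalize w.foldl (cstep N ⟨π, l, x, Zout⟩) (0, 0, false) = so at ih hlev ⊢
    generalize w.foldl (cstep N ⟨π, l, x, Zin⟩) (0, 0, false) = si at ih ⊢
    obtain ⟨co, lam, f⟩ := so
    obtain ⟨ci, lam', f'⟩ := si
    obtain ⟨h1, h2, h3⟩ := ih
    simp only [Prod.mk.injEq] at h1
    obtain ⟨rfl, rfl⟩ := h1
    simp only at hlev h2 h3
    rw [← hlev]
    exact step_inout π l x hx co ci lam f b _ _ h2 h3

theorem rel_neutral (π : α → ZMod p) (l : ZMod p) (x : α) (hx : π x = 0) (w : List α) :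
    (cnt π l x w : ZMod N)
      = (w.foldl (cstep N ⟨π, l, x, Znone⟩) (0, 0, false)).1
        - (w.foldl (cstep N ⟨π, l, x, Zdiag⟩) (0, 0, false)).1 := by
  induction w using List.reverseRecOn with
  | nil => simp [cnt_nil]
  | append_singleton w b ih =>
    have hlev := crun_level (N := N) ⟨π, l, x, Znone⟩ w (0, 0, false)
    have hlev' := crun_level (N := N) ⟨π, l, x, Zdiag⟩ w (0, 0, false)
    simp only [zero_add] at hlev hlev'
    rw [List.foldl_append, List.foldl_append, cnt_snoc]
    simp only [List.foldl_cons, List.foldl_nil]
    generalize w.foldl (cstep N ⟨π, l, x, Znone⟩) (0, 0, false) = so at ih hlev ⊢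
    generalize w.foldl (cstep N ⟨π, l, x, Zdiag⟩) (0, 0, false) = si at ih hlev' ⊢
    obtain ⟨co, lam, f⟩ := so
    obtain ⟨ci, lam', f'⟩ := si
    simp only at hlev hlev' ih
    rw [← hlev'] at hlev
    subst hlev
    rw [← hlev']
    by_cases hb : b = x
    · subst hb
      by_cases hl : lam = l
      · subst hl
        simp only [cstep, Par.first, hx, add_zero, if_true, and_self, decide_true, Znone, Zdiag,
          Bool.and_self, Bool.false_eq_true, if_false]
        push_cast
        linear_combination ih
      · simp only [cstep, Par.first, hx, add_zero, hl, if_false, false_and]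
        simpa using ih
    · simp only [hb, and_false, if_false, add_zero]
      by_cases ha : lam + π b = l
      · simp only [cstep, ha, if_true, hb, decide_false, Znone, Zdiag, Bool.and_false,
          Bool.false_eq_true, if_false]
        linear_combination ih
      · simp only [cstep, ha, if_false]
        exact ih

theorem rel_cnt (x : α) (w : List α) :
    (w.foldl (cstep N ⟨fun _ => (0 : ZMod p), 0, x, Zcnt⟩) (0, 0, false))
      = (((w.count x : ℕ) : ZMod N), 0, false) := by
  induction w using List.reverseRecOn with
  | nil => simp
  | append_singleton w b ih =>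
    rw [List.foldl_append, ih]
    simp only [List.foldl_cons, List.foldl_nil, cstep, Par.first, add_zero, if_true,
      List.count_append]
    by_cases hb : b = x
    · subst hb
      simp [Zcnt]
    · have : List.count x [b] = 0 := by
        rw [List.count_eq_zero]; simp; exact fun h => hb h.symm
      simp [Zcnt, hb, this]

end Vale.Agent.Lib.P329
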