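import Vale.Agent.Lib.P329.Feedback

namespace Vale.Agent.Lib.P329

set_option linter.unusedSectionVars false

variable {α : Type} [DecidableEq α]

/-- parameters of a block-counting automaton -/
structure Par (α : Type) (p : ℕ) where
  π : α → ZMod p
  l : ZMod p
  x : α
  Z : Bool → Bool → Bool

variable {p : ℕ}

/-- the flag after reading `b` from level `lam` with flag `f` -/
def Par.first (P : Par α p) (lam : ZMod p) (f : Bool) (b : α) : Bool :=
  if lam = P.l then decide (b = P.x) else f

/-- the block-counting automaton -/
def cstep (N : ℕ) (P : Par α p) : ZMod N × ZMod p × Bool → α → ZMod N × ZMod p × Bool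
  | (c, lam, f), b =>
    if lam + P.π b = P.l then
      (if P.Z (P.first lam f b) (decide (b = P.x)) then c else c + 1, P.l, false)
    else (c, lam + P.π b, P.first lam f b)

/-- the silent part of the block-counting automaton -/
def rstep (P : Par α p) : Option (ZMod p × Bool) → α → Option (ZMod p × Bool)
  | none, _ => none
  | some (lam, f), b =>
    if lam + P.π b = P.l then
      (if P.Z (P.first lam f b) (decide (b = P.x)) then some (P.l, false) else none)
    else some (lam + P.π b, P.first lam f b)

theorem rrun_none (P : Par α p) (w : List α) : w.foldl (rstep P) none = none := by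
  induction w with
  | nil => rfl
  | cons a w ih => exact ih

theorem rrun_level (P : Par α p) (w : List α) (lam mu : ZMod p) (f g : Bool)
    (h : w.foldl (rstep P) (some (lam, f)) = some (mu, g)) : mu = lam + (w.map P.π).sum := by
  induction w generalizing lam f with
  | nil =>
    simp only [List.foldl_nil, Option.some.injEq, Prod.mk.injEq] at h
    simp [h.1]
  | cons b w ih =>
    rw [List.foldl_cons] at h
    simp only [rstep] at h
    split_ifs at h with h1 h2
    · rw [ih _ _ h, ← h1]; simp [add_assoc]
    · rw [rrun_none] at h; exact absurd h (by simp)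
    · rw [ih _ _ h]; simp [add_assoc]

theorem rrun_some_of_append (P : Par α p) (u v : List α) (z : Option (ZMod p × Bool))
    (t : ZMod p × Bool) (h : (u ++ v).foldl (rstep P) z = some t) :
    ∃ t', u.foldl (rstep P) z = some t' := by
  rw [List.foldl_append] at h
  cases hu : u.foldl (rstep P) z with
  | none => rw [hu, rrun_none] at h; exact absurd h (by simp)
  | some t' => exact ⟨t', rfl⟩

/-- flag independence -/
theorem rrun_flag (P : Par α p) (w : List α) (lam mu mu' : ZMod p) (f f' g g' : Bool)
    (h : w.foldl (rstep P) (some (lam, f)) = some (mu, g))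
    (h' : w.foldl (rstep P) (some (lam, f')) = some (mu', g')) :
    g = g' ∨ (g = f ∧ g' = f') := by
  induction w generalizing lam f f' with
  | nil =>
    simp only [List.foldl_nil, Option.some.injEq, Prod.mk.injEq] at h h'
    right; exact ⟨h.2.symm, h'.2.symm⟩
  | cons b w ih =>
    rw [List.foldl_cons] at h h'
    by_cases hl : lam = P.l
    · -- both next states coincide
      have e : rstep P (some (lam, f)) b = rstep P (some (lam, f')) b := by
        simp [rstep, Par.first, hl]
      rw [e, h'] at h
      simp only [Option.some.injEq, Prod.mk.injEq] at h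
      left; exact h.2.symm
    · simp only [rstep, Par.first, hl, if_false] at h h'
      split_ifs at h h' with h1 h2 h3
      · rw [h'] at h
        simp only [Option.some.injEq, Prod.mk.injEq] at h
        left; exact h.2.symm
      all_goals first
        | (rw [rrun_none] at h; exact absurd h (by simp))
        | (rw [rrun_none] at h'; exact absurd h' (by simp))
        | exact ih _ _ _ h h'

/-- doomed states never come back to the base level -/
theorem rrun_doomed (P : Par α p) (t : Bool) (ht : ∀ g, P.Z t g = false) (w : List α)
    (mu nu : ZMod p) (g : Bool) (hmu : mu ≠ P.l)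
    (h : w.foldl (rstep P) (some (mu, t)) = some (nu, g)) : nu ≠ P.l := by
  induction w generalizing mu with
  | nil =>
    simp only [List.foldl_nil, Option.some.injEq, Prod.mk.injEq] at h
    rw [← h.1]; exact hmu
  | cons b w ih =>
    rw [List.foldl_cons] at h
    by_cases h1 : mu + P.π b = P.l
    · simp only [rstep, Par.first, hmu, if_false, ht, h1, if_true] at h
      simp only [Bool.false_eq_true, if_false] at h
      rw [rrun_none] at h; exact absurd h (by simp)
    · simp only [rstep, Par.first, hmu, if_false, h1] at h
      exact ih _ h1 h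

theorem sum_map_flatten_replicate (π : α → ZMod p) (w : List α) (m : ℕ) :
    (((List.replicate m w).flatten).map π).sum = (m : ZMod p) * (w.map π).sum := by
  induction m with
  | zero => simp
  | succ m ih =>
    rw [List.replicate_succ, List.flatten_cons, List.map_append, List.sum_append, ih]
    push_cast
    ring

theorem exists_nonneutral (π : α → ZMod p) (w : List α) (h : (w.map π).sum ≠ 0) :
    ∃ u b v, w = u ++ b :: v ∧ π b ≠ 0 := by
  induction w with
  | nil => simp at h
  | cons a w ih =>
    by_cases ha : π a = 0
    · have : (w.map π).sum ≠ 0 := by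
        simpa [ha] using h
      obtain ⟨u, b, v, rfl, hb⟩ := ih this
      exact ⟨a :: u, b, v, rfl, hb⟩
    · exact ⟨[], a, w, rfl, ha⟩

/-- The silent automaton is counter-free. -/
theorem rstep_counterfree [Fact p.Prime] (P : Par α p)
    (hZ : ∀ b, P.π b ≠ 0 → (∀ f, P.Z f (decide (b = P.x)) = false) ∨
      (∀ g, P.Z (decide (b = P.x)) g = false))
    (w : List α) (s : ZMod p × Bool) (k : ℕ) (hk : 0 < k)
    (h : ((List.replicate k w).flatten).foldl (rstep P) (some s) = some s) :
    w.foldl (rstep P) (some s) = some s := by
  set F : Option (ZMod p × Bool) → Option (ZMod p × Bool) := fun z => w.foldl (rstep P) z with hF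
  have hFk : F^[k] (some s) = some s := by
    rw [← foldl_flatten_replicate]; exact h
  have hFnone : ∀ m, F^[m] none = none := by
    intro m
    induction m with
    | zero => rfl
    | succ m ih => rw [Function.iterate_succ_apply, hF]; simp only [rrun_none]; exact ih
  -- all iterates are defined
  have hsome : ∀ m, ∃ t, F^[m] (some s) = some t := by
    intro m
    cases hm : F^[m] (some s) with
    | some t => exact ⟨t, rfl⟩
    | none =>
      exfalso
      have h1 : F^[k * (m + 1)] (some s) = some s := by
        rw [Function.iterate_mul]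
        exact Function.iterate_fixed hFk (m + 1)
      have h2 : k * (m + 1) = (k * (m + 1) - m) + m := by
        have : m + 1 ≤ k * (m + 1) := Nat.le_mul_of_pos_left _ hk
        omega
      rw [h2, Function.iterate_add_apply, hm, hFnone] at h1
      exact absurd h1 (by simp)
  have hrun : ∀ m, ∃ t, ((List.replicate m w).flatten).foldl (rstep P) (some s) = some t := by
    intro m
    rw [foldl_flatten_replicate]
    exact hsome m
  obtain ⟨lam, f⟩ := s
  by_cases hw : (w.map P.π).sum = 0
  · -- level preserved
    obtain ⟨⟨l1, f1⟩, h1⟩ := hsome 1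
    obtain ⟨⟨l2, f2⟩, h2⟩ := hsome 2
    have h1' : w.foldl (rstep P) (some (lam, f)) = some (l1, f1) := h1
    have h2' : w.foldl (rstep P) (some (l1, f1)) = some (l2, f2) := by
      have : F^[2] (some (lam, f)) = F (F (some (lam, f))) := rfl
      rw [this] at h2
      have e : F (some (lam, f)) = some (l1, f1) := h1
      rw [e] at h2
      exact h2
    have hl1 : l1 = lam := by rw [rrun_level P w _ _ _ _ h1', hw, add_zero]
    have hl2 : l2 = lam := by rw [rrun_level P w _ _ _ _ h2', hw, add_zero, hl1]
    rw [hl1] at h1' h2' h1
    rw [hl2] at h2'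
    rcases rrun_flag P w _ _ _ _ _ _ _ h1' h2' with e | ⟨e, -⟩
    · -- F fixes (lam,f1)
      rw [← e] at h2'
      have hfix : F (some (lam, f1)) = some (lam, f1) := h2'
      have hall : ∀ m, F^[m + 1] (some (lam, f)) = some (lam, f1) := by
        intro m
        induction m with
        | zero => exact h1
        | succ m ih => rw [Function.iterate_succ_apply', ih]; exact hfix
      obtain ⟨k', rfl⟩ : ∃ k', k = k' + 1 := ⟨k - 1, by omega⟩
      rw [hall k'] at hFk
      rw [h1', hFk]
    · rw [h1', e]
  · exfalso
    obtain ⟨u, b, v, hwe, hb⟩ := exists_nonneutral P.π w hw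
    -- state reached after m copies of w and then u
    have hstate : ∀ m, ∃ g, ((List.replicate m w).flatten ++ u).foldl (rstep P) (some (lam, f))
        = some (lam + (m : ZMod p) * (w.map P.π).sum + (u.map P.π).sum, g) := by
      intro m
      obtain ⟨t, ht⟩ := hrun (m + 1)
      have e : (List.replicate (m + 1) w).flatten = ((List.replicate m w).flatten ++ u) ++ b :: v := by
        rw [List.replicate_succ', List.flatten_append]
        simp [hwe]
      rw [e] at ht
      obtain ⟨⟨mu, g⟩, hg⟩ := rrun_some_of_append P _ _ _ _ ht
      refine ⟨g, ?_⟩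
      rw [hg, rrun_level P _ _ _ _ _ hg, List.map_append, List.sum_append,
        sum_map_flatten_replicate, add_assoc]
    have hstep : ∀ m, ∃ t, ((List.replicate m w).flatten ++ u ++ [b]).foldl (rstep P) (some (lam, f))
        = some t := by
      intro m
      obtain ⟨t, ht⟩ := hrun (m + 1)
      have e : (List.replicate (m + 1) w).flatten = ((List.replicate m w).flatten ++ u ++ [b]) ++ v := by
        rw [List.replicate_succ', List.flatten_append]
        simp [hwe]
      rw [e] at ht
      exact rrun_some_of_append P _ _ _ _ ht
    -- solve for the copy index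
    have hsolve : ∀ target : ZMod p, ∃ m : ℕ,
        lam + (m : ZMod p) * (w.map P.π).sum + (u.map P.π).sum = target := by
      intro target
      refine ⟨((target - lam - (u.map P.π).sum) / (w.map P.π).sum).val, ?_⟩
      rw [ZMod.natCast_zmod_val, div_mul_cancel₀ _ hw]
      ring
    rcases hZ b hb with hz | hz
    · obtain ⟨m, hm⟩ := hsolve (P.l - P.π b)
      obtain ⟨g, hg⟩ := hstate m
      obtain ⟨t, ht⟩ := hstep m
      rw [List.foldl_append, hg, hm] at ht
      have hne : P.l - P.π b ≠ P.l := by
        intro e; apply hb
        have : P.l - P.π b = P.l - 0 := by rw [e]; ring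
        exact sub_right_injective this
      simp [rstep, Par.first, hne, hz] at ht
    · obtain ⟨m, hm⟩ := hsolve P.l
      obtain ⟨g, hg⟩ := hstate m
      obtain ⟨g', hg'⟩ := hstate (m + p)
      have hm' : lam + ((m + p : ℕ) : ZMod p) * (w.map P.π).sum + (u.map P.π).sum = P.l := by
        rw [← hm]; push_cast; simp
      rw [hm] at hg
      rw [hm'] at hg'
      have e : (List.replicate (m + p) w).flatten ++ u
          = ((List.replicate m w).flatten ++ u) ++ (b :: (v ++ ((List.replicate (p - 1) w).flatten ++ u))) := by
        have hp : p = 1 + (p - 1) := by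
          have := (Fact.out : p.Prime).one_lt
          omega
        conv_lhs => rw [hp, List.replicate_add, List.replicate_add, List.flatten_append,
          List.flatten_append]
        simp [hwe]
      rw [e, List.foldl_append, hg, List.foldl_cons] at hg'
      have hne : P.l + P.π b ≠ P.l := by
        intro e; apply hb
        exact left_eq_add.mp e.symm |>.symm ▸ rfl
      simp only [rstep, Par.first, hne, if_false, if_true] at hg'
      exact rrun_doomed P _ hz _ _ _ _ hne hg' rfl

end Vale.Agent.Lib.P329

namespace Vale.Agent.Lib.P329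

set_option linter.unusedSectionVars false

variable {α : Type} [DecidableEq α] {p : ℕ}

theorem zmod_val_lt_succ {N : ℕ} [NeZero N] (c : ZMod N) (h : c + 1 ≠ 0) :
    c.val < (c + 1).val := by
  have hN : 0 < N := Nat.pos_of_ne_zero (NeZero.ne N)
  have hc : c.val < N := ZMod.val_lt c
  by_cases h1 : N = 1
  · subst h1
    exact absurd (Subsingleton.elim (c + 1) 0) h
  have h1' : 1 < N := by omega
  have hone : (1 : ZMod N).val = 1 := by
    rw [ZMod.val_one_eq_one_mod, Nat.mod_eq_of_lt h1']
  by_cases h2 : c.val + 1 = N
  · exfalso
    apply h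
    rw [← ZMod.val_eq_zero, ZMod.val_add, hone, h2, Nat.mod_self]
  · rw [ZMod.val_add, hone, Nat.mod_eq_of_lt (by omega)]
    omega

variable {N : ℕ} [NeZero N]

theorem cstep_link (P : Par α p) (c c' : ZMod N) (lam lam' : ZMod p) (f f' : Bool) (b : α)
    (h : stepA (cstep N P) (0, P.l, false) (some (c, lam, f)) b = some (c', lam', f')) :
    c.val ≤ c'.val ∧ (c' = c → rstep P (some (lam, f)) b = some (lam', f')) := by
  simp only [stepA] at h
  split_ifs at h with h0
  simp only [Option.some.injEq] at h
  simp only [cstep] at h h0
  by_cases h1 : lam + P.π b = P.l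
  · simp only [h1, if_true] at h h0
    by_cases h2 : P.Z (P.first lam f b) (decide (b = P.x)) = true
    · simp only [h2, if_true, Prod.mk.injEq] at h
      obtain ⟨rfl, rfl, rfl⟩ := h
      refine ⟨le_rfl, fun _ => ?_⟩
      simp [rstep, h1, h2]
    · simp only [h2, Bool.false_eq_true, if_false, Prod.mk.injEq] at h h0
      obtain ⟨rfl, rfl, rfl⟩ := h
      have hne : c + 1 ≠ 0 := fun e => h0 (by simp [e])
      have hlt := zmod_val_lt_succ c hne
      refine ⟨hlt.le, fun e => ?_⟩
      rw [e] at hlt
      exact absurd hlt (lt_irrefl _)
  · simp only [h1, if_false, Prod.mk.injEq] at h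
    obtain ⟨rfl, rfl, rfl⟩ := h
    refine ⟨le_rfl, fun _ => ?_⟩
    simp [rstep, h1]

theorem crun_mono (P : Par α p) (w : List α) (c c' : ZMod N) (lam lam' : ZMod p) (f f' : Bool)
    (h : w.foldl (stepA (cstep N P) (0, P.l, false)) (some (c, lam, f)) = some (c', lam', f')) :
    c.val ≤ c'.val := by
  induction w generalizing c lam f with
  | nil =>
    simp only [List.foldl_nil, Option.some.injEq, Prod.mk.injEq] at h
    rw [h.1]
  | cons b w ih =>
    rw [List.foldl_cons] at h
    cases hs : stepA (cstep N P) (0, P.l, false) (some (c, lam, f)) b with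
    | none => rw [hs, foldl_stepA_none] at h; exact absurd h (by simp)
    | some t =>
      obtain ⟨c1, l1, f1⟩ := t
      rw [hs] at h
      exact (cstep_link P _ _ _ _ _ _ _ hs).1.trans (ih _ _ _ h)

theorem crun_link (P : Par α p) (w : List α) (c : ZMod N) (lam lam' : ZMod p) (f f' : Bool)
    (h : w.foldl (stepA (cstep N P) (0, P.l, false)) (some (c, lam, f)) = some (c, lam', f')) :
    w.foldl (rstep P) (some (lam, f)) = some (lam', f') := by
  induction w generalizing lam f with
  | nil =>
    simp only [List.foldl_nil, Option.some.injEq, Prod.mk.injEq] at h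
    simp [h.2.1, h.2.2]
  | cons b w ih =>
    rw [List.foldl_cons] at h ⊢
    cases hs : stepA (cstep N P) (0, P.l, false) (some (c, lam, f)) b with
    | none => rw [hs, foldl_stepA_none] at h; exact absurd h (by simp)
    | some t =>
      obtain ⟨c1, l1, f1⟩ := t
      rw [hs] at h
      have h1 := cstep_link P _ _ _ _ _ _ _ hs
      have h2 := crun_mono P _ _ _ _ _ _ _ h
      have hc : c1 = c := ZMod.val_injective N (le_antisymm h2 h1.1)
      rw [h1.2 hc]
      rw [hc] at h
      exact ih _ _ h

/-- All languages of a block-counting automaton have generalized star height at most one. -/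
theorem counter_HT [Finite α] [Fact p.Prime] (P : Par α p)
    (hZ : ∀ b, P.π b ≠ 0 → (∀ f, P.Z f (decide (b = P.x)) = false) ∨
      (∀ g, P.Z (decide (b = P.x)) g = false))
    (q q' : ZMod N × ZMod p × Bool) : HT 1 {w : List α | w.foldl (cstep N P) q = q'} := by
  have : Finite (ZMod N) := by
    have := ZMod.fintype N
    infer_instance
  have : NeZero p := ⟨(Fact.out : p.Prime).ne_zero⟩
  have : Finite (ZMod p) := by
    have := ZMod.fintype p
    infer_instance
  apply feedback (cstep N P) (0, P.l, false)
  rintro w ⟨c, lam, f⟩ k hk h
  have h1 := crun_link P _ _ _ _ _ _ h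
  have h2 := rstep_counterfree P hZ w (lam, f) k hk h1
  obtain ⟨k', rfl⟩ : ∃ k', k = k' + 1 := ⟨k - 1, by omega⟩
  rw [List.replicate_succ, List.flatten_cons, List.foldl_append] at h
  cases hs : w.foldl (stepA (cstep N P) (0, P.l, false)) (some (c, lam, f)) with
  | none => rw [hs, foldl_stepA_none] at h; exact absurd h (by simp)
  | some t =>
    obtain ⟨c1, l1, f1⟩ := t
    rw [hs] at h
    have m1 := crun_mono P _ _ _ _ _ _ _ hs
    have m2 := crun_mono P _ _ _ _ _ _ _ h
    have hc : c1 = c := ZMod.val_injective N (le_antisymm m2 m1)
    rw [hc] at hs ⊢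
    have h3 := crun_link P _ _ _ _ _ _ hs
    rw [h2] at h3
    simp only [Option.some.injEq, Prod.mk.injEq] at h3
    rw [← h3.1, ← h3.2]

end Vale.Agent.Lib.P329
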