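import Mathlib

namespace Vale.Agent.Lib.P329

/-- Generalized regular expressions over the alphabet `α`. -/
inductive GRE (α : Type) : Type
  | zero : GRE α
  | one : GRE α
  | char : α → GRE α
  | plus : GRE α → GRE α → GRE α
  | comp : GRE α → GRE α → GRE α
  | compl : GRE α → GRE α
  | star : GRE α → GRE α

/-- The language denoted by a generalized regular expression
(complement is taken in the set of all words over `α`). -/
def GRE.lang {α : Type} : GRE α → Language α
  | GRE.zero => 0
  | GRE.one => 1
  | GRE.char a => {[a]}
  | GRE.plus P Q => GRE.lang P + GRE.lang Q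
  | GRE.comp P Q => GRE.lang P * GRE.lang Q
  | GRE.compl P => (GRE.lang P)ᶜ
  | GRE.star P => KStar.kstar (GRE.lang P)

/-- The star height of a generalized regular expression. -/
def GRE.sh {α : Type} : GRE α → ℕ
  | GRE.zero => 0
  | GRE.one => 0
  | GRE.char _ => 0
  | GRE.plus P Q => max (GRE.sh P) (GRE.sh Q)
  | GRE.comp P Q => max (GRE.sh P) (GRE.sh Q)
  | GRE.compl P => GRE.sh P
  | GRE.star P => GRE.sh P + 1

end Vale.Agent.Lib.P329
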