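import Vale.Agent.Lib.P329.Schutz

namespace Vale.Agent.Lib.P329

variable {α Q : Type}

/-- transformations of `Q`, composed from left to right -/
@[ext] structure TF (Q : Type) where
  f : Q → Q

instance : Monoid (TF Q) where
  mul x y := ⟨fun q => y.f (x.f q)⟩
  one := ⟨fun q => q⟩
  mul_assoc _ _ _ := rfl
  one_mul _ := rfl
  mul_one _ := rfl

theorem TF.mul_f (x y : TF Q) : (x * y).f = fun q => y.f (x.f q) := rfl
theorem TF.one_f : (1 : TF Q).f = fun q => q := rfl

instance [Finite Q] : Finite (TF Q) :=
  Finite.of_injective (fun x : TF Q => x.f) (fun _ _ h => TF.ext h)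

theorem TF.pow_f (x : TF Q) (n : ℕ) : (x ^ n).f = x.f^[n] := by
  induction n with
  | zero => rfl
  | succ n ih =>
    rw [pow_succ, TF.mul_f, ih, Function.iterate_succ']
    rfl

/-- the letter-to-transformation map -/
def tr (δ : Q → α → Q) (a : α) : TF Q := ⟨fun q => δ q a⟩

theorem tr_prod (δ : Q → α → Q) (w : List α) :
    ((w.map (tr δ)).prod).f = fun q => w.foldl δ q := by
  induction w with
  | nil => rfl
  | cons a w ih =>
    rw [List.map_cons, List.prod_cons, TF.mul_f, ih]
    rfl

/-- A finite deterministic automaton all of whose word transformations are aperiodic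
recognizes only star-free languages. -/
theorem dfa_sf [Finite α] [Finite Q] (δ : Q → α → Q)
    (hap : ∀ w : List α, ∃ n : ℕ, ∀ q, (fun q => w.foldl δ q)^[n] q = (fun q => w.foldl δ q)^[n + 1] q)
    (q q' : Q) : HT 0 {w : List α | w.foldl δ q = q'} := by
  classical
  let S : Submonoid (TF Q) := Submonoid.closure (Set.range (tr δ))
  have hword : ∀ x ∈ S, ∃ w : List α, x = (w.map (tr δ)).prod := by
    intro x hx
    induction hx using Submonoid.closure_induction with
    | mem x hx =>
      obtain ⟨a, rfl⟩ := hx
      exact ⟨[a], by simp⟩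
    | one => exact ⟨[], by simp⟩
    | mul x y _ _ hx hy =>
      obtain ⟨u, rfl⟩ := hx
      obtain ⟨v, rfl⟩ := hy
      exact ⟨u ++ v, by simp⟩
  have hM : ∀ x : S, ∃ n : ℕ, x ^ n = x ^ (n + 1) := by
    rintro ⟨x, hx⟩
    obtain ⟨w, rfl⟩ := hword x hx
    obtain ⟨n, hn⟩ := hap w
    refine ⟨n, ?_⟩
    apply Subtype.ext
    simp only [SubmonoidClass.coe_pow]
    apply TF.ext
    rw [TF.pow_f, TF.pow_f, tr_prod]
    funext q
    exact hn q
  let φ : α → S := fun a => ⟨tr δ a, Submonoid.subset_closure ⟨a, rfl⟩⟩
  have hφ : ∀ w : List α, ((w.map φ).prod : S).1 = (w.map (tr δ)).prod := by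
    intro w
    induction w with
    | nil => rfl
    | cons a w ih =>
      simp only [List.map_cons, List.prod_cons, Submonoid.coe_mul, ih]
      rfl
  have key := HT.iUnion_prop (k := 0) (fun m : S => m.1.f q = q')
    (fun m => {w : List α | (w.map φ).prod = m}) (fun m _ => schutz S hM α φ m)
  refine key.of_eq ?_
  ext w
  constructor
  · rintro ⟨m, hm, hw⟩
    have hw' : (w.map φ).prod = m := hw
    rw [← hw', hφ, tr_prod] at hm
    exact hm
  · intro hw
    refine ⟨(w.map φ).prod, ?_, rfl⟩
    rw [hφ, tr_prod]
    exact hw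

/-- A self-map of a finite type without nontrivial periodic points is aperiodic. -/
theorem iterate_stabilizes {X : Type} [Finite X] (F : X → X)
    (h : ∀ z k, 0 < k → F^[k] z = z → F z = z) : ∃ n : ℕ, ∀ z, F^[n] z = F^[n + 1] z := by
  classical
  have := Fintype.ofFinite X
  refine ⟨Fintype.card X, fun z => ?_⟩
  -- pigeonhole
  obtain ⟨i, j, hij, he⟩ : ∃ i j : Fin (Fintype.card X + 1), i ≠ j ∧ F^[i.1] z = F^[j.1] z := by
    by_contra hcon
    push Not at hcon
    have hinj : Function.Injective (fun i : Fin (Fintype.card X + 1) => F^[i.1] z) := by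
      intro i j hij
      by_contra hne
      exact hcon i j hne hij
    have := Fintype.card_le_of_injective _ hinj
    simp at this
  -- wlog i < j
  have main : ∀ i j : ℕ, i < j → i ≤ Fintype.card X → F^[i] z = F^[j] z →
      F^[Fintype.card X] z = F^[Fintype.card X + 1] z := by
    intro i j hlt hi he
    have hper : F^[j - i] (F^[i] z) = F^[i] z := by
      rw [← Function.iterate_add_apply, Nat.sub_add_cancel hlt.le, he]
    have hfix : F (F^[i] z) = F^[i] z := h _ _ (Nat.sub_pos_of_lt hlt) hper
    have hall : ∀ m, F^[i + m] z = F^[i] z := by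
      intro m
      induction m with
      | zero => rfl
      | succ m ih =>
        rw [← Nat.add_assoc, Function.iterate_succ_apply', ih, hfix]
    obtain ⟨m, hm⟩ := Nat.exists_eq_add_of_le hi
    rw [hm, hall m, Nat.add_assoc, hall (m + 1)]
  rcases lt_or_gt_of_ne (fun h => hij (Fin.ext h) : i.1 ≠ j.1) with hlt | hlt
  · exact main i.1 j.1 hlt (by have := j.2; omega) he
  · exact main j.1 i.1 hlt (by have := i.2; omega) he.symm

section feedback

variable [DecidableEq Q]

/-- one step of the automaton in which every arrival at the state `b` is forbidden -/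
def stepA (δ : Q → α → Q) (b : Q) : Option Q → α → Option Q
  | none, _ => none
  | some q, a => if δ q a = b then none else some (δ q a)

theorem foldl_stepA_none (δ : Q → α → Q) (b : Q) (w : List α) :
    w.foldl (stepA δ b) none = none := by
  induction w with
  | nil => rfl
  | cons a w ih => exact ih

theorem foldl_flatten_replicate {X : Type} (f : X → α → X) (w : List α) (k : ℕ) (z : X) :
    ((List.replicate k w).flatten).foldl f z = (fun z => w.foldl f z)^[k] z := by
  induction k generalizing z with
  | zero => rfl
  | succ k ih =>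
    rw [List.replicate_succ, List.flatten_cons, List.foldl_append, ih, Function.iterate_succ_apply]

theorem stepA_real (δ : Q → α → Q) (b : Q) (w : List α) (q q' : Q)
    (h : w.foldl (stepA δ b) (some q) = some q') : w.foldl δ q = q' := by
  induction w generalizing q with
  | nil => simpa using h
  | cons a w ih =>
    rw [List.foldl_cons] at h ⊢
    by_cases hb : δ q a = b
    · simp only [stepA, hb, if_true] at h
      rw [foldl_stepA_none] at h
      exact absurd h (by simp)
    · simp only [stepA, hb, if_false] at h
      exact ih _ h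

/-- **Feedback-vertex theorem.**  If forbidding all arrivals at one state `b` leaves an automaton
without nontrivial cycles of words (a counter-free automaton), then all languages
`{w | q ⬝ w = q'}` have generalized star height at most one. -/
theorem feedback [Finite α] [Finite Q] (δ : Q → α → Q) (b : Q)
    (hcf : ∀ (w : List α) (q : Q) (k : ℕ), 0 < k →
      ((List.replicate k w).flatten).foldl (stepA δ b) (some q) = some q →
      w.foldl (stepA δ b) (some q) = some q)
    (q q' : Q) : HT 1 {w : List α | w.foldl δ q = q'} := by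
  classical
  have hap : ∀ w : List α, ∃ n : ℕ, ∀ z, (fun z => w.foldl (stepA δ b) z)^[n] z
      = (fun z => w.foldl (stepA δ b) z)^[n + 1] z := by
    intro w
    apply iterate_stabilizes
    intro z k hk hz
    cases z with
    | none => exact foldl_stepA_none δ b w
    | some q =>
      apply hcf w q k hk
      rw [foldl_flatten_replicate]
      exact hz
  have hsf : ∀ z z' : Option Q, HT 0 {w : List α | w.foldl (stepA δ b) z = z'} :=
    fun z z' => dfa_sf (stepA δ b) hap z z'
  let L' : Q → Q → Set (List α) := fun q q' => {w | w.foldl (stepA δ b) (some q) = some q'}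
  let E : Q → Set (List α) := fun q => {w | ∃ x : Q × α, δ x.1 x.2 = b ∧ w ∈ catL (L' q x.1) {[x.2]}}
  have hL' : ∀ q q', HT 0 (L' q q') := fun q q' => hsf _ _
  have hE : ∀ q, HT 0 (E q) := fun q =>
    HT.iUnion_prop _ _ (fun x _ => (hL' q x.1).cat (HT.char 0 x.2))
  have hEreal : ∀ q w, w ∈ E q → w.foldl δ q = b := by
    rintro q w ⟨⟨q1, a⟩, hx, u, hu, v, hv, rfl⟩
    have hv' : v = [a] := hv
    subst hv'
    rw [List.foldl_append, stepA_real δ b u q q1 hu]
    exact hx
  have hEne : ∀ q w, w ∈ E q → w ≠ [] := by
    rintro q w ⟨⟨q1, a⟩, hx, u, hu, v, hv, rfl⟩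
    have hv' : v = [a] := hv
    subst hv'
    simp
  have hstar : ∀ w, w ∈ strL (E b) → w.foldl δ b = b := by
    rintro w ⟨S, rfl, hS⟩
    induction S with
    | nil => rfl
    | cons u S ih =>
      rw [List.flatten_cons, List.foldl_append, hEreal b u (hS u (by simp))]
      exact ih (fun y hy => hS y (by simp [hy]))
  -- decomposition
  have hdec : ∀ (w : List α) (q : Q), w.foldl (stepA δ b) (some q) = some (w.foldl δ q) ∨
      ∃ u v, w = u ++ v ∧ u ∈ E q := by
    intro w
    induction w with
    | nil => intro q; left; rfl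
    | cons a w ih =>
      intro q
      by_cases hb : δ q a = b
      · right
        exact ⟨[a], w, rfl, ⟨(q, a), hb, [], rfl, [a], rfl, rfl⟩⟩
      · rcases ih (δ q a) with h | ⟨u, v, rfl, ⟨⟨q1, c⟩, hx, x, hx1, y, hy, rfl⟩⟩
        · left
          rw [List.foldl_cons, List.foldl_cons]
          simp only [stepA, hb, if_false]
          exact h
        · right
          refine ⟨a :: (x ++ y), v, rfl, ⟨(q1, c), hx, a :: x, ?_, y, hy, rfl⟩⟩
          show (a :: x).foldl (stepA δ b) (some q) = some q1
          rw [List.foldl_cons]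
          simp only [stepA, hb, if_false]
          exact hx1
  have hmain : ∀ (n : ℕ) (w : List α), w.length ≤ n → ∀ q', w.foldl δ b = q' →
      w ∈ catL (strL (E b)) (L' b q') := by
    intro n
    induction n with
    | zero =>
      intro w hw q' hq
      have : w = [] := List.length_eq_zero_iff.mp (Nat.le_zero.mp hw)
      subst this
      refine ⟨[], ⟨[], rfl, by simp⟩, [], ?_, rfl⟩
      show some b = some q'
      rw [← hq]; rfl
    | succ n ih =>
      intro w hw q' hq
      rcases hdec w b with h | ⟨u, v, rfl, hu⟩
      · refine ⟨[], ⟨[], rfl, by simp⟩, w, ?_, rfl⟩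
        show w.foldl (stepA δ b) (some b) = some q'
        rw [h, hq]
      · have hlen : v.length ≤ n := by
          have h1 : u.length ≠ 0 := fun h0 => hEne b u hu (List.length_eq_zero_iff.mp h0)
          rw [List.length_append] at hw
          omega
        rw [List.foldl_append, hEreal b u hu] at hq
        obtain ⟨s, ⟨S, rfl, hS⟩, t, ht, rfl⟩ := ih v hlen q' hq
        refine ⟨u ++ S.flatten, ⟨u :: S, rfl, ?_⟩, t, ht, by simp⟩
        intro y hy
        rcases List.mem_cons.mp hy with rfl | hy
        · exact hu
        · exact hS y hy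
  have hfinal : HT 1 (L' q q' ∪ catL (E q) (catL (strL (E b)) (L' b q'))) :=
    ((hL' q q').mono (Nat.zero_le 1)).union
      (((hE q).mono (Nat.zero_le 1)).cat ((hE b).str.cat ((hL' b q').mono (Nat.zero_le 1))))
  refine hfinal.of_eq ?_
  ext w
  constructor
  · rintro (h | ⟨u, hu, v, ⟨s, hs, t, ht, rfl⟩, rfl⟩)
    · exact stepA_real δ b w q q' h
    · show (u ++ (s ++ t)).foldl δ q = q'
      rw [List.foldl_append, List.foldl_append, hEreal q u hu, hstar s hs]
      exact stepA_real δ b t b q' ht
  · intro hw
    have hw' : w.foldl δ q = q' := hw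
    rcases hdec w q with h | ⟨u, v, rfl, hu⟩
    · left
      show w.foldl (stepA δ b) (some q) = some q'
      rw [h, hw']
    · right
      rw [List.foldl_append, hEreal q u hu] at hw'
      exact ⟨u, hu, v, hmain v.length v le_rfl q' hw', rfl⟩

end feedback

end Vale.Agent.Lib.P329
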