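import Vale.Agent.Lib.P329.Radon

namespace Vale.Agent.Lib.P329

set_option linter.unusedSectionVars false
set_option linter.unusedSimpArgs false

variable {α : Type} [DecidableEq α]

theorem count_bridge {T : Type} (i1 i2 : BEq T) [@LawfulBEq T i1] [@LawfulBEq T i2] (t : T)
    (L : List T) : @List.count T i1 t L = @List.count T i2 t L := by
  induction L with
  | nil => rfl
  | cons a L ih =>
    rw [@List.count_cons T i1, @List.count_cons T i2, ih]
    congr 1
    by_cases h : a = t
    · subst h
      simp
    · have h1 : (@BEq.beq T i1 a t) = false := by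
        rw [Bool.eq_false_iff]; intro hh; exact h (@eq_of_beq T i1 _ _ _ hh)
      have h2 : (@BEq.beq T i2 a t) = false := by
        rw [Bool.eq_false_iff]; intro hh; exact h (@eq_of_beq T i2 _ _ _ hh)
      rw [h1, h2]

/-- in a commutative monoid of exponent `e`, a product only depends on the counts modulo `e` -/
theorem prod_map_eq_of_count {T K : Type} [DecidableEq T] [CommMonoid K] (e : ℕ)
    (hK : ∀ x : K, x ^ e = 1) (f : T → K) (L L' : List T)
    (h : ∀ t, L.count t ≡ L'.count t [MOD e]) : (L.map f).prod = (L'.map f).prod := by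
  rw [Finset.prod_list_map_count, Finset.prod_list_map_count]
  have h1 : ∏ m ∈ L.toFinset, f m ^ L.count m
      = ∏ m ∈ L.toFinset ∪ L'.toFinset, f m ^ L.count m := by
    apply Finset.prod_subset Finset.subset_union_left
    intro m _ hm
    rw [List.mem_toFinset] at hm
    rw [List.count_eq_zero_of_not_mem hm, pow_zero]
  have h2 : ∏ m ∈ L'.toFinset, f m ^ L'.count m
      = ∏ m ∈ L.toFinset ∪ L'.toFinset, f m ^ L'.count m := by
    apply Finset.prod_subset Finset.subset_union_right
    intro m _ hm
    rw [List.mem_toFinset] at hm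
    rw [List.count_eq_zero_of_not_mem hm, pow_zero]
  rw [h1, h2]
  apply Finset.prod_congr rfl
  intro m _
  exact pow_eq_pow_of_modEq (h m) (hK _)

section core

variable {G V : Type} [Group G] [AddCommGroup V] [DecidableEq V]

theorem lev_one (lev : G → V) (hmul : ∀ g h, lev (g * h) = lev g + lev h) : lev 1 = 0 := by
  have := hmul 1 1
  rw [mul_one] at this
  exact (add_eq_left.mp this.symm)

theorem lev_inv (lev : G → V) (hmul : ∀ g h, lev (g * h) = lev g + lev h) (g : G) :
    lev g⁻¹ = - lev g := by
  have := hmul g g⁻¹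
  rw [mul_inv_cancel, lev_one lev hmul] at this
  exact (neg_eq_of_add_eq_zero_right this.symm).symm

/-- the cocycle -/
def kap (lev : G → V) (s : V → G) (φ : α → G) (t : V × α) : G :=
  s t.1 * φ t.2 * (s (t.1 + lev (φ t.2)))⁻¹

theorem kap_formula (lev : G → V) (s : V → G) (φ : α → G) (lam : V) (w : List α) :
    s lam * (w.map φ).prod
      = ((ann (fun a => lev (φ a)) lam w).map (kap lev s φ)).prod
        * s (lam + (w.map (fun a => lev (φ a))).sum) := by
  induction w generalizing lam with
  | nil => simp [ann]
  | cons a w ih =>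
    simp only [List.map_cons, List.prod_cons, List.sum_cons, ann]
    rw [mul_assoc (kap lev s φ (lam, a)), ← add_assoc, ← ih]
    simp only [kap]
    group

theorem prod_determined (lev : G → V) (hmul : ∀ g h, lev (g * h) = lev g + lev h)
    (hsurj : Function.Surjective lev)
    (hcomm : ∀ a b, lev a = 0 → lev b = 0 → a * b = b * a) (e : ℕ) (he : ∀ g : G, g ^ e = 1)
    (φ : α → G) (w w' : List α)
    (hc : ∀ v x, cnt (fun a => lev (φ a)) v x w ≡ cnt (fun a => lev (φ a)) v x w' [MOD e])
    (ht : (w.map (fun a => lev (φ a))).sum = (w'.map (fun a => lev (φ a))).sum) :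
    (w.map φ).prod = (w'.map φ).prod := by
  let K : Subgroup G :=
    { carrier := {g | lev g = 0}
      mul_mem' := by
        intro a b ha hb
        change lev (a * b) = 0
        rw [hmul, ha, hb, add_zero]
      one_mem' := lev_one lev hmul
      inv_mem' := by
        intro a ha
        change lev a⁻¹ = 0
        rw [lev_inv lev hmul, ha, neg_zero] }
  let _ : CommGroup K :=
    { (inferInstance : Group K) with
      mul_comm := fun a b => Subtype.ext (hcomm a.1 b.1 a.2 b.2) }
  let s : V → G := Function.surjInv hsurj
  have hs : ∀ v, lev (s v) = v := Function.surjInv_eq hsurj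
  let κ : V × α → K := fun t => ⟨kap lev s φ t, by
    change lev (kap lev s φ t) = 0
    simp only [kap, hmul, lev_inv lev hmul, hs]
    abel⟩
  have hcoe : ∀ L : List (V × α), ((L.map κ).prod : K).1 = (L.map (kap lev s φ)).prod := by
    intro L
    induction L with
    | nil => rfl
    | cons t L ih =>
      simp only [List.map_cons, List.prod_cons]
      rw [← ih]
      rfl
  have hK : ∀ x : K, x ^ e = 1 := by
    intro x
    apply Subtype.ext
    have : ∀ n : ℕ, (x ^ n).1 = x.1 ^ n := by
      intro n
      induction n with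
      | zero => rfl
      | succ n ih => rw [pow_succ, pow_succ, ← ih]; rfl
    rw [this, he]
    rfl
  have h1 := prod_map_eq_of_count e hK κ (ann (fun a => lev (φ a)) 0 w)
    (ann (fun a => lev (φ a)) 0 w') (fun ⟨v, x⟩ => by
      have := hc v x
      unfold cnt at this
      rw [count_bridge instBEqProd instBEqOfDecidableEq (v, x) (ann (fun a => lev (φ a)) 0 w),
        count_bridge instBEqProd instBEqOfDecidableEq (v, x) (ann (fun a => lev (φ a)) 0 w')]
        at this
      exact this)
  have h2 := congrArg Subtype.val h1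
  rw [hcoe, hcoe] at h2
  have f1 := kap_formula lev s φ 0 w
  have f2 := kap_formula lev s φ 0 w'
  rw [h2, ht, ← f2] at f1
  exact mul_left_cancel f1

end core

/-- the analytic core: a finite group with a surjective additive level map onto `(ZMod p)^k`
whose kernel is commutative only recognizes languages of generalized star height at most one -/
theorem lev_HT {p : ℕ} [Fact p.Prime] [Finite α] {G : Type} [Group G] [Finite G] (k : ℕ)
    (lev : G → (Fin k → ZMod p)) (hmul : ∀ g h, lev (g * h) = lev g + lev h)
    (hsurj : Function.Surjective lev)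
    (hcomm : ∀ a b, lev a = 0 → lev b = 0 → a * b = b * a) (φ : α → G) (S : Set G) :
    HT 1 {w : List α | (w.map φ).prod ∈ S} := by
  have hp : p ≠ 0 := (Fact.out : p.Prime).ne_zero
  have : NeZero p := ⟨hp⟩
  have : Finite (ZMod p) := by
    have := ZMod.fintype p
    infer_instance
  have : NeZero (Nat.card G) := ⟨Nat.card_pos.ne'⟩
  have : Finite (ZMod (Nat.card G)) := by
    have := ZMod.fintype (Nat.card G)
    infer_instance
  apply HT.of_invariant
    (ι := (((Fin k → ZMod p) × α) → ZMod (Nat.card G)) × (Fin k → ZMod p))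
    (fun w => (fun t => ((cnt (fun a => lev (φ a)) t.1 t.2 w : ℕ) : ZMod (Nat.card G)),
      (w.map (fun a => lev (φ a))).sum))
  · rintro ⟨i1, i2⟩
    have h1 := HT.iInter (k := 1) (fun t : (Fin k → ZMod p) × α =>
      {w : List α | ((cnt (fun a => lev (φ a)) t.1 t.2 w : ℕ) : ZMod (Nat.card G)) = i1 t})
      (fun t => vlevel_HT k _ _ _ _ _)
    have h2 := vtotal_HT k (fun a => lev (φ a)) i2
    refine (h1.inter h2).of_eq ?_
    ext w
    simp only [Set.mem_inter_iff, Set.mem_ofPred_eq, Prod.mk.injEq]
    constructor
    · rintro ⟨g1, g2⟩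
      exact ⟨funext g1, g2⟩
    · rintro ⟨g1, g2⟩
      exact ⟨fun t => congrFun g1 t, g2⟩
  · intro w w' h
    simp only [Prod.mk.injEq] at h
    obtain ⟨h1, h2⟩ := h
    simp only [Set.mem_ofPred_eq]
    rw [prod_determined lev hmul hsurj hcomm (Nat.card G) (fun g => pow_card_eq_one') φ w w'
      (fun v x => (ZMod.natCast_eq_natCast_iff _ _ _).mp (congrFun h1 (v, x))) h2]

end Vale.Agent.Lib.P329
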