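import Vale.Agent.Lib.P329.Quot

namespace Vale.Agent.Lib.P329

set_option linter.unusedSectionVars false
set_option linter.unusedSimpArgs false

theorem abel_elem_HT (p : ℕ) (hp : p.Prime) (G : Type) [Group G] [Finite G] (A : Subgroup G)
    [A.Normal] (hA : ∀ a ∈ A, ∀ b ∈ A, a * b = b * a)
    (hq : ∀ g h : G, g * h * g⁻¹ * h⁻¹ ∈ A) (hpow : ∀ g : G, g ^ p ∈ A)
    (α : Type) [Finite α] (φ : α → G) (S : Set G) :
    HT 1 {w : List α | (w.map φ).prod ∈ S} := by
  classical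
  have : Fact p.Prime := ⟨hp⟩
  obtain ⟨k, lev, hmul, hsurj, hker⟩ := exists_lev (p := p) A hq hpow
  exact lev_HT k lev hmul hsurj
    (fun a b ha hb => hA a ((hker a).mp ha) b ((hker b).mp hb)) φ S

/-- one factor of the subdirect decomposition -/
theorem factor_HT (p : ℕ) (hp : p.Prime) (G : Type) [Group G] [Finite G] (A : Subgroup G)
    [A.Normal] (hq : ∀ g h : G, g * h * g⁻¹ * h⁻¹ ∈ A) (hpow : ∀ g : G, g ^ p ∈ A)
    (α : Type) [Finite α] (φ : α → G) (x : G ⧸ ⁅A, A⁆) :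
    HT 1 {w : List α | (((w.map φ).prod : G) : G ⧸ ⁅A, A⁆) = x} := by
  have hsurj : Function.Surjective (QuotientGroup.mk' ⁅A, A⁆) := QuotientGroup.mk'_surjective _
  have hn : (A.map (QuotientGroup.mk' ⁅A, A⁆)).Normal := Subgroup.Normal.map inferInstance _ hsurj
  have key := abel_elem_HT p hp (G ⧸ ⁅A, A⁆) (A.map (QuotientGroup.mk' ⁅A, A⁆))
    (by
      rintro _ ⟨a, ha, rfl⟩ _ ⟨b, hb, rfl⟩
      simp only [QuotientGroup.mk'_apply]
      rw [← QuotientGroup.mk_mul, ← QuotientGroup.mk_mul, QuotientGroup.eq]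
      have := Subgroup.commutator_mem_commutator (Subgroup.inv_mem _ hb) (Subgroup.inv_mem _ ha)
      rw [commutatorElement_def] at this
      simpa [mul_assoc] using this)
    (by
      intro g h
      obtain ⟨g, rfl⟩ := hsurj g
      obtain ⟨h, rfl⟩ := hsurj h
      exact ⟨g * h * g⁻¹ * h⁻¹, hq g h, by simp⟩)
    (by
      intro g
      obtain ⟨g, rfl⟩ := hsurj g
      exact ⟨g ^ p, hpow g, by simp⟩)
    α (fun a => (φ a : G ⧸ ⁅A, A⁆)) {x}
  refine key.of_eq ?_
  ext w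
  simp only [Set.mem_ofPred_eq, Set.mem_singleton_iff]
  have : ((w.map φ).prod : G ⧸ ⁅A, A⁆) = (w.map (fun a => (φ a : G ⧸ ⁅A, A⁆))).prod := by
    induction w with
    | nil => rfl
    | cons a w ih => simp [ih]
  rw [this]

theorem subdirect_HT (G : Type) [Group G] [Finite G] (ι : Type) [Finite ι] (p : ι → ℕ)
    (hp : ∀ i, (p i).Prime) (A : ι → Subgroup G) (hn : ∀ i, (A i).Normal)
    (hq : ∀ i, ∀ g h : G, g * h * g⁻¹ * h⁻¹ ∈ A i) (hpow : ∀ i, ∀ g : G, g ^ p i ∈ A i)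
    (hsep : ∀ g : G, (∀ i, g ∈ ⁅A i, A i⁆) → g = 1)
    (α : Type) [Finite α] (φ : α → G) (S : Set G) :
    HT 1 {w : List α | (w.map φ).prod ∈ S} := by
  apply HT.of_invariant (ι := ∀ i, G ⧸ ⁅A i, A i⁆)
    (fun w i => (((w.map φ).prod : G) : G ⧸ ⁅A i, A i⁆))
  · intro x
    have := HT.iInter (k := 1)
      (fun i => {w : List α | (((w.map φ).prod : G) : G ⧸ ⁅A i, A i⁆) = x i})
      (fun i => by
        have := hn i
        exact factor_HT (p i) (hp i) G (A i) (hq i) (hpow i) α φ (x i))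
    refine this.of_eq ?_
    ext w
    simp only [Set.mem_ofPred_eq]
    exact funext_iff.symm
  · intro w w' h
    have : (w.map φ).prod = (w'.map φ).prod := by
      have h1 : ((w.map φ).prod)⁻¹ * (w'.map φ).prod = 1 := by
        apply hsep
        intro i
        exact QuotientGroup.eq.mp (congrFun h i)
      exact (inv_mul_eq_one.mp h1)
    simp only [Set.mem_ofPred_eq, this]

end Vale.Agent.Lib.P329
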