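import Vale.Agent.Lib.P329.Nil3c
import Vale.Agent.Lib.P329.Subdirect

namespace Vale.Agent.Lib.P329

set_option linter.unusedSectionVars false
set_option linter.unusedSimpArgs false

theorem lcs3_HT (G : Type) [Group G] [Finite G]
    (h : Subgroup.lowerCentralSeries (⊤ : Subgroup G) 3 = ⊥)
    (α : Type) [Finite α] (φ : α → G) (S : Set G) :
    HT 1 {w : List α | (w.map φ).prod ∈ S} := by
  classical
  exact cl3_HT (cl3_of_lcs h) φ S

/-- the class three factor of the subdirect decomposition -/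
theorem factor3_HT (G : Type) [Group G] [Finite G] (α : Type) [Finite α] (φ : α → G)
    (x : G ⧸ Subgroup.lowerCentralSeries (⊤ : Subgroup G) 3) :
    HT 1 {w : List α |
      (((w.map φ).prod : G) : G ⧸ Subgroup.lowerCentralSeries (⊤ : Subgroup G) 3) = x} := by
  have hsurj : Function.Surjective
      (QuotientGroup.mk' (Subgroup.lowerCentralSeries (⊤ : Subgroup G) 3)) :=
    QuotientGroup.mk'_surjective _
  have h3 : Subgroup.lowerCentralSeries
      (⊤ : Subgroup (G ⧸ Subgroup.lowerCentralSeries (⊤ : Subgroup G) 3)) 3 = ⊥ := by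
    rw [← Subgroup.map_top_of_surjective _ hsurj, ← Subgroup.map_lowerCentralSeries]
    rw [Subgroup.map_eq_bot_iff, QuotientGroup.ker_mk']
  have key := lcs3_HT (G ⧸ Subgroup.lowerCentralSeries (⊤ : Subgroup G) 3) h3 α
    (fun a => (φ a : G ⧸ Subgroup.lowerCentralSeries (⊤ : Subgroup G) 3)) {x}
  refine key.of_eq ?_
  ext w
  simp only [Set.mem_ofPred_eq, Set.mem_singleton_iff]
  have : ((w.map φ).prod : G ⧸ Subgroup.lowerCentralSeries (⊤ : Subgroup G) 3)
      = (w.map (fun a => (φ a : G ⧸ Subgroup.lowerCentralSeries (⊤ : Subgroup G) 3))).prod := by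
    induction w with
    | nil => rfl
    | cons a w ih =>
      rw [List.map_cons, List.prod_cons, List.map_cons, List.prod_cons, ← ih]
      rfl
  rw [this]

theorem join_HT (G : Type) [Group G] [Finite G] (ι : Type) [Finite ι] (p : ι → ℕ)
    (hp : ∀ i, (p i).Prime) (A : ι → Subgroup G) (hn : ∀ i, (A i).Normal)
    (hq : ∀ i, ∀ g h : G, g * h * g⁻¹ * h⁻¹ ∈ A i) (hpow : ∀ i, ∀ g : G, g ^ p i ∈ A i)
    (hsep : ∀ g : G, g ∈ Subgroup.lowerCentralSeries (⊤ : Subgroup G) 3 →
      (∀ i, g ∈ ⁅A i, A i⁆) → g = 1)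
    (α : Type) [Finite α] (φ : α → G) (S : Set G) :
    HT 1 {w : List α | (w.map φ).prod ∈ S} := by
  apply HT.of_invariant
    (ι := (G ⧸ Subgroup.lowerCentralSeries (⊤ : Subgroup G) 3) × (∀ i, G ⧸ ⁅A i, A i⁆))
    (fun w => ((((w.map φ).prod : G) : G ⧸ Subgroup.lowerCentralSeries (⊤ : Subgroup G) 3),
      fun i => (((w.map φ).prod : G) : G ⧸ ⁅A i, A i⁆)))
  · rintro ⟨x0, x⟩
    have h1 := HT.iInter (k := 1)
      (fun i => {w : List α | (((w.map φ).prod : G) : G ⧸ ⁅A i, A i⁆) = x i})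
      (fun i => by
        have := hn i
        exact factor_HT (p i) (hp i) G (A i) (hq i) (hpow i) α φ (x i))
    have h0 := factor3_HT G α φ x0
    refine (h0.inter h1).of_eq ?_
    ext w
    simp only [Set.mem_inter_iff, Set.mem_ofPred_eq, Prod.mk.injEq]
    constructor
    · rintro ⟨g1, g2⟩
      exact ⟨g1, funext g2⟩
    · rintro ⟨g1, g2⟩
      exact ⟨g1, fun i => congrFun g2 i⟩
  · intro w w' h
    simp only [Prod.mk.injEq] at h
    obtain ⟨h0, h1⟩ := h
    have : (w.map φ).prod = (w'.map φ).prod := by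
      have h2 : ((w.map φ).prod)⁻¹ * (w'.map φ).prod = 1 := by
        apply hsep
        · exact QuotientGroup.eq.mp h0
        · intro i
          exact QuotientGroup.eq.mp (congrFun h1 i)
      exact (inv_mul_eq_one.mp h2)
    simp only [Set.mem_ofPred_eq, this]

end Vale.Agent.Lib.P329
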