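import Vale.Agent.Lib.P329.Count

namespace Vale.Agent.Lib.P329

set_option linter.unusedSectionVars false

variable {α : Type} [DecidableEq α] {p : ℕ}

/-- saturation by a finite family of finite-valued invariants -/
theorem HT.of_invariants {k : ℕ} {J ι : Type} [Finite J] [Finite ι] (inv : J → List α → ι)
    (h : ∀ j i, HT k {w | inv j w = i}) (L : Set (List α))
    (hsat : ∀ w w', (∀ j, inv j w = inv j w') → (w ∈ L ↔ w' ∈ L)) : HT k L := by
  apply HT.of_invariant (fun w => fun j => inv j w)
  · intro i
    have := HT.iInter (k := k) (fun j => {w | inv j w = i j}) (fun j => h j (i j))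
    refine this.of_eq ?_
    ext w
    simp only [Set.mem_ofPred_eq]
    exact funext_iff.symm
  · intro w w' hw
    exact hsat w w' (fun j => congrFun hw j)

theorem hZ_out (π : α → ZMod p) (l : ZMod p) (x : α) (b : α) :
    (∀ f, (⟨π, l, x, Zout⟩ : Par α p).Z f (decide (b = (⟨π, l, x, Zout⟩ : Par α p).x)) = false) ∨
      (∀ g, (⟨π, l, x, Zout⟩ : Par α p).Z (decide (b = (⟨π, l, x, Zout⟩ : Par α p).x)) g
        = false) := by
  by_cases hb : b = x
  · left; intro f; simp [Zout, hb]
  · right; intro g; simp [Zout, hb]

theorem hZ_in (π : α → ZMod p) (l : ZMod p) (x : α) (b : α) :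
    (∀ f, (⟨π, l, x, Zin⟩ : Par α p).Z f (decide (b = (⟨π, l, x, Zin⟩ : Par α p).x)) = false) ∨
      (∀ g, (⟨π, l, x, Zin⟩ : Par α p).Z (decide (b = (⟨π, l, x, Zin⟩ : Par α p).x)) g
        = false) := by
  by_cases hb : b = x
  · right; intro f; simp [Zin, hb]
  · left; intro g; simp [Zin, hb]

/-- family of automata for a non-neutral letter -/
def famP (π : α → ZMod p) (x : α) : Option (ZMod p × Bool) → Par α p
  | none => ⟨fun _ => 0, 0, x, Zcnt⟩
  | some (l, false) => ⟨π, l, x, Zout⟩
  | some (l, true) => ⟨π, l, x, Zin⟩

theorem famP_hZ (π : α → ZMod p) (x : α) (j : Option (ZMod p × Bool)) (b : α)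
    (hb : (famP π x j).π b ≠ 0) :
    (∀ f, (famP π x j).Z f (decide (b = (famP π x j).x)) = false) ∨
      (∀ g, (famP π x j).Z (decide (b = (famP π x j).x)) g = false) := by
  match j with
  | none => exact absurd rfl hb
  | some (l, false) => exact hZ_out π l x b
  | some (l, true) => exact hZ_in π l x b

/-- a function on `ZMod p` invariant under a nonzero shift is constant -/
theorem const_of_shift [Fact p.Prime] {R : Type} (d : ZMod p → R) (t : ZMod p) (ht : t ≠ 0)
    (h : ∀ l, d l = d (l - t)) (l l' : ZMod p) : d l = d l' := by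
  have h1 : ∀ (k : ℕ) (l : ZMod p), d l = d (l - k * t) := by
    intro k
    induction k with
    | zero => intro l; simp
    | succ k ih =>
      intro l
      rw [ih l, h]
      congr 1
      push_cast
      ring
  have : l' = l - (((l - l') * t⁻¹).val : ZMod p) * t := by
    rw [ZMod.natCast_zmod_val, mul_assoc, inv_mul_cancel₀ ht]
    ring
  rw [this]
  exact h1 _ l

theorem cnt_determined [Fact p.Prime] (e : ℕ) (π : α → ZMod p) (x : α) (hx : π x ≠ 0)
    (w w' : List α)
    (h : ∀ j, w.foldl (cstep (p * e) (famP π x j)) (0, 0, false)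
      = w'.foldl (cstep (p * e) (famP π x j)) (0, 0, false)) (l : ZMod p) :
    ((cnt π l x w : ℕ) : ZMod e) = ((cnt π l x w' : ℕ) : ZMod e) := by
  have hp : p ≠ 0 := (Fact.out : p.Prime).ne_zero
  have : NeZero p := ⟨hp⟩
  set N := p * e with hN
  let d : ZMod p → ZMod N := fun l => (cnt π l x w : ZMod N) - (cnt π l x w' : ZMod N)
  have hd : ∀ l, d l = d (l - π x) := by
    intro l
    have h1 := (rel_inout (N := N) π l x hx w).2.2
    have h2 := (rel_inout (N := N) π l x hx w').2.2
    have e1 := h (some (l, false))
    have e2 := h (some (l, true))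
    simp only [famP] at e1 e2
    rw [e1, e2] at h1
    simp only [d]
    linear_combination h1 - h2
  have hconst := const_of_shift d (π x) hx hd
  have hsum : ∑ l : ZMod p, d l = 0 := by
    simp only [d, Finset.sum_sub_distrib]
    rw [← Nat.cast_sum, ← Nat.cast_sum, sum_cnt, sum_cnt]
    have e0 := h none
    simp only [famP] at e0
    rw [rel_cnt, rel_cnt] at e0
    simp only [Prod.mk.injEq, and_true] at e0
    rw [e0, sub_self]
  have hsum2 : (p : ZMod N) * d l = 0 := by
    rw [← hsum, Finset.sum_congr rfl (fun l' _ => hconst l' l)]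
    simp [ZMod.card]
  simp only [d] at hsum2
  have h3 : ((p * cnt π l x w : ℕ) : ZMod N) = ((p * cnt π l x w' : ℕ) : ZMod N) := by
    push_cast
    linear_combination hsum2
  rw [ZMod.natCast_eq_natCast_iff] at h3 ⊢
  exact Nat.ModEq.mul_left_cancel' hp h3

/-- **Level counting.**  For a prime `p`, a map `π` from letters to `ZMod p`, a letter `x`, a level
`l` and a modulus `e`, the set of words in which the number of occurrences of `x` read at level
`l` has a given residue modulo `e` has generalized star height at most one. -/
theorem level_HT [Finite α] [Fact p.Prime] (e : ℕ) [NeZero e] (π : α → ZMod p) (l : ZMod p)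
    (x : α) (r : ZMod e) : HT 1 {w : List α | ((cnt π l x w : ℕ) : ZMod e) = r} := by
  have hp : p ≠ 0 := (Fact.out : p.Prime).ne_zero
  have : NeZero p := ⟨hp⟩
  have : Finite (ZMod p) := by
    have := ZMod.fintype p
    infer_instance
  by_cases hx : π x = 0
  · have : Finite (ZMod e) := by
      have := ZMod.fintype e
      infer_instance
    apply HT.of_invariants (J := Bool) (ι := ZMod e × ZMod p × Bool)
      (fun j w => w.foldl (cstep e ⟨π, l, x, if j then Zdiag else Znone⟩) (0, 0, false))
    · intro j i
      apply counter_HT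
      intro b hb
      have hbx : b ≠ x := fun h => hb (h ▸ hx)
      left
      intro f
      cases j <;> simp [Zdiag, Znone, hbx]
    · intro w w' h
      have h1 := h true
      have h2 := h false
      simp only [if_true, Bool.false_eq_true, if_false] at h1 h2
      simp only [Set.mem_ofPred_eq]
      rw [rel_neutral π l x hx w, rel_neutral π l x hx w', h1, h2]
  · have : NeZero (p * e) := ⟨Nat.mul_ne_zero hp (NeZero.ne e)⟩
    have : Finite (ZMod (p * e)) := by
      have := ZMod.fintype (p * e)
      infer_instance
    apply HT.of_invariants (J := Option (ZMod p × Bool)) (ι := ZMod (p * e) × ZMod p × Bool)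
      (fun j w => w.foldl (cstep (p * e) (famP π x j)) (0, 0, false))
    · intro j i
      apply counter_HT
      exact fun b hb => famP_hZ π x j b hb
    · intro w w' h
      simp only [Set.mem_ofPred_eq]
      rw [cnt_determined e π x hx w w' h l]

/-- the set of words of a given total level has height at most one -/
theorem total_HT [Finite α] [Fact p.Prime] (π : α → ZMod p) (t : ZMod p) :
    HT 1 {w : List α | (w.map π).sum = t} := by
  have hp : p ≠ 0 := (Fact.out : p.Prime).ne_zero
  have : NeZero p := ⟨hp⟩
  have : Finite (ZMod p) := by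
    have := ZMod.fintype p
    infer_instance
  by_cases hα : Nonempty α
  · obtain ⟨x⟩ := hα
    have : Finite (ZMod 1) := by
      have := ZMod.fintype 1
      infer_instance
    apply HT.of_invariant (ι := ZMod 1 × ZMod p × Bool)
      (fun w => w.foldl (cstep 1 ⟨π, 0, x, Znone⟩) (0, 0, false))
    · intro i
      apply counter_HT
      intro b _
      left; intro f; rfl
    · intro w w' h
      have h1 := crun_level (N := 1) ⟨π, 0, x, Znone⟩ w (0, 0, false)
      have h2 := crun_level (N := 1) ⟨π, 0, x, Znone⟩ w' (0, 0, false)
      simp only [zero_add] at h1 h2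
      simp only [Set.mem_ofPred_eq]
      rw [← h1, ← h2, h]
  · have hw : ∀ w : List α, w = [] := by
      intro w
      cases w with
      | nil => rfl
      | cons a _ => exact absurd ⟨a⟩ hα
    by_cases ht : t = 0
    · refine (HT.univ 1).of_eq ?_
      ext w
      simp [hw w, ht]
    · refine (HT.empty 1).of_eq ?_
      ext w
      simp [hw w, Ne.symm ht]

end Vale.Agent.Lib.P329
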