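import Vale.Agent.Lib.P329.Stat

namespace Vale.Agent.Lib.P329

set_option linter.unusedSectionVars false
set_option linter.unusedSimpArgs false

variable {α : Type} [DecidableEq α] {G : Type} [Group G]

/-- the commutator -/
def cm (T g : G) : G := T * g * T⁻¹ * g⁻¹

/-- the data of a group of class at most three: `A` contains all commutators and is commutative,
`B` contains the commutators with elements of `A` and is central -/
structure Cl3 (A B : Subgroup G) : Prop where
  comm_mem : ∀ T g : G, cm T g ∈ A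
  tau_mem : ∀ (T a : G), a ∈ A → cm T a ∈ B
  central : ∀ z ∈ B, ∀ h : G, z * h = h * z
  abel : ∀ a ∈ A, ∀ b ∈ A, a * b = b * a
  le : B ≤ A

theorem cm_mul (T1 T2 g : G) : cm (T1 * T2) g = cm T1 (cm T2 g) * cm T2 g * cm T1 g := by
  simp only [cm]; group

theorem cm_one_left (g : G) : cm 1 g = 1 := by simp [cm]

namespace Cl3

variable {A B : Subgroup G} (H : Cl3 A B)
include H

theorem cm_central (T z : G) (hz : z ∈ B) : cm T z = 1 := by
  have := H.central z hz T
  rw [cm, ← this]; group

theorem tau_mul_left (T1 T2 a : G) (ha : a ∈ A) : cm (T1 * T2) a = cm T1 a * cm T2 a := by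
  rw [cm_mul, H.cm_central _ _ (H.tau_mem T2 a ha), one_mul]
  exact H.central _ (H.tau_mem T2 a ha) _

theorem tau_mul_right (T a b : G) (hb : b ∈ A) : cm T (a * b) = cm T a * cm T b := by
  have hz := H.central (cm T b) (H.tau_mem T b hb)
  calc cm T (a * b) = (T * a * T⁻¹) * cm T b * a⁻¹ := by simp only [cm]; group
    _ = cm T b * (T * a * T⁻¹) * a⁻¹ := by rw [← hz]
    _ = cm T b * cm T a := by simp only [cm]; group
    _ = cm T a * cm T b := hz _

theorem tau_pow_left (h a : G) (ha : a ∈ A) (m : ℕ) : cm (h ^ m) a = cm h a ^ m := by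
  induction m with
  | zero => simp [cm_one_left]
  | succ m ih => rw [pow_succ, H.tau_mul_left _ _ _ ha, ih, pow_succ]

theorem tau_pow_right (T a : G) (ha : a ∈ A) (m : ℕ) : cm T (a ^ m) = cm T a ^ m := by
  induction m with
  | zero => simp [cm]
  | succ m ih => rw [pow_succ, H.tau_mul_right _ _ _ ha, ih, pow_succ]

theorem cm_pow (h g : G) (m : ℕ) :
    cm (h ^ m) g = cm h (cm h g) ^ (m.choose 2) * cm h g ^ m := by
  have hc : cm h g ∈ A := H.comm_mem h g
  have ht : cm h (cm h g) ∈ B := H.tau_mem _ _ hc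
  induction m with
  | zero => simp [cm_one_left]
  | succ m ih =>
    rw [pow_succ', cm_mul, ih, H.tau_mul_right _ _ _ (A.pow_mem hc m),
      H.cm_central _ _ (B.pow_mem ht _), one_mul, H.tau_pow_right _ _ hc,
      Nat.choose_succ_succ' m 1, Nat.choose_one_right, pow_add, pow_succ]
    simp only [mul_assoc]

theorem prod_pow_central (l : List G) (hl : ∀ z ∈ l, z ∈ B) (m : ℕ) :
    l.prod ^ m = (l.map (fun z => z ^ m)).prod := by
  induction l with
  | nil => simp
  | cons a l ih =>
    rw [List.prod_cons, List.map_cons, List.prod_cons, ← ih (fun z hz => hl z (List.mem_cons_of_mem _ hz))]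
    have : Commute a l.prod := H.central a (hl a List.mem_cons_self) _
    exact this.mul_pow m

end Cl3

/-- the sorted product -/
def sL (φ : α → G) (L : List α) (u : List α) : G := (L.map (fun y => φ y ^ (u.count y))).prod

namespace Cl3

variable {A B : Subgroup G} (H : Cl3 A B)
include H

theorem tau_sL (φ : α → G) (L : List α) (u : List α) (a : G) (ha : a ∈ A) :
    cm (sL φ L u) a = (L.map (fun z => cm (φ z) a ^ (u.count z))).prod := by
  induction L with
  | nil => simp [sL, cm_one_left]
  | cons y L ih =>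
    have : sL φ (y :: L) u = φ y ^ (u.count y) * sL φ L u := by simp [sL]
    rw [this, H.tau_mul_left _ _ _ ha, ih, H.tau_pow_left _ _ ha]
    simp

theorem cm_sL_mem (φ : α → G) (L : List α) (u : List α) (g : G) : cm (sL φ L u) g ∈ A :=
  H.comm_mem _ _

theorem tau_cm_sL (φ : α → G) (L : List α) (u : List α) (h g : G) :
    cm h (cm (sL φ L u) g) = (L.map (fun y => cm h (cm (φ y) g) ^ (u.count y))).prod := by
  induction L with
  | nil => simp [sL, cm_one_left, cm]
  | cons y L ih =>
    have e : sL φ (y :: L) u = φ y ^ (u.count y) * sL φ L u := by simp [sL]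
    have hc : cm (φ y) g ∈ A := H.comm_mem _ _
    rw [e, cm_mul, H.tau_mul_right _ _ _ (H.comm_mem _ _), H.tau_mul_right _ _ _ (H.comm_mem _ _),
      H.cm_central _ _ (H.tau_mem _ _ (H.comm_mem _ _)), one_mul, ih, H.cm_pow,
      H.tau_mul_right _ _ _ (A.pow_mem hc _),
      H.cm_central _ _ (B.pow_mem (H.tau_mem _ _ hc) _), one_mul, H.tau_pow_right _ _ hc]
    rw [List.map_cons, List.prod_cons]
    exact (H.central _ (B.pow_mem (H.tau_mem _ _ hc) _) _).symm

end Cl3

/-- functions of the prefix that are products of powers `a ^ μ(prefix)` with `a ∈ A` and `μ` a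
monomial that can be summed over the occurrences of `x` -/
def Rep (A : Subgroup G) (x : α) (f : List α → G) : Prop :=
  ∃ R : List (A × (List α → ℕ)), (∀ r ∈ R, Mono x r.2) ∧
    ∀ u, f u = (R.map (fun r => (r.1 : G) ^ (r.2 u))).prod

theorem Rep.one (A : Subgroup G) (x : α) : Rep A x (fun _ => (1 : G)) :=
  ⟨[], by simp, by simp⟩

theorem Rep.mul {A : Subgroup G} {x : α} {f f' : List α → G} (h1 : Rep A x f) (h2 : Rep A x f') :
    Rep A x (fun u => f u * f' u) := by
  obtain ⟨R1, a1, b1⟩ := h1
  obtain ⟨R2, a2, b2⟩ := h2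
  refine ⟨R1 ++ R2, ?_, ?_⟩
  · intro r hr
    rcases List.mem_append.mp hr with h | h
    · exact a1 r h
    · exact a2 r h
  · intro u
    show f u * f' u = _
    rw [List.map_append, List.prod_append, b1, b2]

theorem Rep.single {A : Subgroup G} {x : α} (a : G) (ha : a ∈ A) (μ : List α → ℕ)
    (hμ : Mono x μ) : Rep A x (fun u => a ^ μ u) :=
  ⟨[(⟨a, ha⟩, μ)], by simpa using hμ, by simp⟩

theorem Rep.congr {A : Subgroup G} {x : α} {f f' : List α → G} (h : Rep A x f)
    (e : ∀ u, f' u = f u) : Rep A x f' := by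
  have : f' = f := funext e
  rw [this]; exact h

theorem Rep.list {A : Subgroup G} {x : α} {β : Type} (L : List β) (F : β → List α → G)
    (h : ∀ z ∈ L, Rep A x (F z)) : Rep A x (fun u => (L.map (fun z => F z u)).prod) := by
  induction L with
  | nil => exact (Rep.one A x).congr (by simp)
  | cons y L ih =>
    refine ((h y List.mem_cons_self).mul (ih (fun z hz => h z (List.mem_cons_of_mem _ hz)))).congr ?_
    intro u
    simp

namespace Cl3

variable {A B : Subgroup G} (H : Cl3 A B)
include H

theorem rep_cm_sL (φ : α → G) (x : α) (L : List α) (hx : x ∉ L) (hn : L.Nodup) (g : G) :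
    Rep A x (fun u => cm (sL φ L u) g) := by
  induction L with
  | nil => exact (Rep.one A x).congr (by simp [sL, cm_one_left])
  | cons y L ih =>
    have hyx : y ≠ x := fun e => hx (e ▸ List.mem_cons_self)
    have hxL : x ∉ L := fun e => hx (List.mem_cons_of_mem _ e)
    have hyL : y ∉ L := (List.nodup_cons.mp hn).1
    have hnL : L.Nodup := (List.nodup_cons.mp hn).2
    have t1 : Rep A x (fun u => (L.map (fun z =>
        cm (φ y) (cm (φ z) g) ^ (u.count y * u.count z))).prod) := by
      apply Rep.list L (fun z u => cm (φ y) (cm (φ z) g) ^ (u.count y * u.count z))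
      intro z hz
      apply Rep.single _ (H.le (H.tau_mem _ _ (H.comm_mem _ _)))
      right; right; left
      exact ⟨y, z, hyx, fun e => hxL (e ▸ hz), fun e => hyL (e ▸ hz), rfl⟩
    have t3 : Rep A x (fun u => cm (φ y) (cm (φ y) g) ^ ((u.count y).choose 2)
        * cm (φ y) g ^ (u.count y)) := by
      apply Rep.mul
      · apply Rep.single _ (H.le (H.tau_mem _ _ (H.comm_mem _ _)))
        right; left
        exact ⟨y, hyx, rfl⟩
      · apply Rep.single _ (H.comm_mem _ _)
        left
        exact ⟨y, hyx, rfl⟩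
    refine ((t1.mul (ih hxL hnL)).mul t3).congr ?_
    intro u
    have e : sL φ (y :: L) u = φ y ^ (u.count y) * sL φ L u := by simp [sL]
    rw [e, cm_mul, H.tau_cm_sL, H.cm_pow]
    congr 2
    apply congrArg
    apply List.map_congr_left
    intro z _
    rw [H.tau_pow_left _ _ (H.comm_mem _ _), ← pow_mul]

theorem sL_append (φ : α → G) (L1 L2 : List α) (u : List α) :
    sL φ (L1 ++ L2) u = sL φ L1 u * sL φ L2 u := by
  simp [sL]

theorem sL_snoc_of_not_mem (φ : α → G) (L : List α) (u : List α) (x : α) (hx : x ∉ L) :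
    sL φ L (u ++ [x]) = sL φ L u := by
  unfold sL
  apply congrArg
  apply List.map_congr_left
  intro y hy
  have : x ≠ y := fun e => hx (e ▸ hy)
  rw [List.count_append, List.count_singleton, if_neg (by simpa using this), add_zero]

theorem rep_kappa (φ : α → G) (x : α) (L1 L2 : List α) (hn : (L1 ++ x :: L2).Nodup) :
    Rep A x (fun u => sL φ (L1 ++ x :: L2) u * φ x * (sL φ (L1 ++ x :: L2) (u ++ [x]))⁻¹) := by
  rw [List.nodup_append] at hn
  obtain ⟨n1, n2, n3⟩ := hn
  have hx2 : x ∉ L2 := (List.nodup_cons.mp n2).1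
  have hn2 : L2.Nodup := (List.nodup_cons.mp n2).2
  have hx1 : x ∉ L1 := fun e => n3 x e x List.mem_cons_self rfl
  have hdis : ∀ z ∈ L1, ∀ y ∈ L2, z ≠ y := fun z hz y hy => n3 z hz y (List.mem_cons_of_mem _ hy)
  have t1 : Rep A x (fun u => (L2.map (fun y => (L1.map (fun z =>
      cm (φ z) (cm (φ y) (φ x)) ^ (u.count z * u.count y))).prod)).prod) := by
    apply Rep.list L2 (fun y u => (L1.map (fun z =>
      cm (φ z) (cm (φ y) (φ x)) ^ (u.count z * u.count y))).prod)
    intro y hy
    apply Rep.list L1 (fun z u => cm (φ z) (cm (φ y) (φ x)) ^ (u.count z * u.count y))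
    intro z hz
    apply Rep.single _ (H.le (H.tau_mem _ _ (H.comm_mem _ _)))
    right; right; left
    exact ⟨z, y, fun e => hx1 (e ▸ hz), fun e => hx2 (e ▸ hy), hdis z hz y hy, rfl⟩
  have t2 : Rep A x (fun u => (L2.map (fun y =>
      cm (φ x) (cm (φ y) (φ x)) ^ (u.count x * u.count y))).prod) := by
    apply Rep.list L2 (fun y u => cm (φ x) (cm (φ y) (φ x)) ^ (u.count x * u.count y))
    intro y hy
    apply Rep.single _ (H.le (H.tau_mem _ _ (H.comm_mem _ _)))
    right; right; right
    exact ⟨y, fun e => hx2 (e ▸ hy), rfl⟩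
  refine ((t1.mul t2).mul (H.rep_cm_sL φ x L2 hx2 hn2 (φ x))).congr ?_
  intro u
  have e1 : sL φ (L1 ++ x :: L2) u = sL φ L1 u * (φ x ^ (u.count x) * sL φ L2 u) := by
    rw [H.sL_append]; simp [sL]
  have e2 : sL φ (L1 ++ x :: L2) (u ++ [x])
      = sL φ L1 u * (φ x ^ (u.count x + 1) * sL φ L2 u) := by
    rw [H.sL_append, H.sL_snoc_of_not_mem φ L1 u x hx1]
    have : sL φ (x :: L2) (u ++ [x]) = φ x ^ ((u ++ [x]).count x) * sL φ L2 (u ++ [x]) := by
      simp [sL]
    rw [this, H.sL_snoc_of_not_mem φ L2 u x hx2, List.count_append, List.count_singleton_self]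
  have e3 : sL φ L1 u * (φ x ^ (u.count x) * sL φ L2 u) * φ x
        * (sL φ L1 u * (φ x ^ (u.count x + 1) * sL φ L2 u))⁻¹
      = cm (sL φ L1 u * φ x ^ (u.count x)) (cm (sL φ L2 u) (φ x)) * cm (sL φ L2 u) (φ x) := by
    simp only [cm, pow_succ]; group
  rw [e1, e2, e3, H.tau_mul_left _ _ _ (H.comm_mem _ _)]
  congr 2
  · rw [H.tau_cm_sL]
    apply congrArg
    apply List.map_congr_left
    intro y _
    rw [H.tau_sL _ _ _ _ (H.comm_mem _ _), H.prod_pow_central, List.map_map]
    · apply congrArg
      apply List.map_congr_left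
      intro z _
      simp only [Function.comp, ← pow_mul]
    · intro z hz
      obtain ⟨z', _, rfl⟩ := List.mem_map.mp hz
      exact B.pow_mem (H.tau_mem _ _ (H.comm_mem _ _)) _
  · rw [H.tau_pow_left _ _ (H.comm_mem _ _), H.tau_cm_sL, H.prod_pow_central, List.map_map]
    · apply congrArg
      apply List.map_congr_left
      intro y _
      simp only [Function.comp, ← pow_mul]
      rw [mul_comm]
    · intro z hz
      obtain ⟨z', _, rfl⟩ := List.mem_map.mp hz
      exact B.pow_mem (H.tau_mem _ _ (H.comm_mem _ _)) _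

end Cl3

end Vale.Agent.Lib.P329
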