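import Vale.Agent.Lib.P329.Nil3

namespace Vale.Agent.Lib.P329

set_option linter.unusedSectionVars false
set_option linter.unusedSimpArgs false

variable {α : Type} [DecidableEq α]

/-- ordered product over the positions of the word of `κ prefix letter` (with an accumulator) -/
def EA {K : Type} [Monoid K] (κ : List α → α → K) : List α → List α → K
  | _, [] => 1
  | acc, b :: w => κ acc b * EA κ (acc ++ [b]) w

theorem EA_snoc {K : Type} [Monoid K] (κ : List α → α → K) (acc w : List α) (b : α) :
    EA κ acc (w ++ [b]) = EA κ acc w * κ (acc ++ w) b := by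
  induction w generalizing acc with
  | nil => simp [EA]
  | cons a w ih =>
    simp only [List.cons_append, EA]
    rw [ih, mul_assoc]
    simp

theorem kp_formula {G : Type} [Group G] (s : List α → G) (φ : α → G) (acc w : List α) :
    s acc * (w.map φ).prod
      = EA (fun u b => s u * φ b * (s (u ++ [b]))⁻¹) acc w * s (acc ++ w) := by
  induction w generalizing acc with
  | nil => simp [EA]
  | cons a w ih =>
    simp only [List.map_cons, List.prod_cons, EA]
    have := ih (acc ++ [a])
    rw [List.append_assoc, List.singleton_append] at this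
    rw [mul_assoc (s acc * φ a * (s (acc ++ [a]))⁻¹), ← this]
    group

theorem comm_core {K : Type} [CommMonoid K] [Fintype α] (R : α → List (K × (List α → ℕ)))
    (w : List α) :
    EA (fun u b => ((R b).map (fun r => r.1 ^ (r.2 u))).prod) [] w
      = ∏ x, ((R x).map (fun r => r.1 ^ (Sg r.2 x w))).prod := by
  induction w using List.reverseRecOn with
  | nil => simp [EA, Sg_nil]
  | append_singleton w b ih =>
    rw [EA_snoc, ih, List.nil_append]
    have key : ∀ x, ((R x).map (fun r => r.1 ^ (Sg r.2 x (w ++ [b])))).prod
        = ((R x).map (fun r => r.1 ^ (Sg r.2 x w))).prod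
          * (if b = x then ((R x).map (fun r => r.1 ^ (r.2 w))).prod else 1) := by
      intro x
      by_cases hb : b = x
      · simp only [hb, if_true, Sg_snoc, pow_add]
        rw [List.prod_map_mul]
      · simp only [hb, if_false, Sg_snoc, add_zero, mul_one]
    simp only [key]
    rw [Finset.prod_mul_distrib]
    congr 1
    rw [Finset.prod_ite_eq]
    simp

theorem comm_core_congr {K : Type} [CommMonoid K] [Fintype α] (R : α → List (K × (List α → ℕ)))
    (e : ℕ) (he : ∀ k : K, k ^ e = 1) (w w' : List α)
    (h : ∀ x, ∀ r ∈ R x, Sg r.2 x w ≡ Sg r.2 x w' [MOD e]) :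
    EA (fun u b => ((R b).map (fun r => r.1 ^ (r.2 u))).prod) [] w
      = EA (fun u b => ((R b).map (fun r => r.1 ^ (r.2 u))).prod) [] w' := by
  rw [comm_core, comm_core]
  apply Finset.prod_congr rfl
  intro x _
  apply congrArg
  apply List.map_congr_left
  intro r hr
  exact pow_eq_pow_of_modEq (h x r hr) (he _)

variable {G : Type} [Group G]

theorem EA_determined [Fintype α] (A : Subgroup G) (habel : ∀ a ∈ A, ∀ b ∈ A, a * b = b * a)
    (e : ℕ) (he : ∀ g : G, g ^ e = 1) (κ : List α → α → G)
    (hκ : ∀ x, Rep A x (fun u => κ u x)) (w w' : List α)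
    (h : ∀ x μ, Mono x μ → Sg μ x w ≡ Sg μ x w' [MOD e]) : EA κ [] w = EA κ [] w' := by
  choose R hR1 hR2 using hκ
  let _ : CommGroup A :=
    { (inferInstance : Group A) with
      mul_comm := fun a b => Subtype.ext (habel a.1 a.2 b.1 b.2) }
  have hpow : ∀ (x : A) (n : ℕ), (x ^ n).1 = x.1 ^ n := by
    intro x n
    induction n with
    | zero => rfl
    | succ n ih => rw [pow_succ, pow_succ, ← ih]; rfl
  have hK : ∀ x : A, x ^ e = 1 := by
    intro x
    apply Subtype.ext
    rw [hpow, he]
    rfl
  have hlist : ∀ (L : List (A × (List α → ℕ))) (u : List α),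
      ((L.map (fun r => r.1 ^ (r.2 u))).prod : A).1
        = (L.map (fun r => (r.1 : G) ^ (r.2 u))).prod := by
    intro L u
    induction L with
    | nil => rfl
    | cons t L ih =>
      simp only [List.map_cons, List.prod_cons]
      rw [← ih, ← hpow]
      rfl
  have hcoe : ∀ (acc v : List α),
      (EA (fun u b => ((R b).map (fun r => r.1 ^ (r.2 u))).prod) acc v : A).1 = EA κ acc v := by
    intro acc v
    induction v generalizing acc with
    | nil => rfl
    | cons b v ih =>
      simp only [EA]
      have hb : κ acc b = ((R b).map (fun r => (r.1 : G) ^ (r.2 acc))).prod := hR2 b acc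
      rw [← ih, hb, ← hlist]
      rfl
  have := comm_core_congr R e hK w w' (fun x r hr => h x r.2 (hR1 x r hr))
  have h2 := congrArg Subtype.val this
  rw [hcoe, hcoe] at h2
  exact h2

theorem prod_determined3 [Fintype α] {A B : Subgroup G} (H : Cl3 A B) (e : ℕ) [NeZero e]
    (he : ∀ g : G, g ^ e = 1) (φ : α → G) (w w' : List α) (h : Hyp e w w') :
    (w.map φ).prod = (w'.map φ).prod := by
  have hn : (Finset.univ : Finset α).toList.Nodup := Finset.nodup_toList _
  generalize hL : (Finset.univ : Finset α).toList = L at hn
  have hmem : ∀ x, x ∈ L := by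
    intro x
    rw [← hL]
    exact Finset.mem_toList.mpr (Finset.mem_univ x)
  have hE := EA_determined A H.abel e he
    (fun u b => sL φ L u * φ b * (sL φ L (u ++ [b]))⁻¹) (by
      intro x
      obtain ⟨L1, L2, hx⟩ := List.append_of_mem (hmem x)
      have := H.rep_kappa φ x L1 L2 (hx ▸ hn)
      rw [← hx] at this
      exact this) w w' (fun x μ hμ => mono_good e x μ hμ w w' h)
  have f1 := kp_formula (sL φ L) φ [] w
  have f2 := kp_formula (sL φ L) φ [] w'
  have hs : sL φ L w = sL φ L w' := by
    unfold sL
    apply congrArg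
    apply List.map_congr_left
    intro y _
    exact pow_eq_pow_of_modEq ((h.2 y).of_mul_left 2) (he _)
  rw [List.nil_append] at f1 f2
  rw [hE, hs, ← f2] at f1
  exact mul_left_cancel f1

end Vale.Agent.Lib.P329
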