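import Vale.Agent.Lib.P329.Nil3b

namespace Vale.Agent.Lib.P329

set_option linter.unusedSectionVars false
set_option linter.unusedSimpArgs false

variable {α : Type} [DecidableEq α]

theorem cl3_HT [Finite α] {G : Type} [Group G] [Finite G] {A B : Subgroup G} (H : Cl3 A B)
    (φ : α → G) (S : Set G) : HT 1 {w : List α | (w.map φ).prod ∈ S} := by
  have := Fintype.ofFinite α
  have hc : Nat.card G ≠ 0 := Nat.card_pos.ne'
  generalize he : Nat.card G = e at hc
  have hpow : ∀ g : G, g ^ e = 1 := fun g => by rw [← he]; exact pow_card_eq_one'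
  have : NeZero e := ⟨hc⟩
  have : NeZero (2 * e) := ⟨by omega⟩
  have : Finite (ZMod e) := by
    have := ZMod.fintype e
    infer_instance
  have : Finite (ZMod (2 * e)) := by
    have := ZMod.fintype (2 * e)
    infer_instance
  apply HT.of_invariant
    (ι := ((α × α × ZMod (2 * e) × α) → ZMod e) × (α → ZMod (2 * e)))
    (fun w => (fun t => if t.2.2.2 ≠ t.1 ∧ t.2.2.2 ≠ t.2.1 then
        ((cnt (pind (2 * e) t.1 t.2.1) t.2.2.1 t.2.2.2 w : ℕ) : ZMod e) else 0,
      fun y => (w.map (pind (2 * e) y y)).sum))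
  · rintro ⟨i1, i2⟩
    have h1 := HT.iInter (k := 1) (fun t : α × α × ZMod (2 * e) × α =>
      {w : List α | (if t.2.2.2 ≠ t.1 ∧ t.2.2.2 ≠ t.2.1 then
        ((cnt (pind (2 * e) t.1 t.2.1) t.2.2.1 t.2.2.2 w : ℕ) : ZMod e) else 0) = i1 t})
      (fun t => by
        by_cases ht : t.2.2.2 ≠ t.1 ∧ t.2.2.2 ≠ t.2.1
        · simp only [if_pos ht]
          exact ulevel_HT (2 * e) e _ (pind_01 _ _ _) _ _ (pind_zero _ _ _ _ ht.1 ht.2) _
        · simp only [if_neg ht]
          by_cases h0 : (0 : ZMod e) = i1 t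
          · exact (HT.univ 1).of_eq (by ext w; simp [h0])
          · exact (HT.empty 1).of_eq (by ext w; simp [h0]))
    have h2 := HT.iInter (k := 1)
      (fun y : α => {w : List α | (w.map (pind (2 * e) y y)).sum = i2 y})
      (fun y => utotal_HT (2 * e) _ (pind_01 _ _ _) _)
    refine (h1.inter h2).of_eq ?_
    ext w
    simp only [Set.mem_inter_iff, Set.mem_ofPred_eq, Prod.mk.injEq]
    constructor
    · rintro ⟨g1, g2⟩
      exact ⟨funext g1, funext g2⟩
    · rintro ⟨g1, g2⟩
      exact ⟨fun t => congrFun g1 t, fun y => congrFun g2 y⟩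
  · intro w w' h
    simp only [Prod.mk.injEq] at h
    obtain ⟨h1, h2⟩ := h
    simp only [Set.mem_ofPred_eq]
    have hyp : Hyp e w w' := by
      constructor
      · intro y z l x hxy hxz
        have := congrFun h1 (y, z, l, x)
        simp only [] at this
        rw [if_pos ⟨hxy, hxz⟩, if_pos ⟨hxy, hxz⟩] at this
        exact (ZMod.natCast_eq_natCast_iff _ _ _).mp this
      · intro y
        have := congrFun h2 y
        rw [sum_pind, sum_pind, cS_self, cS_self] at this
        exact (ZMod.natCast_eq_natCast_iff _ _ _).mp this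
    rw [prod_determined3 H e hpow φ w w' hyp]

open scoped commutatorElement in
theorem cl3_of_lcs {G : Type} [Group G]
    (h : Subgroup.lowerCentralSeries (⊤ : Subgroup G) 3 = ⊥) :
    Cl3 (Subgroup.lowerCentralSeries (⊤ : Subgroup G) 1)
      (Subgroup.lowerCentralSeries (⊤ : Subgroup G) 2) where
  comm_mem := by
    intro T g
    have : cm T g = ⁅T, g⁆ := by rw [commutatorElement_def]; rfl
    rw [this]
    exact Subgroup.commutator_mem_commutator (Subgroup.mem_top T) (Subgroup.mem_top g)
  tau_mem := by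
    intro T a ha
    have : cm T a = ⁅a, T⁆⁻¹ := by rw [commutatorElement_inv, commutatorElement_def]; rfl
    rw [this]
    exact Subgroup.inv_mem _ (Subgroup.commutator_mem_commutator ha (Subgroup.mem_top T))
  central := by
    intro z hz g
    have : ⁅z, g⁆ ∈ Subgroup.lowerCentralSeries (⊤ : Subgroup G) 3 :=
      Subgroup.commutator_mem_commutator hz (Subgroup.mem_top g)
    rw [h, Subgroup.mem_bot] at this
    exact commutatorElement_eq_one_iff_mul_comm.mp this
  abel := by
    have h3 : ⁅⁅Subgroup.lowerCentralSeries (⊤ : Subgroup G) 1, (⊤ : Subgroup G)⁆,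
        (⊤ : Subgroup G)⁆ = ⊥ := h
    have h3' : ⁅⁅(⊤ : Subgroup G), Subgroup.lowerCentralSeries (⊤ : Subgroup G) 1⁆,
        (⊤ : Subgroup G)⁆ = ⊥ := by
      rw [Subgroup.commutator_comm (⊤ : Subgroup G)]
      exact h3
    have key := Subgroup.commutator_commutator_eq_bot_of_rotate
      (H₁ := (⊤ : Subgroup G)) (H₂ := (⊤ : Subgroup G))
      (H₃ := Subgroup.lowerCentralSeries (⊤ : Subgroup G) 1) h3' h3
    intro a ha b hb
    have : ⁅a, b⁆ ∈ ⁅⁅(⊤ : Subgroup G), (⊤ : Subgroup G)⁆,
        Subgroup.lowerCentralSeries (⊤ : Subgroup G) 1⁆ :=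
      Subgroup.commutator_mem_commutator ha hb
    rw [key, Subgroup.mem_bot] at this
    exact commutatorElement_eq_one_iff_mul_comm.mp this
  le := Subgroup.lowerCentralSeries_antitone _ (by norm_num)

end Vale.Agent.Lib.P329
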