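import Vale.Agent.Lib.P329.Group

namespace Vale.Agent.Lib.P329

set_option linter.unusedSectionVars false
set_option linter.unusedSimpArgs false

theorem coords_of_module {p : ℕ} [Fact p.Prime] (Q : Type) [AddCommGroup Q] [Finite Q]
    [Module (ZMod p) Q] : ∃ k : ℕ, Nonempty (Q ≃+ (Fin k → ZMod p)) :=
  ⟨_, ⟨(Module.finBasis (ZMod p) Q).equivFun.toAddEquiv⟩⟩

theorem exists_coords {p : ℕ} [Fact p.Prime] (Q : Type) [AddCommGroup Q] [Finite Q]
    (hQ : ∀ x : Q, p • x = 0) : ∃ k : ℕ, Nonempty (Q ≃+ (Fin k → ZMod p)) :=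
  @coords_of_module p _ Q _ _ (AddCommGroup.zmodModule hQ)

theorem exists_lev_comm {p : ℕ} [Fact p.Prime] {G : Type} [Group G] [Finite G] (A : Subgroup G)
    [A.Normal] (Q : Type) [CommGroup Q] (f : G →* Q) (hf : Function.Surjective f)
    (hker : ∀ g, f g = 1 ↔ g ∈ A) (hpow : ∀ g : G, g ^ p ∈ A) :
    ∃ (k : ℕ) (lev : G → (Fin k → ZMod p)), (∀ g h, lev (g * h) = lev g + lev h) ∧
      Function.Surjective lev ∧ ∀ g, lev g = 0 ↔ g ∈ A := by
  have : Finite Q := Finite.of_surjective f hf
  have : Finite (Additive Q) := inferInstanceAs (Finite Q)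
  have hQ : ∀ x : Additive Q, p • x = 0 := by
    intro x
    obtain ⟨g, hg⟩ := hf (Additive.toMul x)
    have : x = Additive.ofMul (f g) := by rw [hg]; rfl
    rw [this, ← ofMul_pow, ← map_pow, (hker _).mpr (hpow g)]
    rfl
  obtain ⟨k, ⟨θ⟩⟩ := exists_coords (p := p) (Additive Q) hQ
  refine ⟨k, fun g => θ (Additive.ofMul (f g)), ?_, ?_, ?_⟩
  · intro g h
    simp only [map_mul, ofMul_mul, map_add]
  · intro v
    obtain ⟨g, hg⟩ := hf (Additive.toMul (θ.symm v))
    refine ⟨g, ?_⟩
    simp only [hg, ofMul_toMul, AddEquiv.apply_symm_apply]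
  · intro g
    rw [← hker]
    simp only [EmbeddingLike.map_eq_zero_iff]
    exact Iff.rfl

theorem exists_lev {p : ℕ} [Fact p.Prime] {G : Type} [Group G] [Finite G] (A : Subgroup G)
    [A.Normal] (hq : ∀ g h : G, g * h * g⁻¹ * h⁻¹ ∈ A) (hpow : ∀ g : G, g ^ p ∈ A) :
    ∃ (k : ℕ) (lev : G → (Fin k → ZMod p)), (∀ g h, lev (g * h) = lev g + lev h) ∧
      Function.Surjective lev ∧ ∀ g, lev g = 0 ↔ g ∈ A := by
  let _ : CommGroup (G ⧸ A) :=
    { (inferInstance : Group (G ⧸ A)) with
      mul_comm := by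
        intro a b
        induction a using QuotientGroup.induction_on with
        | H g =>
          induction b using QuotientGroup.induction_on with
          | H h =>
            rw [← QuotientGroup.mk_mul, ← QuotientGroup.mk_mul, QuotientGroup.eq]
            have := hq h⁻¹ g⁻¹
            simp only [inv_inv] at this
            simpa [mul_assoc] using this }
  exact exists_lev_comm A (G ⧸ A) (QuotientGroup.mk' A) (QuotientGroup.mk'_surjective A)
    (fun g => QuotientGroup.eq_one_iff g) hpow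

end Vale.Agent.Lib.P329
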