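import Vale.Agent.Lib.P329.Level

namespace Vale.Agent.Lib.P329

set_option linter.unusedSectionVars false
set_option linter.unusedSimpArgs false

open Finset

variable {α : Type} [DecidableEq α] {p : ℕ}

theorem cnt_comp {V W : Type} [AddCommMonoid V] [DecidableEq V] [AddCommMonoid W] [DecidableEq W]
    [Fintype V] (χ : V →+ W) (π : α → V) (t : W) (x : α) (w : List α) :
    cnt (fun a => χ (π a)) t x w = ∑ v : V, if χ v = t then cnt π v x w else 0 := by
  induction w using List.reverseRecOn with
  | nil => simp [cnt_nil]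
  | append_singleton w b ih =>
    have e1 : ((w.map (fun a => χ (π a))).sum) = χ ((w.map π).sum) := by
      rw [map_list_sum, List.map_map]; rfl
    simp only [cnt_snoc, ih, e1]
    have e2 : ∀ v : V, (if χ v = t then
        cnt π v x w + (if (w.map π).sum = v ∧ b = x then 1 else 0) else 0)
        = (if χ v = t then cnt π v x w else 0)
          + (if (w.map π).sum = v then (if χ v = t ∧ b = x then 1 else 0) else 0) := by
      intro v
      by_cases h1 : χ v = t <;> by_cases h2 : (w.map π).sum = v <;> simp [h1, h2]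
    simp only [e2, Finset.sum_add_distrib, Finset.sum_ite_eq, Finset.mem_univ, if_true]

/-- the additive map `v ↦ y ⬝ᵥ v` -/
def dotHom {k : ℕ} (y : Fin k → ZMod p) : (Fin k → ZMod p) →+ ZMod p where
  toFun v := y ⬝ᵥ v
  map_zero' := dotProduct_zero y
  map_add' := dotProduct_add y

/-- the additive map `y ↦ y ⬝ᵥ u` -/
def dotHom' {k : ℕ} (u : Fin k → ZMod p) : (Fin k → ZMod p) →+ ZMod p where
  toFun y := y ⬝ᵥ u
  map_zero' := zero_dotProduct u
  map_add' := fun a b => add_dotProduct a b u

theorem card_orth [Fact p.Prime] [Fintype (ZMod p)] (k : ℕ) (u : Fin k → ZMod p) (hu : u ≠ 0) :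
    p * #{y : Fin k → ZMod p | y ⬝ᵥ u = 0} = p ^ k := by
  have hsurj : Function.Surjective (dotHom' u) := by
    obtain ⟨i, hi⟩ : ∃ i, u i ≠ 0 := by
      by_contra hcon
      push Not at hcon
      exact hu (funext hcon)
    intro t
    refine ⟨Pi.single i (t * (u i)⁻¹), ?_⟩
    change Pi.single i (t * (u i)⁻¹) ⬝ᵥ u = t
    rw [single_dotProduct, mul_assoc, inv_mul_cancel₀ hi, mul_one]
  have h1 : ∀ t : ZMod p, #{y : Fin k → ZMod p | dotHom' u y = t}
      = #{y : Fin k → ZMod p | dotHom' u y = 0} := fun t =>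
    AddMonoidHom.card_fiber_eq_of_mem_range (dotHom' u) (hsurj t) (hsurj 0)
  have h2 := Finset.card_eq_sum_card_fiberwise (f := dotHom' u)
    (s := (Finset.univ : Finset (Fin k → ZMod p))) (t := Finset.univ) (fun _ _ => by simp)
  simp only [h1, Finset.sum_const, Finset.card_univ, smul_eq_mul, Fintype.card_pi,
    Finset.prod_const, Fintype.card_fin, ZMod.card] at h2
  rw [h2]
  rfl

theorem radon [Fact p.Prime] [Fintype (ZMod p)] (k : ℕ) (π : α → (Fin k → ZMod p))
    (h : Fin k → ZMod p) (x : α) (w : List α) :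
    p * ∑ y : Fin k → ZMod p, cnt (fun a => dotHom y (π a)) (dotHom y h) x w
      = p ^ k * ((p - 1) * cnt π h x w + w.count x) := by
  have hp1 : 1 ≤ p := (Fact.out : p.Prime).one_lt.le
  simp only [cnt_comp]
  rw [Finset.sum_comm, Finset.mul_sum, ← sum_cnt π x w, mul_add, Finset.mul_sum]
  have key : ∀ v : Fin k → ZMod p,
      p * ∑ y : Fin k → ZMod p, (if dotHom y v = dotHom y h then cnt π v x w else 0)
        = p ^ k * cnt π v x w + (if v = h then p ^ k * ((p - 1) * cnt π h x w) else 0) := by
    intro v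
    rw [← Finset.sum_filter, Finset.sum_const, smul_eq_mul, ← mul_assoc]
    by_cases hv : v = h
    · subst hv
      simp only [if_true, Finset.filter_true, Finset.card_univ, Fintype.card_pi,
        Finset.prod_const, Fintype.card_fin, ZMod.card]
      obtain ⟨q, rfl⟩ : ∃ q, p = q + 1 := ⟨p - 1, by omega⟩
      simp only [Nat.add_sub_cancel]
      ring
    · rw [if_neg hv, add_zero]
      have hu : v - h ≠ 0 := sub_ne_zero.mpr hv
      rw [← card_orth k (v - h) hu]
      congr 3
      ext y
      simp only [Finset.mem_filter, Finset.mem_univ, true_and]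
      change y ⬝ᵥ v = y ⬝ᵥ h ↔ _
      rw [dotProduct_sub, sub_eq_zero]
  simp only [key, Finset.sum_add_distrib, Finset.sum_ite_eq', Finset.mem_univ, if_true]
  ring

/-- **Level counting for vector levels.** -/
theorem vlevel_HT [Finite α] [Fact p.Prime] (k e : ℕ) [NeZero e] (π : α → (Fin k → ZMod p))
    (h : Fin k → ZMod p) (x : α) (r : ZMod e) :
    HT 1 {w : List α | ((cnt π h x w : ℕ) : ZMod e) = r} := by
  have hp : p ≠ 0 := (Fact.out : p.Prime).ne_zero
  have hp1 : 1 < p := (Fact.out : p.Prime).one_lt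
  have : NeZero p := ⟨hp⟩
  have hM : p ^ k * (p - 1) ≠ 0 := Nat.mul_ne_zero (pow_ne_zero _ hp) (by omega)
  have : NeZero (p ^ k * (p - 1) * e) := ⟨Nat.mul_ne_zero hM (NeZero.ne e)⟩
  have : Finite (ZMod (p ^ k * (p - 1) * e)) := by
    have := ZMod.fintype (p ^ k * (p - 1) * e)
    infer_instance
  apply HT.of_invariants (J := (Fin k → ZMod p) × ZMod p) (ι := ZMod (p ^ k * (p - 1) * e))
    (fun j w => ((cnt (fun a => dotHom j.1 (π a)) j.2 x w : ℕ) : ZMod (p ^ k * (p - 1) * e)))
  · intro j i
    exact level_HT _ _ _ _ _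
  · intro w w' hw
    simp only [Set.mem_ofPred_eq]
    have h1 := radon k π h x w
    have h2 := radon k π h x w'
    have hc : ((w.count x : ℕ) : ZMod (p ^ k * (p - 1) * e)) = ((w'.count x : ℕ) : ZMod _) := by
      rw [← sum_cnt (fun a => dotHom (0 : Fin k → ZMod p) (π a)) x w,
        ← sum_cnt (fun a => dotHom (0 : Fin k → ZMod p) (π a)) x w']
      push_cast
      exact Finset.sum_congr rfl (fun t _ => hw (0, t))
    have hs : ((∑ y : Fin k → ZMod p, cnt (fun a => dotHom y (π a)) (dotHom y h) x w : ℕ) :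
        ZMod (p ^ k * (p - 1) * e))
        = ((∑ y : Fin k → ZMod p, cnt (fun a => dotHom y (π a)) (dotHom y h) x w' : ℕ) :
          ZMod _) := by
      push_cast
      exact Finset.sum_congr rfl (fun y _ => hw (y, dotHom y h))
    have h3 : ((p ^ k * (p - 1) * cnt π h x w : ℕ) : ZMod (p ^ k * (p - 1) * e))
        = ((p ^ k * (p - 1) * cnt π h x w' : ℕ) : ZMod _) := by
      have g1 := congrArg (fun n : ℕ => (n : ZMod (p ^ k * (p - 1) * e))) h1
      have g2 := congrArg (fun n : ℕ => (n : ZMod (p ^ k * (p - 1) * e))) h2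
      simp only [Nat.cast_mul, Nat.cast_add] at g1 g2
      rw [hs] at g1
      rw [hc] at g1
      simp only [Nat.cast_mul]
      linear_combination g2 - g1
    rw [ZMod.natCast_eq_natCast_iff] at h3
    have h4 := Nat.ModEq.mul_left_cancel' hM h3
    rw [(ZMod.natCast_eq_natCast_iff _ _ _).mpr h4]

theorem vtotal_HT [Finite α] [Fact p.Prime] (k : ℕ) (π : α → (Fin k → ZMod p))
    (t : Fin k → ZMod p) : HT 1 {w : List α | (w.map π).sum = t} := by
  have := HT.iInter (k := 1) (fun i : Fin k => {w : List α | (w.map (fun a => π a i)).sum = t i})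
    (fun i => total_HT _ _)
  refine this.of_eq ?_
  ext w
  simp only [Set.mem_ofPred_eq]
  have e1 : ∀ i, (w.map (fun a => π a i)).sum = (w.map π).sum i := by
    intro i
    induction w with
    | nil => simp
    | cons a w ih => simp [ih]
  simp only [e1]
  exact funext_iff.symm

end Vale.Agent.Lib.P329
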