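import Vale.Agent.Lib.P329.Basic

/-!
# Schutzenberger's theorem (aperiodic implies star-free), via local divisors

We follow the proof of Diekert and Kufleitner.  For an element `c` of a monoid `M` the local
divisor `LocDiv c` is the set `c M ∩ M c` with the product sending x c and c y to x c y.
-/

namespace Vale.Agent.Lib.P329

section LocalDivisor

variable {M : Type} [Monoid M]

/-- the local divisor of `M` at `c`: the carrier is `c M ∩ M c`. -/
def LocDiv (c : M) : Type := {x : M // (∃ a, x = c * a) ∧ (∃ b, x = b * c)}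

namespace LocDiv

variable {c : M}

/-- the product sending x c and c y to x c y. -/
noncomputable def mulAux (x y : LocDiv c) : LocDiv c :=
  ⟨Classical.choose x.2.2 * y.1, by
    obtain ⟨a, ha⟩ := x.2.1
    obtain ⟨d, hd⟩ := y.2.1
    obtain ⟨b, hb⟩ := y.2.2
    have hx := Classical.choose_spec x.2.2
    constructor
    · refine ⟨a * d, ?_⟩
      rw [hd, ← mul_assoc, ← hx, ha, mul_assoc]
    · exact ⟨Classical.choose x.2.2 * b, by rw [mul_assoc, ← hb]⟩⟩

theorem mulAux_val (x y : LocDiv c) (a : M) (ha : x.1 = a * c) :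
    (mulAux x y).1 = a * y.1 := by
  obtain ⟨d, hd⟩ := y.2.1
  have hx := Classical.choose_spec x.2.2
  show Classical.choose x.2.2 * y.1 = a * y.1
  rw [hd, ← mul_assoc, ← mul_assoc, ← hx, ha]

/-- the unit of the local divisor is `c`. -/
def oneAux : LocDiv c := ⟨c, ⟨1, (mul_one c).symm⟩, ⟨1, (one_mul c).symm⟩⟩

noncomputable instance : Monoid (LocDiv c) where
  mul := mulAux
  one := oneAux
  mul_assoc x y z := by
    obtain ⟨a, ha⟩ := x.2.2
    obtain ⟨b, hb⟩ := y.2.2
    apply Subtype.ext
    show (mulAux (mulAux x y) z).1 = (mulAux x (mulAux y z)).1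
    have h1 : (mulAux x y).1 = (a * b) * c := by
      rw [mulAux_val x y a ha, hb, mul_assoc]
    rw [mulAux_val _ z _ h1, mulAux_val x _ a ha, mulAux_val y z b hb, mul_assoc]
  one_mul x := by
    apply Subtype.ext
    show (mulAux oneAux x).1 = x.1
    rw [mulAux_val oneAux x 1 (one_mul c).symm, one_mul]
  mul_one x := by
    obtain ⟨a, ha⟩ := x.2.2
    apply Subtype.ext
    show (mulAux x oneAux).1 = x.1
    rw [mulAux_val x oneAux a ha, ha]
    rfl

theorem val_mul (x y : LocDiv c) (a : M) (ha : x.1 = a * c) : (x * y).1 = a * y.1 :=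
  mulAux_val x y a ha

theorem val_one : (1 : LocDiv c).1 = c := rfl

theorem val_pow (x : LocDiv c) (b : M) (hb : x.1 = b * c) (k : ℕ) :
    (x ^ k).1 = b ^ k * c := by
  induction k with
  | zero => simp [val_one]
  | succ k ih => rw [pow_succ, val_mul _ _ _ ih, hb, pow_succ, mul_assoc]

theorem aperiodic (hM : ∀ x : M, ∃ n : ℕ, x ^ n = x ^ (n + 1)) (x : LocDiv c) :
    ∃ n : ℕ, x ^ n = x ^ (n + 1) := by
  obtain ⟨b, hb⟩ := x.2.2
  obtain ⟨n, hn⟩ := hM b
  exact ⟨n, Subtype.ext (by rw [val_pow x b hb, val_pow x b hb, ← hn])⟩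

instance [Finite M] : Finite (LocDiv c) := by
  unfold LocDiv
  infer_instance

theorem card_lt [Finite M] (hM : ∀ x : M, ∃ n : ℕ, x ^ n = x ^ (n + 1)) (hc : c ≠ 1) :
    Nat.card (LocDiv c) < Nat.card M := by
  have h1 : ¬ ((∃ a, (1 : M) = c * a) ∧ (∃ b, (1 : M) = b * c)) := by
    rintro ⟨⟨a, ha⟩, -⟩
    obtain ⟨n, hn⟩ := hM c
    have key : ∀ k : ℕ, c ^ k * a ^ k = 1 := by
      intro k
      induction k with
      | zero => simp
      | succ k ih => rw [pow_succ, pow_succ', mul_assoc, ← mul_assoc c a, ← ha, one_mul, ih]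
    apply hc
    calc c = c * (c ^ n * a ^ n) := by rw [key, mul_one]
      _ = c ^ (n + 1) * a ^ n := by rw [pow_succ', mul_assoc]
      _ = c ^ n * a ^ n := by rw [← hn]
      _ = 1 := key n
  exact Finite.card_subtype_lt h1

/-- the map `t ↦ c t c` into the local divisor. -/
def psi (c : M) (t : M) : LocDiv c :=
  ⟨c * t * c, ⟨t * c, by rw [mul_assoc]⟩, ⟨c * t, rfl⟩⟩

end LocDiv

end LocalDivisor

section Words

variable {α : Type}

/-- `enc c [w1, ..., wk] = w1 c w2 c ... wk c`. -/
def enc (c : α) (ws : List (List α)) : List α := ws.flatMap (fun w => w ++ [c])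

@[simp] theorem enc_nil (c : α) : enc c [] = [] := rfl

@[simp] theorem enc_cons (c : α) (w : List α) (ws : List (List α)) :
    enc c (w :: ws) = w ++ c :: enc c ws := by
  simp [enc]

@[simp] theorem enc_append (c : α) (ws ws' : List (List α)) :
    enc c (ws ++ ws') = enc c ws ++ enc c ws' := by
  simp [enc]

theorem mem_enc {c : α} {ws : List (List α)} {x : α} (hx : x ∈ enc c ws) :
    (∃ u ∈ ws, x ∈ u) ∨ x = c := by
  unfold enc at hx
  rw [List.mem_flatMap] at hx
  obtain ⟨u, hu, hxu⟩ := hx
  rw [List.mem_append, List.mem_singleton] at hxu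
  rcases hxu with h | h
  · exact Or.inl ⟨u, hu, h⟩
  · exact Or.inr h

theorem append_cons_inj {c : α} : ∀ (u u' v v' : List α), c ∉ u → c ∉ u' →
    u ++ c :: v = u' ++ c :: v' → u = u' ∧ v = v' := by
  intro u
  induction u with
  | nil =>
    intro u' v v' _ hu' h
    cases u' with
    | nil => simpa using h
    | cons y u' =>
      simp only [List.nil_append, List.cons_append, List.cons.injEq] at h
      exact absurd (by rw [h.1]; simp) hu'
  | cons x u ih =>
    intro u' v v' hu hu' h
    cases u' with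
    | nil =>
      simp only [List.nil_append, List.cons_append, List.cons.injEq] at h
      exact absurd (by rw [← h.1]; simp) hu
    | cons y u' =>
      simp only [List.cons_append, List.cons.injEq] at h
      obtain ⟨h1, h2⟩ := ih u' v v' (fun hc => hu (List.mem_cons_of_mem _ hc))
        (fun hc => hu' (List.mem_cons_of_mem _ hc)) h.2
      exact ⟨by rw [h.1, h1], h2⟩

theorem enc_inj (c : α) : ∀ (ws ws' : List (List α)), (∀ w ∈ ws, c ∉ w) → (∀ w ∈ ws', c ∉ w) →
    enc c ws = enc c ws' → ws = ws' := by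
  intro ws
  induction ws with
  | nil =>
    intro ws' _ _ h
    cases ws' with
    | nil => rfl
    | cons w' r' => simp at h
  | cons w r ih =>
    intro ws' h1 h2 h
    cases ws' with
    | nil => simp at h
    | cons w' r' =>
      rw [enc_cons, enc_cons] at h
      obtain ⟨h3, h4⟩ := append_cons_inj w w' _ _ (h1 w (by simp)) (h2 w' (by simp)) h
      rw [h3, ih r' (fun u hu => h1 u (List.mem_cons_of_mem _ hu))
        (fun u hu => h2 u (List.mem_cons_of_mem _ hu)) h4]

theorem exists_enc (c : α) (Bp : α → Prop) : ∀ w : List α, (∀ x ∈ w, Bp x ∨ x = c) →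
    ∃ ws : List (List α), ∃ w1 : List α, (∀ u ∈ ws, ∀ x ∈ u, Bp x) ∧ (∀ x ∈ w1, Bp x) ∧
      w = enc c ws ++ w1 := by
  intro w
  induction w with
  | nil => intro _; exact ⟨[], [], by simp, by simp, by simp⟩
  | cons x w ih =>
    intro h
    obtain ⟨ws, w1, h1, h2, h3⟩ := ih (fun y hy => h y (List.mem_cons_of_mem _ hy))
    by_cases hxc : x = c
    · refine ⟨[] :: ws, w1, ?_, h2, ?_⟩
      · intro u hu
        rcases List.mem_cons.1 hu with rfl | hu
        · simp
        · exact h1 u hu
      · rw [h3, hxc]; simp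
    · have hx : Bp x := (h x (by simp)).resolve_right hxc
      cases ws with
      | nil =>
        refine ⟨[], x :: w1, by simp, ?_, ?_⟩
        · intro y hy
          rcases List.mem_cons.1 hy with rfl | hy
          · exact hx
          · exact h2 y hy
        · rw [h3]; simp
      | cons u r =>
        refine ⟨(x :: u) :: r, w1, ?_, h2, ?_⟩
        · intro v hv
          rcases List.mem_cons.1 hv with rfl | hv
          · intro y hy
            rcases List.mem_cons.1 hy with rfl | hy
            · exact hx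
            · exact h1 u (by simp) y hy
          · exact h1 v (List.mem_cons_of_mem _ hv)
        · rw [h3]; simp

end Words

section Substitution

variable {α M : Type} [Monoid M]

/-- the value of a word -/
def wval (φ : α → M) (w : List α) : M := (w.map φ).prod

@[simp] theorem wval_nil (φ : α → M) : wval φ [] = 1 := rfl

@[simp] theorem wval_cons (φ : α → M) (x : α) (w : List α) :
    wval φ (x :: w) = φ x * wval φ w := by
  simp [wval]

@[simp] theorem wval_append (φ : α → M) (u v : List α) :
    wval φ (u ++ v) = wval φ u * wval φ v := by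
  simp [wval]

/-- inverse image of a set of words over the alphabet `M` under the coding
`w1 c w2 c ... wk c ↦ [φ w1, ..., φ wk]`, the `wi` being words with letters in `Bp`. -/
def pre (φ : α → M) (c : α) (Bp : α → Prop) (L : Set (List M)) : Set (List α) :=
  {z | ∃ ws : List (List α), (∀ u ∈ ws, ∀ x ∈ u, Bp x) ∧ z = enc c ws ∧ ws.map (wval φ) ∈ L}

theorem pre_univ_HT [Finite α] (φ : α → M) (c : α) (Bp : α → Prop) :
    HT 0 (pre φ c Bp Set.univ) := by
  have h1 : HT 0 (({[]} : Set (List α)) ∪ catL {w : List α | ∀ x ∈ w, Bp x ∨ x = c} {[c]}) :=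
    (HT.nil 0).union ((HT.letters 0 _).cat (HT.char 0 c))
  refine h1.of_eq ?_
  ext z
  constructor
  · rintro (hz | ⟨y, hy, v, hv, rfl⟩)
    · have : z = [] := hz
      subst this
      exact ⟨[], by simp, by simp, trivial⟩
    · have : v = [c] := hv
      subst this
      obtain ⟨ws, w1, h1, h2, h3⟩ := exists_enc c Bp y hy
      refine ⟨ws ++ [w1], ?_, ?_, trivial⟩
      · intro u hu
        rcases List.mem_append.1 hu with hu | hu
        · exact h1 u hu
        · rw [List.mem_singleton] at hu
          subst hu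
          exact h2
      · rw [h3]; simp
  · rintro ⟨ws, h1, rfl, -⟩
    rcases List.eq_nil_or_concat ws with rfl | ⟨r, u, rfl⟩
    · left; rfl
    · right
      refine ⟨enc c r ++ u, ?_, [c], rfl, by simp⟩
      intro x hx
      rcases List.mem_append.1 hx with hx | hx
      · rcases mem_enc hx with ⟨v, hv, hxv⟩ | hxc
        · exact Or.inl (h1 v (by simp [hv]) x hxv)
        · exact Or.inr hxc
      · exact Or.inl (h1 u (by simp) x hx)

theorem pre_HT [Finite α] (φ : α → M) (c : α) (Bp : α → Prop) (hc : ¬ Bp c)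
    (hB : ∀ t : M, HT 0 {w : List α | (∀ x ∈ w, Bp x) ∧ wval φ w = t}) :
    ∀ e : GRE M, e.sh ≤ 0 → HT 0 (pre φ c Bp {τ | τ ∈ e.lang}) := by
  intro e
  induction e with
  | zero =>
    intro _
    refine (HT.empty 0).of_eq ?_
    ext z
    constructor
    · intro h; exact absurd h (by simp)
    · rintro ⟨ws, -, -, h⟩
      exact absurd h (by simp [GRE.lang])
  | one =>
    intro _
    refine (HT.nil 0).of_eq ?_
    ext z
    constructor
    · intro h
      have : z = [] := h
      subst this
      exact ⟨[], by simp, by simp, by simp [GRE.lang]⟩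
    · rintro ⟨ws, -, rfl, h⟩
      have h' : ws.map (wval φ) = [] := by simpa [GRE.lang] using h
      have : ws = [] := by simpa using h'
      subst this
      rfl
  | char t =>
    intro _
    refine ((hB t).cat (HT.char 0 c)).of_eq ?_
    ext z
    constructor
    · rintro ⟨u, ⟨hu1, hu2⟩, v, hv, rfl⟩
      have : v = [c] := hv
      subst this
      refine ⟨[u], by simpa using hu1, by simp, ?_⟩
      show [u].map (wval φ) ∈ ({[t]} : Set (List M))
      simp [hu2]
    · rintro ⟨ws, h1, rfl, h⟩
      have h' : ws.map (wval φ) = [t] := h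
      obtain ⟨u, rfl, hu⟩ : ∃ u, ws = [u] ∧ wval φ u = t := by
        cases ws with
        | nil => simp at h'
        | cons u r =>
          cases r with
          | nil => exact ⟨u, rfl, by simpa using h'⟩
          | cons _ _ => simp at h'
      exact ⟨u, ⟨h1 u (by simp), hu⟩, [c], rfl, by simp⟩
  | plus P Q ihP ihQ =>
    intro hsh
    have hP : P.sh ≤ 0 := le_trans (le_max_left _ _) hsh
    have hQ : Q.sh ≤ 0 := le_trans (le_max_right _ _) hsh
    refine ((ihP hP).union (ihQ hQ)).of_eq ?_
    ext z
    constructor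
    · rintro (⟨ws, h1, h2, h3⟩ | ⟨ws, h1, h2, h3⟩)
      · exact ⟨ws, h1, h2, (Language.mem_add _ _ _).2 (Or.inl h3)⟩
      · exact ⟨ws, h1, h2, (Language.mem_add _ _ _).2 (Or.inr h3)⟩
    · rintro ⟨ws, h1, h2, h3⟩
      rcases (Language.mem_add _ _ _).1 h3 with h | h
      · exact Or.inl ⟨ws, h1, h2, h⟩
      · exact Or.inr ⟨ws, h1, h2, h⟩
  | comp P Q ihP ihQ =>
    intro hsh
    have hP : P.sh ≤ 0 := le_trans (le_max_left _ _) hsh
    have hQ : Q.sh ≤ 0 := le_trans (le_max_right _ _) hsh
    refine ((ihP hP).cat (ihQ hQ)).of_eq ?_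
    ext z
    constructor
    · rintro ⟨z1, ⟨ws1, h1, rfl, h3⟩, z2, ⟨ws2, h4, rfl, h6⟩, rfl⟩
      refine ⟨ws1 ++ ws2, ?_, by simp, ?_⟩
      · intro u hu
        rcases List.mem_append.1 hu with hu | hu
        · exact h1 u hu
        · exact h4 u hu
      · show (ws1 ++ ws2).map (wval φ) ∈ P.lang * Q.lang
        rw [List.map_append]
        exact Language.mem_mul.2 ⟨_, h3, _, h6, rfl⟩
    · rintro ⟨ws, h1, rfl, h3⟩
      obtain ⟨a, ha, b, hb, hab⟩ := Language.mem_mul.1 h3
      obtain ⟨ws1, ws2, rfl, rfl, rfl⟩ := List.map_eq_append_iff.1 hab.symm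
      exact ⟨enc c ws1, ⟨ws1, fun u hu => h1 u (by simp [hu]), rfl, ha⟩,
        enc c ws2, ⟨ws2, fun u hu => h1 u (by simp [hu]), rfl, hb⟩, by simp⟩
  | compl P ihP =>
    intro hsh
    have hP : P.sh ≤ 0 := hsh
    refine ((pre_univ_HT φ c Bp).sdiff (ihP hP)).of_eq ?_
    ext z
    constructor
    · rintro ⟨⟨ws, h1, h2, -⟩, hn⟩
      refine ⟨ws, h1, h2, ?_⟩
      intro hmem
      exact hn ⟨ws, h1, h2, hmem⟩
    · rintro ⟨ws, h1, h2, h3⟩
      refine ⟨⟨ws, h1, h2, trivial⟩, ?_⟩
      rintro ⟨ws', h1', h2', h3'⟩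
      have hcw : ∀ (l : List (List α)), (∀ u ∈ l, ∀ x ∈ u, Bp x) → ∀ w ∈ l, c ∉ w :=
        fun l hl w hw hcw => hc (hl w hw c hcw)
      have : ws = ws' := enc_inj c ws ws' (hcw ws h1) (hcw ws' h1') (h2.symm.trans h2')
      subst this
      exact h3 h3'
  | star P _ =>
    intro hsh
    exact absurd hsh (by simp [GRE.sh])

theorem prod_enc (φ : α → M) (c : α) (ws : List (List α)) :
    (((ws.map (wval φ)).map (LocDiv.psi (φ c))).prod).1 = φ c * wval φ (enc c ws) := by
  induction ws with
  | nil => simp [LocDiv.val_one]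
  | cons u r ih =>
    rw [List.map_cons, List.map_cons, List.prod_cons,
      LocDiv.val_mul _ _ (φ c * wval φ u) rfl, ih]
    simp [mul_assoc]

theorem step [Finite M] [Finite α] (φ : α → M) (c : α) (Bp : α → Prop) (hc : ¬ Bp c)
    (hK : ∀ q : LocDiv (φ c), HT 0 {τ : List M | (τ.map (LocDiv.psi (φ c))).prod = q})
    (hB : ∀ t : M, HT 0 {w : List α | (∀ x ∈ w, Bp x) ∧ wval φ w = t}) (m : M) :
    HT 0 {w : List α | (∀ x ∈ w, Bp x ∨ x = c) ∧ wval φ w = m} := by
  have hS : ∀ q : LocDiv (φ c),
      HT 0 (pre φ c Bp {τ : List M | (τ.map (LocDiv.psi (φ c))).prod = q}) := by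
    intro q
    obtain ⟨e, he, h1⟩ := hK q
    refine (pre_HT φ c Bp hc hB e he).of_eq ?_
    congr 1
    ext τ
    exact h1 τ
  have hU := HT.iUnion_prop (k := 0) (ι := M × LocDiv (φ c) × M)
    (fun i => i.1 * i.2.1.1 * i.2.2 = m)
    (fun i => catL (catL (catL {w : List α | (∀ x ∈ w, Bp x) ∧ wval φ w = i.1} {[c]})
      (pre φ c Bp {τ : List M | (τ.map (LocDiv.psi (φ c))).prod = i.2.1}))
      {w : List α | (∀ x ∈ w, Bp x) ∧ wval φ w = i.2.2})
    (fun i _ => (((hB i.1).cat (HT.char 0 c)).cat (hS i.2.1)).cat (hB i.2.2))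
  refine ((hB m).union hU).of_eq ?_
  ext w
  constructor
  · rintro (⟨h1, h2⟩ | ⟨⟨p0, q, p2⟩, hm, y, ⟨y1, ⟨w0, ⟨hw0, hw0'⟩, v, hv, rfl⟩,
      z, ⟨ws, hws, rfl, hq⟩, rfl⟩, w1, ⟨hw1, hw1'⟩, rfl⟩)
    · exact ⟨fun x hx => Or.inl (h1 x hx), h2⟩
    · have : v = [c] := hv
      subst this
      have hq' : ((ws.map (wval φ)).map (LocDiv.psi (φ c))).prod = q := hq
      constructor
      · intro x hx
        simp only [List.mem_append, List.mem_singleton] at hx
        rcases hx with ((hx | hx) | hx) | hx
        · exact Or.inl (hw0 x hx)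
        · exact Or.inr hx
        · rcases mem_enc hx with ⟨u, hu, hxu⟩ | hxc
          · exact Or.inl (hws u hu x hxu)
          · exact Or.inr hxc
        · exact Or.inl (hw1 x hx)
      · have h3 := prod_enc φ c ws
        rw [hq'] at h3
        simp only [wval_append, wval_cons, wval_nil, mul_one]
        rw [hw0', hw1', ← hm]
        simp only at h3 ⊢
        rw [h3]
        simp [mul_assoc]
  · rintro ⟨h1, h2⟩
    obtain ⟨ws, w1, h3, h4, rfl⟩ := exists_enc c Bp w h1
    cases ws with
    | nil =>
      left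
      exact ⟨by simpa using h4, by simpa using h2⟩
    | cons w0 r =>
      right
      refine ⟨(wval φ w0, ((r.map (wval φ)).map (LocDiv.psi (φ c))).prod, wval φ w1), ?_, ?_⟩
      · show wval φ w0 * (((r.map (wval φ)).map (LocDiv.psi (φ c))).prod).1 * wval φ w1 = m
        rw [prod_enc, ← h2]
        simp [mul_assoc]
      · refine ⟨(w0 ++ [c]) ++ enc c r, ⟨w0 ++ [c], ⟨w0, ⟨h3 w0 (by simp), rfl⟩, [c], rfl, rfl⟩,
          enc c r, ⟨r, fun u hu => h3 u (by simp [hu]), rfl, rfl⟩, rfl⟩, w1, ⟨h4, rfl⟩, by simp⟩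

end Substitution

/-- The inductive statement: induction on the size of the monoid, then on the set of letters. -/
theorem schutz_aux : ∀ (n : ℕ) (M : Type) [Monoid M] [Finite M], Nat.card M = n →
    (∀ x : M, ∃ k : ℕ, x ^ k = x ^ (k + 1)) → ∀ (α : Type) [Finite α] (φ : α → M)
    (B : Finset α) (m : M), HT 0 {w : List α | (∀ x ∈ w, x ∈ B) ∧ wval φ w = m} := by
  intro n
  induction n using Nat.strong_induction_on with
  | _ n IH =>
    intro M _ _ hcard hM α _ φ B
    classical
    induction B using Finset.strongInductionOn with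
    | _ B ihB =>
      intro m
      by_cases hall : ∀ x ∈ B, φ x = 1
      · -- all letters have value one
        have hval : ∀ w : List α, (∀ x ∈ w, x ∈ B) → wval φ w = 1 := by
          intro w
          induction w with
          | nil => intro _; rfl
          | cons x w ih =>
            intro h
            rw [wval_cons, hall x (h x (by simp)), one_mul,
              ih (fun y hy => h y (List.mem_cons_of_mem _ hy))]
        by_cases hm : m = 1
        · refine (HT.letters 0 (fun x => x ∈ B)).of_eq ?_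
          ext w
          constructor
          · intro h; exact ⟨h, by rw [hval w h, hm]⟩
          · intro h; exact h.1
        · refine (HT.empty 0).of_eq ?_
          ext w
          constructor
          · intro h; exact absurd h (by simp)
          · rintro ⟨h1, h2⟩
            exact absurd ((hval w h1).symm.trans h2).symm hm
      · push Not at hall
        obtain ⟨c, hcB, hc1⟩ := hall
        have hK : ∀ q : LocDiv (φ c),
            HT 0 {τ : List M | (τ.map (LocDiv.psi (φ c))).prod = q} := by
          intro q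
          have hfin := Fintype.ofFinite M
          have := IH (Nat.card (LocDiv (φ c))) (hcard ▸ LocDiv.card_lt hM hc1) (LocDiv (φ c)) rfl
            (LocDiv.aperiodic hM) M (LocDiv.psi (φ c)) Finset.univ q
          refine this.of_eq ?_
          ext τ
          simp [wval]
        have hB' := ihB (B.erase c) (Finset.erase_ssubset hcB)
        have := step φ c (fun x => x ∈ B.erase c) (by simp) hK hB' m
        refine this.of_eq ?_
        ext w
        have hiff : ∀ x, (x ∈ B.erase c ∨ x = c) ↔ x ∈ B := by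
          intro x
          by_cases hx : x = c
          · subst hx; simp [hcB]
          · simp [hx]
        simp only [Set.mem_ofPred_eq, hiff]

/-- **Schutzenberger's theorem** (the hard direction): the languages recognized by a finite
aperiodic monoid are star-free. -/
theorem schutz (M : Type) [Monoid M] [Finite M] (hM : ∀ x : M, ∃ n : ℕ, x ^ n = x ^ (n + 1))
    (a : Type) [Finite a] (phi : a → M) (m : M) :
    HT 0 {w : List a | (w.map phi).prod = m} := by
  classical
  have := Fintype.ofFinite a
  refine (schutz_aux (Nat.card M) M rfl hM a phi Finset.univ m).of_eq ?_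
  ext w
  simp [wval]

end Vale.Agent.Lib.P329
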