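import Vale.Agent.Lib.P329.Level

namespace Vale.Agent.Lib.P329

set_option linter.unusedSectionVars false
set_option linter.unusedSimpArgs false

variable {α : Type} [DecidableEq α]

/-- auxiliary: subword counting, both words read from the right end -/
def scntH : List α → List α → ℕ
  | [], _ => 1
  | _ :: _, [] => 0
  | x :: u, y :: w => scntH (x :: u) w + if x = y then scntH u w else 0

/-- number of occurrences of `u` as a scattered subword of `w` -/
def scnt (u w : List α) : ℕ := scntH u.reverse w.reverse

@[simp] theorem scnt_nil (w : List α) : scnt [] w = 1 := by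
  unfold scnt
  cases h : w.reverse <;> simp [scntH]

@[simp] theorem scnt_snoc_nil (u : List α) (x : α) : scnt (u ++ [x]) [] = 0 := by
  simp [scnt, scntH]

theorem scnt_snoc (u w : List α) (x y : α) :
    scnt (u ++ [x]) (w ++ [y]) = scnt (u ++ [x]) w + if x = y then scnt u w else 0 := by
  simp [scnt, scntH]

theorem scnt_one_snoc (a : α) (w : List α) (y : α) :
    scnt [a] (w ++ [y]) = scnt [a] w + if a = y then 1 else 0 := by
  have := scnt_snoc [] w a y
  simpa using this

theorem scnt_two_snoc (a b : α) (w : List α) (y : α) :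
    scnt [a, b] (w ++ [y]) = scnt [a, b] w + if b = y then scnt [a] w else 0 := by
  have := scnt_snoc [a] w b y
  simpa using this

theorem scnt_three_snoc (a b c : α) (w : List α) (y : α) :
    scnt [a, b, c] (w ++ [y]) = scnt [a, b, c] w + if c = y then scnt [a, b] w else 0 := by
  have := scnt_snoc [a, b] w c y
  simpa using this

@[simp] theorem scnt_one_nil (a : α) : scnt [a] [] = 0 := scnt_snoc_nil [] a
@[simp] theorem scnt_two_nil (a b : α) : scnt [a, b] [] = 0 := scnt_snoc_nil [a] b
@[simp] theorem scnt_three_nil (a b c : α) : scnt [a, b, c] [] = 0 := scnt_snoc_nil [a, b] c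

theorem scnt_one (a : α) (w : List α) : scnt [a] w = w.count a := by
  induction w using List.reverseRecOn with
  | nil => simp
  | append_singleton w y ih =>
    rw [scnt_one_snoc, ih, List.count_append]
    congr 1
    by_cases h : a = y
    · subst h; simp
    · simp [h, List.count_singleton, Ne.symm h]

section rep

variable {M : Type} [CommGroup M]

/-- the multiplicative span of the functions `w ↦ m ^ scnt u w`, `|u| ≤ d` -/
inductive Rep (d : ℕ) : (List α → M) → Prop
  | base (u : List α) (m : M) (h : u.length ≤ d) : Rep d (fun w => m ^ scnt u w)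
  | mul {f g : List α → M} : Rep d f → Rep d g → Rep d (fun w => f w * g w)

theorem Rep.of_eq {d : ℕ} {f g : List α → M} (hf : Rep d f) (h : ∀ w, f w = g w) : Rep d g := by
  have : f = g := funext h
  exact this ▸ hf

theorem Rep.const (d : ℕ) (m : M) : Rep (α := α) d (fun _ => m) :=
  (Rep.base [] m (Nat.zero_le d)).of_eq (fun w => by simp)

theorem Rep.mono {d d' : ℕ} (h : d ≤ d') {f : List α → M} (hf : Rep d f) : Rep d' f := by
  induction hf with
  | base u m hu => exact Rep.base u m (hu.trans h)
  | mul _ _ ih1 ih2 => exact Rep.mul ih1 ih2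

theorem Rep.prod {d : ℕ} {ι : Type} (s : Finset ι) (f : ι → List α → M)
    (h : ∀ i ∈ s, Rep d (f i)) : Rep d (fun w => ∏ i ∈ s, f i w) := by
  classical
  induction s using Finset.induction_on with
  | empty => exact (Rep.const d 1).of_eq (fun w => by simp)
  | insert a s ha ih =>
    refine (Rep.mul (h a (Finset.mem_insert_self a s))
      (ih (fun i hi => h i (Finset.mem_insert_of_mem hi)))).of_eq (fun w => ?_)
    rw [Finset.prod_insert ha]

/-- one-letter integration -/
theorem Rep.integrate_one {d : ℕ} (y : α) {g : List α → M} (hg : Rep d g) :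
    ∃ F : List α → M, Rep (d + 1) F ∧ F [] = 1 ∧
      ∀ w b, F (w ++ [b]) = F w * (if y = b then g w else 1) := by
  induction hg with
  | base u m hu =>
    refine ⟨fun w => m ^ scnt (u ++ [y]) w, Rep.base _ m (by simpa using hu), by simp, ?_⟩
    intro w b
    simp only [scnt_snoc, pow_add]
    by_cases h : y = b <;> simp [h]
  | mul _ _ ih1 ih2 =>
    obtain ⟨F1, h1, h1n, h1s⟩ := ih1
    obtain ⟨F2, h2, h2n, h2s⟩ := ih2
    refine ⟨fun w => F1 w * F2 w, Rep.mul h1 h2, by simp [h1n, h2n], ?_⟩
    intro w b
    simp only [h1s, h2s]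
    by_cases h : y = b
    · simp only [h, if_true]
      exact mul_mul_mul_comm _ _ _ _
    · simp [h]

/-- **Integration lemma.** -/
theorem Rep.integrate [Fintype α] {d : ℕ} (f : List α → M) (g : α → List α → M)
    (h : ∀ w y, f (w ++ [y]) = f w * g y w) (hg : ∀ y, Rep d (g y)) : Rep (d + 1) f := by
  choose F hF hFn hFs using fun y => Rep.integrate_one y (hg y)
  have key : ∀ w, f w = f [] * ∏ y, F y w := by
    intro w
    induction w using List.reverseRecOn with
    | nil => simp [hFn]
    | append_singleton w b ih =>
      rw [h, ih]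
      simp only [hFs, Finset.prod_mul_distrib]
      rw [Finset.prod_ite_eq' Finset.univ b (fun y => g y w)]
      simp [mul_assoc]
  exact ((Rep.const (d + 1) (f [])).mul (Rep.prod Finset.univ F (fun y _ => hF y))).of_eq
    (fun w => (key w).symm)

/-- a function in `Rep d` only depends on the subword counts modulo the exponent -/
theorem Rep.determined {d : ℕ} {f : List α → M} (hf : Rep d f) (E : ℕ) (hE : ∀ m : M, m ^ E = 1)
    (w w' : List α) (h : ∀ u : List α, u.length ≤ d → scnt u w ≡ scnt u w' [MOD E]) :
    f w = f w' := by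
  induction hf with
  | base u m hu => exact pow_eq_pow_of_modEq (h u hu) (hE m)
  | mul _ _ ih1 ih2 => simp only [ih1, ih2]

end rep

end Vale.Agent.Lib.P329
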