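import Vale.Agent.Lib.P329.Unit

namespace Vale.Agent.Lib.P329

set_option linter.unusedSectionVars false
set_option linter.unusedSimpArgs false

variable {α : Type} [DecidableEq α]

/-- sum of `F (prefix)` over the occurrences of the letter `x` (with an accumulator) -/
def sgA (F : List α → ℕ) (x : α) : List α → List α → ℕ
  | _, [] => 0
  | acc, b :: w => (if b = x then F acc else 0) + sgA F x (acc ++ [b]) w

/-- sum of `F (prefix)` over the occurrences of the letter `x` -/
def Sg (F : List α → ℕ) (x : α) (w : List α) : ℕ := sgA F x [] w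

theorem sgA_snoc (F : List α → ℕ) (x : α) (acc w : List α) (b : α) :
    sgA F x acc (w ++ [b]) = sgA F x acc w + (if b = x then F (acc ++ w) else 0) := by
  induction w generalizing acc with
  | nil => simp [sgA]
  | cons a w ih =>
    simp only [List.cons_append, sgA]
    rw [ih, add_assoc]
    simp

theorem Sg_nil (F : List α → ℕ) (x : α) : Sg F x [] = 0 := rfl

theorem Sg_snoc (F : List α → ℕ) (x : α) (w : List α) (b : α) :
    Sg F x (w ++ [b]) = Sg F x w + (if b = x then F w else 0) := by
  unfold Sg
  rw [sgA_snoc]
  simp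

theorem Sg_add (F F' : List α → ℕ) (x : α) (w : List α) :
    Sg (fun u => F u + F' u) x w = Sg F x w + Sg F' x w := by
  induction w using List.reverseRecOn with
  | nil => rfl
  | append_singleton w b ih =>
    rw [Sg_snoc, Sg_snoc, Sg_snoc, ih]
    by_cases hb : b = x
    · simp only [hb, if_true]; ring
    · simp only [hb, if_false]; ring

theorem Sg_congr (F F' : List α → ℕ) (h : ∀ u, F u = F' u) (x : α) (w : List α) :
    Sg F x w = Sg F' x w := by
  have : F = F' := funext h
  rw [this]

/-- the indicator of the set `{y, z}` with values in `ZMod M` -/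
def pind (M : ℕ) (y z : α) : α → ZMod M := fun a => if a = y ∨ a = z then 1 else 0

theorem pind_01 (M : ℕ) (y z a : α) : pind M y z a = 0 ∨ pind M y z a = 1 := by
  unfold pind
  by_cases h : a = y ∨ a = z
  · right; rw [if_pos h]
  · left; rw [if_neg h]

theorem pind_zero (M : ℕ) (y z x : α) (h1 : x ≠ y) (h2 : x ≠ z) : pind M y z x = 0 := by
  unfold pind
  rw [if_neg]
  rintro (h | h)
  · exact h1 h
  · exact h2 h

/-- number of letters of `u` in `{y, z}` -/
def cS (y z : α) (u : List α) : ℕ := u.countP (fun a => decide (a = y ∨ a = z))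

theorem cS_self (y : α) (u : List α) : cS y y u = u.count y := by
  unfold cS
  induction u with
  | nil => rfl
  | cons a u ih =>
    rw [List.countP_cons, List.count_cons, ih]
    by_cases h : a = y
    · simp [h]
    · simp [h]

theorem cS_ne (y z : α) (h : y ≠ z) (u : List α) : cS y z u = u.count y + u.count z := by
  unfold cS
  induction u with
  | nil => rfl
  | cons a u ih =>
    rw [List.countP_cons, List.count_cons, List.count_cons, ih]
    by_cases h1 : a = y
    · have h2 : a ≠ z := fun e => h (h1 ▸ e)
      simp [h1, h]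
      omega
    · by_cases h2 : a = z
      · simp [h2, Ne.symm h]
        omega
      · simp [h1, h2]

theorem sum_pind (M : ℕ) (y z : α) (u : List α) :
    (u.map (pind M y z)).sum = ((cS y z u : ℕ) : ZMod M) := by
  unfold cS
  induction u with
  | nil => simp
  | cons a u ih =>
    rw [List.map_cons, List.sum_cons, ih, List.countP_cons]
    by_cases h : a = y ∨ a = z
    · simp [pind, h]
      ring
    · simp [pind, h]

/-- periodic functions -/
theorem per_mod {M e : ℕ} (ψ : ℕ → ℕ) (hψ : ∀ n, ψ (n + M) ≡ ψ n [MOD e]) (n : ℕ) :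
    ψ (n % M) ≡ ψ n [MOD e] := by
  have key : ∀ k r, ψ (r + k * M) ≡ ψ r [MOD e] := by
    intro k r
    induction k with
    | zero => simp; exact Nat.ModEq.refl _
    | succ k ih =>
      have : r + (k + 1) * M = (r + k * M) + M := by ring
      rw [this]
      exact (hψ _).trans ih
  have := key (n / M) (n % M)
  rw [Nat.mod_add_div' n M] at this
  exact this.symm

theorem per_congr {M e : ℕ} (ψ : ℕ → ℕ) (hψ : ∀ n, ψ (n + M) ≡ ψ n [MOD e]) (n n' : ℕ)
    (h : n ≡ n' [MOD M]) : ψ n ≡ ψ n' [MOD e] := by
  have h1 := per_mod ψ hψ n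
  have h2 := per_mod ψ hψ n'
  have : n % M = n' % M := h
  rw [this] at h1
  exact h1.symm.trans h2

theorem Sg_levels {M e : ℕ} [NeZero M] [Fintype (ZMod M)] (ψ : ℕ → ℕ)
    (hψ : ∀ n, ψ (n + M) ≡ ψ n [MOD e]) (y z x : α) (w : List α) :
    Sg (fun u => ψ (cS y z u)) x w ≡ ∑ l : ZMod M, ψ l.val * cnt (pind M y z) l x w [MOD e] := by
  induction w using List.reverseRecOn with
  | nil => simp [Sg_nil, cnt_nil]; exact Nat.ModEq.refl _
  | append_singleton w b ih =>
    rw [Sg_snoc]
    simp only [cnt_snoc, mul_add, Finset.sum_add_distrib]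
    apply Nat.ModEq.add ih
    by_cases hb : b = x
    · simp only [hb, if_true, and_true, mul_ite, mul_one, mul_zero]
      rw [Finset.sum_ite_eq]
      simp only [Finset.mem_univ, if_true]
      rw [sum_pind, ZMod.val_natCast]
      exact (per_mod ψ hψ _).symm
    · simp only [hb, if_false, and_false, mul_zero, Finset.sum_const_zero]
      exact Nat.ModEq.refl _

theorem Sg_levels_congr {M e : ℕ} [NeZero M] (ψ : ℕ → ℕ)
    (hψ : ∀ n, ψ (n + M) ≡ ψ n [MOD e]) (y z x : α) (w w' : List α)
    (h : ∀ l, cnt (pind M y z) l x w ≡ cnt (pind M y z) l x w' [MOD e]) :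
    Sg (fun u => ψ (cS y z u)) x w ≡ Sg (fun u => ψ (cS y z u)) x w' [MOD e] := by
  have := ZMod.fintype M
  refine (Sg_levels ψ hψ y z x w).trans (Nat.ModEq.trans ?_ (Sg_levels ψ hψ y z x w').symm)
  have : ∀ s : Finset (ZMod M), ∑ l ∈ s, ψ l.val * cnt (pind M y z) l x w
      ≡ ∑ l ∈ s, ψ l.val * cnt (pind M y z) l x w' [MOD e] := by
    intro s
    induction s using Finset.induction_on with
    | empty => exact Nat.ModEq.refl _
    | insert a s ha ih =>
      rw [Finset.sum_insert ha, Finset.sum_insert ha]
      exact Nat.ModEq.add (Nat.ModEq.mul_left _ (h a)) ih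
  exact this _

theorem add_choose_two (a b : ℕ) : (a + b).choose 2 = a.choose 2 + b.choose 2 + a * b := by
  induction b with
  | zero => simp
  | succ b ih =>
    rw [← add_assoc, Nat.choose_succ_succ' (a + b) 1, Nat.choose_succ_succ' b 1, ih,
      Nat.choose_one_right, Nat.choose_one_right]
    ring

theorem choose_two_per (e n : ℕ) : (n + 2 * e).choose 2 ≡ n.choose 2 [MOD e] := by
  rw [add_choose_two]
  have h2 : 2 * e.choose 2 = e * (e - 1) := by
    rw [Nat.choose_two_right]
    exact Nat.mul_div_cancel' (Nat.even_mul_pred_self e).two_dvd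
  have h1 : (2 * e).choose 2 = e * ((e - 1) + e) := by
    have : 2 * e = e + e := by ring
    rw [this, add_choose_two]
    calc e.choose 2 + e.choose 2 + e * e = 2 * e.choose 2 + e * e := by ring
      _ = e * (e - 1) + e * e := by rw [h2]
      _ = e * ((e - 1) + e) := by ring
  rw [h1]
  have : n.choose 2 + e * ((e - 1) + e) + n * (2 * e)
      = n.choose 2 + e * (((e - 1) + e) + 2 * n) := by ring
  rw [this]
  exact Nat.add_mul_mod_self_left _ _ _

theorem id_per (e n : ℕ) : (n + 2 * e) ≡ n [MOD e] := by
  have : n + 2 * e = n + e * 2 := by ring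
  rw [this]
  exact Nat.add_mul_mod_self_left _ _ _

/-- the invariants used for groups of class three -/
def Hyp (e : ℕ) (w w' : List α) : Prop :=
  (∀ y z l x, x ≠ y → x ≠ z →
    cnt (pind (2 * e) y z) l x w ≡ cnt (pind (2 * e) y z) l x w' [MOD e]) ∧
  (∀ y, w.count y ≡ w'.count y [MOD 2 * e])

/-- the monomials in the letter counts of the prefix that can be summed over the occurrences of
the letter `x` -/
def Mono (x : α) (μ : List α → ℕ) : Prop :=
  (∃ y, y ≠ x ∧ μ = fun u => u.count y) ∨
  (∃ y, y ≠ x ∧ μ = fun u => (u.count y).choose 2) ∨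
  (∃ y z, y ≠ x ∧ z ≠ x ∧ y ≠ z ∧ μ = fun u => u.count y * u.count z) ∨
  (∃ y, y ≠ x ∧ μ = fun u => u.count x * u.count y)

theorem own_identity (x y : α) (h : y ≠ x) (w : List α) :
    Sg (fun u => u.count x * u.count y) x w + Sg (fun u => (u.count x).choose 2) y w
      = w.count y * (w.count x).choose 2 := by
  induction w using List.reverseRecOn with
  | nil => simp [Sg_nil]
  | append_singleton w b ih =>
    rw [Sg_snoc, Sg_snoc, List.count_append, List.count_append]
    by_cases hb : b = x
    · subst hb
      have hby : b ≠ y := Ne.symm h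
      simp only [if_true, hby, if_false, List.count_singleton_self, add_zero]
      rw [List.count_singleton, if_neg (by simpa using hby), add_zero,
        Nat.choose_succ_succ' (w.count b) 1, Nat.choose_one_right]
      calc Sg (fun u => u.count b * u.count y) b w + w.count b * w.count y
            + Sg (fun u => (u.count b).choose 2) y w
          = (Sg (fun u => u.count b * u.count y) b w + Sg (fun u => (u.count b).choose 2) y w)
            + w.count b * w.count y := by ring
        _ = w.count y * (w.count b).choose 2 + w.count b * w.count y := by rw [ih]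
        _ = _ := by ring
    · by_cases hby : b = y
      · subst hby
        simp only [hb, if_false, if_true, List.count_singleton_self, add_zero]
        rw [List.count_singleton, if_neg (by simpa using hb), add_zero]
        calc Sg (fun u => u.count x * u.count b) x w
              + (Sg (fun u => (u.count x).choose 2) b w + (w.count x).choose 2)
            = (Sg (fun u => u.count x * u.count b) x w + Sg (fun u => (u.count x).choose 2) b w)
              + (w.count x).choose 2 := by ring
          _ = w.count b * (w.count x).choose 2 + (w.count x).choose 2 := by rw [ih]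
          _ = _ := by ring
      · simp only [hb, hby, if_false, add_zero]
        rw [List.count_singleton, List.count_singleton, if_neg (by simpa using hby),
          if_neg (by simpa using hb), add_zero, add_zero, ih]

theorem mono_good (e : ℕ) [NeZero e] (x : α) (μ : List α → ℕ) (hμ : Mono x μ) (w w' : List α)
    (h : Hyp e w w') : Sg μ x w ≡ Sg μ x w' [MOD e] := by
  have : NeZero (2 * e) := ⟨by have := NeZero.ne e; omega⟩
  obtain ⟨h1, h2⟩ := h
  have A1 : ∀ x y : α, y ≠ x →
      Sg (fun u => u.count y) x w ≡ Sg (fun u => u.count y) x w' [MOD e] := by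
    intro x y hy
    have := Sg_levels_congr (M := 2 * e) (fun n => n) (id_per e) y y x w w'
      (fun l => h1 y y l x (Ne.symm hy) (Ne.symm hy))
    simpa only [cS_self] using this
  have A2 : ∀ x y : α, y ≠ x →
      Sg (fun u => (u.count y).choose 2) x w ≡ Sg (fun u => (u.count y).choose 2) x w' [MOD e] := by
    intro x y hy
    have := Sg_levels_congr (M := 2 * e) (fun n => n.choose 2) (choose_two_per e) y y x w w'
      (fun l => h1 y y l x (Ne.symm hy) (Ne.symm hy))
    simpa only [cS_self] using this
  rcases hμ with ⟨y, hy, rfl⟩ | ⟨y, hy, rfl⟩ | ⟨y, z, hy, hz, hyz, rfl⟩ | ⟨y, hy, rfl⟩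
  · exact A1 x y hy
  · exact A2 x y hy
  · have B := Sg_levels_congr (M := 2 * e) (fun n => n.choose 2) (choose_two_per e) y z x w w'
      (fun l => h1 y z l x (Ne.symm hy) (Ne.symm hz))
    have split : ∀ v : List α, Sg (fun u => (cS y z u).choose 2) x v
        = (Sg (fun u => (u.count y).choose 2) x v + Sg (fun u => (u.count z).choose 2) x v)
          + Sg (fun u => u.count y * u.count z) x v := by
      intro v
      rw [← Sg_add, ← Sg_add]
      apply Sg_congr
      intro u
      rw [cS_ne y z hyz, add_choose_two]
    rw [split w, split w'] at B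
    exact Nat.ModEq.add_left_cancel ((A2 x y hy).add (A2 x z hz)) B
  · have I1 := own_identity x y hy w
    have I2 := own_identity x y hy w'
    have C : w.count y * (w.count x).choose 2 ≡ w'.count y * (w'.count x).choose 2 [MOD e] := by
      apply Nat.ModEq.mul
      · exact (h2 y).of_mul_left 2
      · exact per_congr (M := 2 * e) (fun n => n.choose 2) (choose_two_per e) _ _ (h2 x)
    rw [← I1, ← I2] at C
    exact Nat.ModEq.add_right_cancel (A2 y x (Ne.symm hy)) C

end Vale.Agent.Lib.P329
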