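import Vale.Agent.Lib.P329.Nil3c

namespace Vale.Agent.Lib.P329

set_option linter.unusedSectionVars false
set_option linter.unusedSimpArgs false

variable {α : Type} [DecidableEq α]

/-- every language saturated by the class three invariants has height at most one -/
theorem hyp_HT [Finite α] (e : ℕ) [NeZero e] (L : Set (List α))
    (hsat : ∀ w w', Hyp e w w' → (w ∈ L ↔ w' ∈ L)) : HT 1 L := by
  have hc : e ≠ 0 := NeZero.ne e
  have : NeZero (2 * e) := ⟨by omega⟩
  have : Finite (ZMod e) := by
    have := ZMod.fintype e
    infer_instance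
  have : Finite (ZMod (2 * e)) := by
    have := ZMod.fintype (2 * e)
    infer_instance
  apply HT.of_invariant
    (ι := ((α × α × ZMod (2 * e) × α) → ZMod e) × (α → ZMod (2 * e)))
    (fun w => (fun t => if t.2.2.2 ≠ t.1 ∧ t.2.2.2 ≠ t.2.1 then
        ((cnt (pind (2 * e) t.1 t.2.1) t.2.2.1 t.2.2.2 w : ℕ) : ZMod e) else 0,
      fun y => (w.map (pind (2 * e) y y)).sum))
  · rintro ⟨i1, i2⟩
    have h1 := HT.iInter (k := 1) (fun t : α × α × ZMod (2 * e) × α =>
      {w : List α | (if t.2.2.2 ≠ t.1 ∧ t.2.2.2 ≠ t.2.1 then
        ((cnt (pind (2 * e) t.1 t.2.1) t.2.2.1 t.2.2.2 w : ℕ) : ZMod e) else 0) = i1 t})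
      (fun t => by
        by_cases ht : t.2.2.2 ≠ t.1 ∧ t.2.2.2 ≠ t.2.1
        · simp only [if_pos ht]
          exact ulevel_HT (2 * e) e _ (pind_01 _ _ _) _ _ (pind_zero _ _ _ _ ht.1 ht.2) _
        · simp only [if_neg ht]
          by_cases h0 : (0 : ZMod e) = i1 t
          · exact (HT.univ 1).of_eq (by ext w; simp [h0])
          · exact (HT.empty 1).of_eq (by ext w; simp [h0]))
    have h2 := HT.iInter (k := 1)
      (fun y : α => {w : List α | (w.map (pind (2 * e) y y)).sum = i2 y})
      (fun y => utotal_HT (2 * e) _ (pind_01 _ _ _) _)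
    refine (h1.inter h2).of_eq ?_
    ext w
    simp only [Set.mem_inter_iff, Set.mem_ofPred_eq, Prod.mk.injEq]
    constructor
    · rintro ⟨g1, g2⟩
      exact ⟨funext g1, funext g2⟩
    · rintro ⟨g1, g2⟩
      exact ⟨fun t => congrFun g1 t, fun y => congrFun g2 y⟩
  · intro w w' h
    simp only [Prod.mk.injEq] at h
    obtain ⟨h1, h2⟩ := h
    apply hsat
    constructor
    · intro y z l x hxy hxz
      have := congrFun h1 (y, z, l, x)
      simp only [] at this
      rw [if_pos ⟨hxy, hxz⟩, if_pos ⟨hxy, hxz⟩] at this
      exact (ZMod.natCast_eq_natCast_iff _ _ _).mp this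
    · intro y
      have := congrFun h2 y
      rw [sum_pind, sum_pind, cS_self, cS_self] at this
      exact (ZMod.natCast_eq_natCast_iff _ _ _).mp this

/-- the number of occurrences of `u` as a scattered subword of `w` -/
def sc (u w : List α) : ℕ := (List.sublists w).count u

theorem sc_snoc_nil (w : List α) (a : α) : sc [] (w ++ [a]) = sc [] w := by
  unfold sc
  rw [List.sublists_concat, List.count_append]
  have : ((List.sublists w).map (fun x => x ++ [a])).count [] = 0 := by
    apply List.count_eq_zero_of_not_mem
    intro h
    obtain ⟨v, _, hv⟩ := List.mem_map.mp h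
    simp at hv
  rw [this, add_zero]

theorem sc_nil (w : List α) : sc [] w = 1 := by
  induction w using List.reverseRecOn with
  | nil => simp [sc]
  | append_singleton w a ih => rw [sc_snoc_nil, ih]

theorem sc_snoc (u w : List α) (x a : α) :
    sc (u ++ [x]) (w ++ [a]) = sc (u ++ [x]) w + (if a = x then sc u w else 0) := by
  unfold sc
  rw [List.sublists_concat, List.count_append]
  congr 1
  by_cases h : a = x
  · subst h
    rw [if_pos rfl]
    exact List.count_map_of_injective _ _ (fun v v' hv => List.append_cancel_right hv) _
  · rw [if_neg h]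
    apply List.count_eq_zero_of_not_mem
    intro hm
    obtain ⟨v, _, hv⟩ := List.mem_map.mp hm
    have := List.append_inj' hv rfl
    simp only [List.cons.injEq, and_true] at this
    exact h this.2

theorem sc_snoc_nil' (u : List α) (x : α) : sc (u ++ [x]) [] = 0 := by
  unfold sc
  simp

theorem sc_eq_Sg (u : List α) (x : α) (w : List α) : sc (u ++ [x]) w = Sg (sc u) x w := by
  induction w using List.reverseRecOn with
  | nil => rw [sc_snoc_nil', Sg_nil]
  | append_singleton w a ih => rw [sc_snoc, Sg_snoc, ih]

theorem Sg_one (x : α) (w : List α) : Sg (fun _ => 1) x w = w.count x := by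
  induction w using List.reverseRecOn with
  | nil => simp [Sg_nil]
  | append_singleton w a ih =>
    rw [Sg_snoc, ih, List.count_append, List.count_singleton]
    by_cases h : a = x
    · simp [h]
    · simp [h]

theorem sc_one (x : α) (w : List α) : sc [x] w = w.count x := by
  have := sc_eq_Sg [] x w
  rw [List.nil_append] at this
  rw [this, ← Sg_one]
  apply Sg_congr
  intro u
  exact sc_nil u

theorem sc_two (y x : α) (w : List α) : sc [y, x] w = Sg (fun u => u.count y) x w := by
  have := sc_eq_Sg [y] x w
  rw [List.singleton_append] at this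
  rw [this]
  apply Sg_congr
  intro u
  exact sc_one y u

theorem sc_three (z y x : α) (w : List α) :
    sc [z, y, x] w = Sg (fun u => Sg (fun v => v.count z) y u) x w := by
  have := sc_eq_Sg [z, y] x w
  rw [show [z, y] ++ [x] = [z, y, x] from rfl] at this
  rw [this]
  apply Sg_congr
  intro u
  exact sc_two z y u

/-- summing a function of the own count -/
theorem Sg_own (ψ Ψ : ℕ → ℕ) (h0 : Ψ 0 = 0) (hs : ∀ n, Ψ (n + 1) = Ψ n + ψ n) (x : α)
    (w : List α) : Sg (fun u => ψ (u.count x)) x w = Ψ (w.count x) := by
  induction w using List.reverseRecOn with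
  | nil => simp [Sg_nil, h0]
  | append_singleton w a ih =>
    rw [Sg_snoc, ih, List.count_append, List.count_singleton]
    by_cases h : a = x
    · simp [h, hs]
    · simp [h]

theorem Sg_own1 (x : α) (w : List α) : Sg (fun u => u.count x) x w = (w.count x).choose 2 :=
  Sg_own (fun n => n) (fun n => n.choose 2) (by simp)
    (fun n => by rw [Nat.choose_succ_succ' n 1, Nat.choose_one_right]; ring) x w

theorem Sg_own2 (x : α) (w : List α) :
    Sg (fun u => (u.count x).choose 2) x w = (w.count x).choose 3 :=
  Sg_own (fun n => n.choose 2) (fun n => n.choose 3) (by simp)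
    (fun n => by rw [Nat.choose_succ_succ' n 2]; ring) x w

theorem middle_identity (z y x : α) (w : List α) :
    Sg (fun u => Sg (fun v => v.count z) y u) x w + Sg (fun u => u.count z * u.count x) y w
      + (if x = y then Sg (fun v => v.count z) y w else 0)
      = w.count x * Sg (fun v => v.count z) y w := by
  induction w using List.reverseRecOn with
  | nil => simp [Sg_nil]
  | append_singleton w b ih =>
    rw [Sg_snoc, Sg_snoc, Sg_snoc, List.count_append, List.count_singleton]
    by_cases hxy : x = y
    · subst hxy
      simp only [if_true] at ih ⊢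
      by_cases hb : b = x
      · subst hb
        simp only [if_true, beq_self_eq_true]
        nlinarith [ih]
      · simp only [hb, if_false, add_zero, beq_iff_eq]
        exact ih
    · simp only [hxy, if_false, add_zero] at ih ⊢
      by_cases hb : b = x
      · subst hb
        simp only [if_true, hxy, if_false, add_zero, beq_self_eq_true]
        nlinarith [ih]
      · by_cases hb2 : b = y
        · subst hb2
          simp only [hb, if_false, if_true, add_zero, beq_iff_eq]
          nlinarith [ih]
        · simp only [hb, hb2, if_false, add_zero, beq_iff_eq]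
          exact ih

end Vale.Agent.Lib.P329
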