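import Vale.Agent.Lib.P329.Sub3

namespace Vale.Agent.Lib.P329

set_option linter.unusedSectionVars false
set_option linter.unusedSimpArgs false

variable {α : Type} [DecidableEq α]

theorem choose_two_per6 (e n : ℕ) : (n + 6 * e).choose 2 ≡ n.choose 2 [MOD e] := by
  have := choose_two_per (3 * e) n
  have e1 : 2 * (3 * e) = 6 * e := by ring
  rw [e1] at this
  exact this.of_mul_left 3

theorem choose_three_base (e : ℕ) : (6 * e).choose 3 ≡ 0 [MOD e] := by
  rcases Nat.eq_zero_or_pos e with rfl | he
  · simp
  · obtain ⟨m, hm⟩ : ∃ m, 6 * e = m + 1 := ⟨6 * e - 1, by omega⟩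
    have h1 := Nat.add_one_mul_choose_eq m 2
    have h2 : (6 * e).choose 3 = e * (2 * m.choose 2) := by
      rw [hm]
      have : (m + 1) * m.choose 2 = (m + 1).choose 3 * 3 := h1
      rw [← hm] at this
      rw [← hm]
      have h3 : 3 * (6 * e).choose 3 = 3 * (e * (2 * m.choose 2)) := by
        calc 3 * (6 * e).choose 3 = (6 * e).choose 3 * 3 := by ring
          _ = 6 * e * m.choose 2 := this.symm
          _ = 3 * (e * (2 * m.choose 2)) := by ring
      exact Nat.eq_of_mul_eq_mul_left (by norm_num) h3
    rw [h2]
    exact (Nat.modEq_zero_iff_dvd.mpr (Dvd.intro _ rfl))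

theorem choose_three_per (e n : ℕ) : (n + 6 * e).choose 3 ≡ n.choose 3 [MOD e] := by
  induction n with
  | zero => simpa using choose_three_base e
  | succ n ih =>
    have e1 : n + 1 + 6 * e = (n + 6 * e) + 1 := by ring
    rw [e1, Nat.choose_succ_succ' (n + 6 * e) 2, Nat.choose_succ_succ' n 2]
    exact (choose_two_per6 e n).add ih

theorem sq_eq_choose (n : ℕ) : n * n = n.choose 2 + n.choose 2 + n := by
  induction n with
  | zero => simp
  | succ n ih =>
    rw [Nat.choose_succ_succ' n 1, Nat.choose_one_right]
    nlinarith [ih]

theorem sc_good (e : ℕ) [NeZero e] (u : List α) (hu : u.length ≤ 3) (w w' : List α)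
    (h : Hyp (3 * e) w w') : sc u w ≡ sc u w' [MOD e] := by
  have : NeZero (3 * e) := ⟨by have := NeZero.ne e; omega⟩
  have e1 : 2 * (3 * e) = 6 * e := by ring
  have hcnt6 : ∀ y, w.count y ≡ w'.count y [MOD 6 * e] := by
    intro y
    have := h.2 y
    rwa [e1] at this
  have hcnt : ∀ y, w.count y ≡ w'.count y [MOD e] := fun y => (hcnt6 y).of_mul_left 6
  have hmono : ∀ x μ, Mono x μ → Sg μ x w ≡ Sg μ x w' [MOD e] :=
    fun x μ hμ => (mono_good (3 * e) x μ hμ w w' h).of_mul_left 3
  have hP : ∀ z y : α, Sg (fun v => v.count z) y w ≡ Sg (fun v => v.count z) y w' [MOD e] := by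
    intro z y
    by_cases hzy : z = y
    · subst hzy
      rw [Sg_own1, Sg_own1]
      exact per_congr (M := 6 * e) (fun n => n.choose 2) (choose_two_per6 e) _ _ (hcnt6 z)
    · exact hmono y _ (Or.inl ⟨z, hzy, rfl⟩)
  match u, hu with
  | [], _ => rw [sc_nil, sc_nil]
  | [x], _ => rw [sc_one, sc_one]; exact hcnt x
  | [y, x], _ => rw [sc_two, sc_two]; exact hP y x
  | [z, y, x], _ =>
    rw [sc_three, sc_three]
    by_cases hall : z = y ∧ x = y
    · obtain ⟨rfl, rfl⟩ := hall
      have hc : ∀ v : List α, Sg (fun u => Sg (fun t => t.count x) x u) x v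
          = (v.count x).choose 3 := by
        intro v
        rw [← Sg_own2]
        apply Sg_congr
        intro u
        exact Sg_own1 x u
      rw [hc, hc]
      exact per_congr (M := 6 * e) (fun n => n.choose 3) (choose_three_per e) _ _ (hcnt6 x)
    · have hT : Sg (fun u => u.count z * u.count x) y w
          ≡ Sg (fun u => u.count z * u.count x) y w' [MOD e] := by
        by_cases hzy : z = y
        · subst hzy
          have hxz : x ≠ z := fun hx => hall ⟨rfl, hx⟩
          exact hmono z _ (Or.inr (Or.inr (Or.inr ⟨x, hxz, rfl⟩)))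
        · by_cases hxy : x = y
          · subst hxy
            have hc : ∀ v : List α, Sg (fun u => u.count z * u.count x) x v
                = Sg (fun u => u.count x * u.count z) x v := by
              intro v
              apply Sg_congr
              intro u
              exact mul_comm _ _
            rw [hc, hc]
            exact hmono x _ (Or.inr (Or.inr (Or.inr ⟨z, hzy, rfl⟩)))
          · by_cases hzx : z = x
            · subst hzx
              have hc : ∀ v : List α, Sg (fun u => u.count z * u.count z) y v
                  = Sg (fun u => (u.count z).choose 2) y v + Sg (fun u => (u.count z).choose 2) y v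
                    + Sg (fun u => u.count z) y v := by
                intro v
                rw [← Sg_add, ← Sg_add]
                apply Sg_congr
                intro u
                exact sq_eq_choose _
              rw [hc, hc]
              have h2 := hmono y _ (Or.inr (Or.inl ⟨z, hzy, rfl⟩))
              exact (h2.add h2).add (hP z y)
            · exact hmono y _ (Or.inr (Or.inr (Or.inl ⟨z, x, hzy, hxy, hzx, rfl⟩)))
      have I1 := middle_identity z y x w
      have I2 := middle_identity z y x w'
      have hR : (if x = y then Sg (fun v => v.count z) y w else 0)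
          ≡ (if x = y then Sg (fun v => v.count z) y w' else 0) [MOD e] := by
        by_cases hxy : x = y
        · simp only [hxy, if_true]; exact hP z y
        · simp only [hxy, if_false]; exact Nat.ModEq.refl _
      have hprod : w.count x * Sg (fun v => v.count z) y w
          ≡ w'.count x * Sg (fun v => v.count z) y w' [MOD e] := (hcnt x).mul (hP z y)
      rw [← I1, ← I2, add_assoc, add_assoc] at hprod
      exact Nat.ModEq.add_right_cancel (hT.add hR) hprod

theorem sc_HT [Finite α] (u : List α) (hu : u.length ≤ 3) (n : ℕ) (hn : n ≠ 0) (r : ℕ) :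
    HT 1 {w : List α | sc u w ≡ r [MOD n]} := by
  have : NeZero n := ⟨hn⟩
  have : NeZero (3 * n) := ⟨by omega⟩
  apply hyp_HT (3 * n)
  intro w w' h
  have := sc_good n u hu w w' h
  simp only [Set.mem_ofPred_eq]
  exact ⟨fun h1 => this.symm.trans h1, fun h1 => this.trans h1⟩

end Vale.Agent.Lib.P329
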