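import Vale.Agent.Lib.P329.Schutz

/-!
Two-sided modular counting: for a morphism `η` into a finite aperiodic monoid `T`, the number of
positions `y` of `w` with `η(w_<y) = t`, `w_y = a`, `η(w_>y) = t'`, taken modulo `m`, is an
invariant all of whose fibres have generalized star height at most one.
The word is cut after every `m`-th counted position; at every cut the class of the prefix is
`t * η a` and the class of the suffix is `t'`, so the blocks form a star-free set.
-/

namespace Vale.Agent.Lib.P329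

open Classical

section TwoSided

variable {α T : Type} [Monoid T]

/-- number of positions `y` of `w` with `s * η(w_<y) = t`, `w_y = a`, `η(w_>y) * s' = t'` -/
noncomputable def tcnt (η : α → T) (t : T) (a : α) (t' : T) : T → T → List α → ℕ
  | _, _, [] => 0
  | s, s', b :: w =>
      (if s = t ∧ b = a ∧ wval η w * s' = t' then 1 else 0) + tcnt η t a t' (s * η b) s' w

variable (η : α → T) (t : T) (a : α) (t' : T)

@[simp] theorem tcnt_nil (s s' : T) : tcnt η t a t' s s' [] = 0 := rfl

theorem tcnt_cons (s s' : T) (b : α) (w : List α) :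
    tcnt η t a t' s s' (b :: w) =
      (if s = t ∧ b = a ∧ wval η w * s' = t' then 1 else 0) + tcnt η t a t' (s * η b) s' w := rfl

theorem tcnt_append (u v : List α) : ∀ (s s' : T),
    tcnt η t a t' s s' (u ++ v) =
      tcnt η t a t' s (wval η v * s') u + tcnt η t a t' (s * wval η u) s' v := by
  induction u with
  | nil => intro s s'; simp
  | cons b u ih =>
    intro s s'
    simp only [List.cons_append, tcnt_cons, ih, wval_append, wval_cons, mul_assoc, add_assoc]

/-- a block `u ++ [a]` whose last position is counted -/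
theorem tcnt_snoc_counted (u : List α) (s s' : T) (h1 : s * wval η u = t) (h2 : s' = t') :
    tcnt η t a t' s s' (u ++ [a]) = tcnt η t a t' s (η a * s') u + 1 := by
  rw [tcnt_append, tcnt_cons]
  simp [h1, h2]

theorem tcnt_ge_succ_iff (j : ℕ) (s' : T) : ∀ (w : List α) (s : T),
    j + 1 ≤ tcnt η t a t' s s' w ↔
      ∃ u v, w = u ++ a :: v ∧ s * wval η u = t ∧ wval η v * s' = t' ∧
        j ≤ tcnt η t a t' (t * η a) s' v := by
  intro w s
  constructor
  · induction w generalizing s with
    | nil => intro h; simp at h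
    | cons b w ih =>
      intro h
      rw [tcnt_cons] at h
      by_cases hc : s = t ∧ b = a ∧ wval η w * s' = t'
      · obtain ⟨h1, h2, h3⟩ := hc
        subst h1 h2
        refine ⟨[], w, rfl, by simp, h3, ?_⟩
        simp [h3] at h
        omega
      · rw [if_neg hc] at h
        obtain ⟨u, v, rfl, h1, h2, h3⟩ := ih (s * η b) (by omega)
        exact ⟨b :: u, v, rfl, by simpa [mul_assoc] using h1, h2, h3⟩
  · rintro ⟨u, v, rfl, h1, h2, h3⟩
    rw [tcnt_append, tcnt_cons, h1]
    simp [h2]
    omega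

/-- splitting at the `(j+1)`-st counted position -/
theorem tcnt_split (s' : T) : ∀ (w : List α) (j : ℕ) (s : T),
    j + 1 ≤ tcnt η t a t' s s' w →
      ∃ u v, w = u ++ a :: v ∧ s * wval η u = t ∧ wval η v * s' = t' ∧
        tcnt η t a t' s (wval η (a :: v) * s') u = j := by
  intro w
  induction w with
  | nil => intro j s h; simp at h
  | cons b w ih =>
    intro j s h
    rw [tcnt_cons] at h
    by_cases hc : s = t ∧ b = a ∧ wval η w * s' = t'
    · rw [if_pos hc] at h
      cases j with
      | zero =>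
        obtain ⟨h1, h2, h3⟩ := hc
        subst h1 h2
        exact ⟨[], w, rfl, by simp, h3, by simp⟩
      | succ j =>
        obtain ⟨u, v, hw, h1, h2, h3⟩ := ih j (s * η b) (by omega)
        refine ⟨b :: u, v, by rw [hw]; rfl, by simpa [mul_assoc] using h1, h2, ?_⟩
        rw [tcnt_cons, h3]
        have : wval η u * (wval η (a :: v) * s') = wval η w * s' := by
          rw [hw, wval_append, mul_assoc]
        rw [this, if_pos hc]
        omega
    · rw [if_neg hc] at h
      obtain ⟨u, v, hw, h1, h2, h3⟩ := ih j (s * η b) (by omega)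
      refine ⟨b :: u, v, by rw [hw]; rfl, by simpa [mul_assoc] using h1, h2, ?_⟩
      rw [tcnt_cons, h3]
      have : wval η u * (wval η (a :: v) * s') = wval η w * s' := by
        rw [hw, wval_append, mul_assoc]
      rw [this, if_neg hc]
      omega

/-- the blocks between two consecutive cuts -/
def Kset (m : ℕ) : Set (List α) :=
  {v | wval η v * t' = t' ∧ tcnt η t a t' (t * η a) t' v = m ∧
    ∃ u, v = u ++ [a] ∧ t * η a * wval η u = t}

/-- the first block -/
def Fset (r : ℕ) : Set (List α) :=
  {v | tcnt η t a t' 1 t' v = r ∧ ∃ u, v = u ++ [a] ∧ wval η u = t}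

/-- what is left after the last cut -/
def Tset : Set (List α) := {v | wval η v = t' ∧ tcnt η t a t' (t * η a) 1 v = 0}

theorem blocks_sound (m : ℕ) (τ : List α) (hτ : τ ∈ Tset η t a t') : ∀ S : List (List α),
    (∀ k ∈ S, k ∈ Kset η t a t' m) →
      wval η (S.flatten ++ τ) = t' ∧
        tcnt η t a t' (t * η a) 1 (S.flatten ++ τ) = m * S.length := by
  intro S
  induction S with
  | nil =>
    intro _
    have h := hτ
    simp only [Tset, Set.mem_ofPred_eq] at h
    simpa using h
  | cons k S ih =>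
    intro hS
    obtain ⟨h1, h2⟩ := ih (fun k hk => hS k (List.mem_cons_of_mem _ hk))
    obtain ⟨k1, k2, u, rfl, k3⟩ := hS k List.mem_cons_self
    have e : ((u ++ [a]) :: S).flatten ++ τ = (u ++ [a]) ++ (S.flatten ++ τ) := by simp
    rw [e]
    refine ⟨by rw [wval_append, h1, k1], ?_⟩
    rw [tcnt_append, h1, mul_one, k2]
    have : t * η a * wval η (u ++ [a]) = t * η a := by
      rw [wval_append, ← mul_assoc, k3]; simp
    rw [this, h2, List.length_cons]
    ring

theorem blocks_complete (m : ℕ) (hm : 1 ≤ m) : ∀ (q : ℕ) (v : List α), wval η v = t' →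
    tcnt η t a t' (t * η a) 1 v = m * q →
      ∃ (S : List (List α)) (τ : List α), (∀ k ∈ S, k ∈ Kset η t a t' m) ∧ τ ∈ Tset η t a t' ∧
        v = S.flatten ++ τ := by
  intro q
  induction q with
  | zero => intro v h1 h2; exact ⟨[], v, by simp, ⟨h1, by simpa using h2⟩, by simp⟩
  | succ q ih =>
    intro v h1 h2
    obtain ⟨u, v', rfl, g1, g2, g3⟩ := tcnt_split η t a t' 1 v (m - 1) (t * η a)
      (by
        rw [h2]
        have : m * (q + 1) = m + m * q := by ring
        omega)
    rw [mul_one] at g2 g3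
    have e : u ++ a :: v' = (u ++ [a]) ++ v' := by simp
    have c1 : tcnt η t a t' (t * η a) t' (u ++ [a]) = m := by
      rw [tcnt_snoc_counted η t a t' u _ _ g1 rfl]
      rw [wval_cons, g2] at g3
      omega
    have c2 : t * η a * wval η (u ++ [a]) = t * η a := by
      rw [wval_append, ← mul_assoc, g1]; simp
    have c3 : tcnt η t a t' (t * η a) 1 v' = m * q := by
      rw [e, tcnt_append, mul_one, g2, c1, c2] at h2
      have : m * (q + 1) = m + m * q := by ring
      omega
    obtain ⟨S, τ, hS, hτ, rfl⟩ := ih v' g2 c3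
    refine ⟨(u ++ [a]) :: S, τ, ?_, hτ, by simp⟩
    intro k hk
    rcases List.mem_cons.1 hk with rfl | hk
    · refine ⟨?_, c1, u, rfl, g1⟩
      rw [e, wval_append, g2] at h1
      exact h1
    · exact hS k hk

/-- the decomposition: the count is `r + m q` for some `q` iff the word lies in `F K^* T` -/
theorem decomposition (m r : ℕ) (hm : 1 ≤ m) (hr : 1 ≤ r) (w : List α) :
    (∃ q, tcnt η t a t' 1 1 w = r + m * q) ↔
      w ∈ catL (Fset η t a t' r) (catL (strL (Kset η t a t' m)) (Tset η t a t')) := by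
  constructor
  · rintro ⟨q, hq⟩
    obtain ⟨u, v, rfl, g1, g2, g3⟩ := tcnt_split η t a t' 1 w (r - 1) 1 (by rw [hq]; omega)
    rw [mul_one] at g2 g3
    rw [one_mul] at g1
    have e : u ++ a :: v = (u ++ [a]) ++ v := by simp
    have c1 : tcnt η t a t' 1 t' (u ++ [a]) = r := by
      rw [tcnt_snoc_counted η t a t' u _ _ (by rw [one_mul]; exact g1) rfl]
      rw [wval_cons, g2] at g3
      omega
    have c2 : 1 * wval η (u ++ [a]) = t * η a := by
      rw [one_mul, wval_append, g1]; simp
    have c3 : tcnt η t a t' (t * η a) 1 v = m * q := by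
      rw [e, tcnt_append, mul_one, g2, c1, c2] at hq
      omega
    obtain ⟨S, τ, hS, hτ, rfl⟩ := blocks_complete η t a t' m hm q v g2 c3
    exact ⟨u ++ [a], ⟨c1, u, rfl, g1⟩, S.flatten ++ τ, ⟨S.flatten, ⟨S, rfl, hS⟩, τ, hτ, rfl⟩,
      by simp⟩
  · rintro ⟨f, ⟨f1, u, rfl, f2⟩, z, ⟨x, ⟨S, rfl, hS⟩, τ, hτ, rfl⟩, rfl⟩
    obtain ⟨h1, h2⟩ := blocks_sound η t a t' m τ hτ S hS
    refine ⟨S.length, ?_⟩
    rw [tcnt_append, h1, mul_one, f1]
    have : 1 * wval η (u ++ [a]) = t * η a := by
      rw [one_mul, wval_append, f2]; simp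
    rw [this, h2]

end TwoSided

section Height

variable {α T : Type} [Monoid T] [Finite T] [Finite α]

theorem wval_HT (hT : ∀ x : T, ∃ n : ℕ, x ^ n = x ^ (n + 1)) (η : α → T) (P : T → Prop) :
    HT 0 {w : List α | P (wval η w)} := by
  have := HT.iUnion_prop (k := 0) P (fun m => {w : List α | (w.map η).prod = m})
    (fun m _ => schutz T hT α η m)
  refine this.of_eq ?_
  ext w
  constructor
  · rintro ⟨i, hi, hw⟩
    have hw' : wval η w = i := hw
    show P (wval η w)
    rw [hw']; exact hi
  · intro hw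
    exact ⟨wval η w, hw, rfl⟩

variable (hT : ∀ x : T, ∃ n : ℕ, x ^ n = x ^ (n + 1)) (η : α → T) (t : T) (a : α) (t' : T)

include hT in
theorem tcnt_ge_HT (j : ℕ) : ∀ s s' : T, HT 0 {w : List α | j ≤ tcnt η t a t' s s' w} := by
  induction j with
  | zero =>
    intro s s'
    refine (HT.univ 0).of_eq ?_
    ext w; simp
  | succ j ih =>
    intro s s'
    have h := (wval_HT hT η (fun x => s * x = t)).cat
      ((HT.char 0 a).cat ((wval_HT hT η (fun x => x * s' = t')).inter (ih (t * η a) s')))
    refine h.of_eq ?_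
    ext w
    rw [Set.mem_ofPred_eq, tcnt_ge_succ_iff]
    constructor
    · rintro ⟨u, hu, z, ⟨c, hc, v, ⟨hv1, hv2⟩, rfl⟩, rfl⟩
      have hc' : c = [a] := hc
      subst hc'
      exact ⟨u, v, by simp, hu, hv1, hv2⟩
    · rintro ⟨u, v, rfl, h1, h2, h3⟩
      exact ⟨u, h1, a :: v, ⟨[a], rfl, v, ⟨h2, h3⟩, rfl⟩, rfl⟩

include hT in
theorem tcnt_eq_HT (j : ℕ) (s s' : T) : HT 0 {w : List α | tcnt η t a t' s s' w = j} := by
  refine ((tcnt_ge_HT hT η t a t' j s s').sdiff (tcnt_ge_HT hT η t a t' (j + 1) s s')).of_eq ?_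
  ext w
  simp only [Set.mem_sdiff, Set.mem_ofPred_eq]
  omega

include hT in
theorem snoc_HT (P : T → Prop) : HT 0 {v : List α | ∃ u, v = u ++ [a] ∧ P (wval η u)} := by
  refine ((wval_HT hT η P).cat (HT.char 0 a)).of_eq ?_
  ext v
  constructor
  · rintro ⟨u, hu, c, hc, rfl⟩
    have hc' : c = [a] := hc
    subst hc'
    exact ⟨u, rfl, hu⟩
  · rintro ⟨u, rfl, hu⟩
    exact ⟨u, hu, [a], rfl, rfl⟩

include hT in
theorem Kset_HT (m : ℕ) : HT 0 (Kset η t a t' m) := by
  refine ((wval_HT hT η (fun x => x * t' = t')).inter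
    ((tcnt_eq_HT hT η t a t' m (t * η a) t').inter
      (snoc_HT hT η a (fun x => t * η a * x = t)))).of_eq ?_
  ext v
  rfl

include hT in
theorem Fset_HT (r : ℕ) : HT 0 (Fset η t a t' r) := by
  refine ((tcnt_eq_HT hT η t a t' r 1 t').inter (snoc_HT hT η a (fun x => x = t))).of_eq ?_
  ext v
  rfl

include hT in
theorem Tset_HT : HT 0 (Tset η t a t') := by
  refine ((wval_HT hT η (fun x => x = t')).inter (tcnt_eq_HT hT η t a t' 0 (t * η a) 1)).of_eq ?_
  ext v
  rfl

include hT in
theorem tcnt_arith_HT (m r : ℕ) (hm : 1 ≤ m) (hr : 1 ≤ r) :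
    HT 1 {w : List α | ∃ q, tcnt η t a t' 1 1 w = r + m * q} := by
  have h := ((Fset_HT hT η t a t' r).mono (Nat.zero_le 1)).cat
    ((Kset_HT hT η t a t' m).str.cat ((Tset_HT hT η t a t').mono (Nat.zero_le 1)))
  refine h.of_eq ?_
  ext w
  exact (decomposition η t a t' m r hm hr w).symm

include hT in
/-- the number of positions with prescribed classes of the prefix and of the suffix, modulo `m` -/
theorem tcnt_mod_HT (m : ℕ) (hm : 1 ≤ m) (i : ℕ) :
    HT 1 {w : List α | tcnt η t a t' 1 1 w % m = i} := by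
  rcases Nat.eq_zero_or_pos i with rfl | hi
  · have h := ((tcnt_eq_HT hT η t a t' 0 1 1).mono (Nat.zero_le 1)).union
      (tcnt_arith_HT hT η t a t' m m hm hm)
    refine h.of_eq ?_
    ext w
    simp only [Set.mem_union, Set.mem_ofPred_eq]
    constructor
    · rintro (h | ⟨q, h⟩)
      · rw [h]; simp
      · rw [h]
        have : m + m * q = m * (q + 1) := by ring
        rw [this]; simp
    · intro h
      obtain ⟨c, hc⟩ := Nat.dvd_of_mod_eq_zero h
      cases c with
      | zero => left; simpa using hc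
      | succ c => right; exact ⟨c, by rw [hc]; ring⟩
  · by_cases him : i < m
    · refine (tcnt_arith_HT hT η t a t' m i hm hi).of_eq ?_
      ext w
      simp only [Set.mem_ofPred_eq]
      constructor
      · rintro ⟨q, h⟩
        rw [h, Nat.add_mul_mod_self_left, Nat.mod_eq_of_lt him]
      · intro h
        exact ⟨tcnt η t a t' 1 1 w / m, by rw [← h]; exact (Nat.mod_add_div _ _).symm⟩
    · refine (HT.empty 1).of_eq ?_
      ext w
      simp only [Set.mem_empty_iff_false, Set.mem_ofPred_eq, false_iff]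
      intro h
      have := Nat.mod_lt (tcnt η t a t' 1 1 w) hm
      omega

end Height

section Weights

variable {α T B : Type} [Monoid T] [AddCommGroup B]

/-- the sum over the positions `y` of `w` of `c (s * η(w_<y)) w_y (η(w_>y) * s')` -/
def wsumA (η : α → T) (c : T → α → T → B) : T → T → List α → B
  | _, _, [] => 0
  | s, s', b :: w => c s b (wval η w * s') + wsumA η c (s * η b) s' w

theorem wsumA_eq_tcnt [Fintype T] [Fintype α] (η : α → T) (c : T → α → T → B) (s' : T) :
    ∀ (w : List α) (s : T), wsumA η c s s' w =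
      ∑ x : T × α × T, tcnt η x.1 x.2.1 x.2.2 s s' w • c x.1 x.2.1 x.2.2 := by
  intro w
  induction w with
  | nil => intro s; simp [wsumA]
  | cons b w ih =>
    intro s
    simp only [wsumA, tcnt_cons, add_smul, Finset.sum_add_distrib, ← ih]
    congr 1
    rw [Finset.sum_eq_single (s, b, wval η w * s')]
    · simp
    · rintro ⟨x1, x2, x3⟩ - hx
      have : ¬ (s = x1 ∧ b = x2 ∧ wval η w * s' = x3) := by
        rintro ⟨rfl, rfl, rfl⟩
        exact hx rfl
      simp [this]
    · intro h
      exact absurd (Finset.mem_univ _) h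

theorem wsumA_eq_sum (η : α → T) (c : T → α → T → B) (s' : T) :
    ∀ (w : List α) (s : T), wsumA η c s s' w =
      ∑ i : Fin w.length, c (s * ((w.take i).map η).prod) (w.get i)
        (((w.drop (i + 1)).map η).prod * s') := by
  intro w
  induction w with
  | nil => intro s; simp [wsumA]
  | cons b w ih =>
    intro s
    simp only [wsumA, ih]
    have h := Fin.sum_univ_succ (n := w.length) (fun i : Fin (w.length + 1) =>
      c (s * (((b :: w).take i).map η).prod) ((b :: w).get i)
        ((((b :: w).drop (i + 1)).map η).prod * s'))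
    refine Eq.trans ?_ h.symm
    simp [wval, mul_assoc]

theorem twosided_HT [Finite T] [Finite α] [Finite B]
    (hT : ∀ x : T, ∃ n : ℕ, x ^ n = x ^ (n + 1)) (η : α → T) (c : T → α → T → B) (S : Set B) :
    HT 1 {w : List α | wsumA η c 1 1 w ∈ S} := by
  have := Fintype.ofFinite T
  have := Fintype.ofFinite α
  have epos : 0 < Nat.card B := Nat.card_pos
  let inv : List α → (T × α × T → Fin (Nat.card B)) := fun w x =>
    ⟨tcnt η x.1 x.2.1 x.2.2 1 1 w % Nat.card B, Nat.mod_lt _ epos⟩
  refine HT.of_invariant inv ?_ _ ?_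
  · intro i
    have h := HT.iInter (k := 1)
      (fun x : T × α × T => {w : List α | tcnt η x.1 x.2.1 x.2.2 1 1 w % Nat.card B = (i x).val})
      (fun x => tcnt_mod_HT hT η x.1 x.2.1 x.2.2 (Nat.card B) epos (i x).val)
    refine h.of_eq ?_
    ext w
    simp only [Set.mem_ofPred_eq]
    constructor
    · intro hw
      funext x
      exact Fin.ext (hw x)
    · intro hw x
      rw [← hw]
  · intro w w' hww
    have : wsumA η c 1 1 w = wsumA η c 1 1 w' := by
      rw [wsumA_eq_tcnt, wsumA_eq_tcnt]
      refine Finset.sum_congr rfl (fun x _ => ?_)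
      have hx : tcnt η x.1 x.2.1 x.2.2 1 1 w % Nat.card B
          = tcnt η x.1 x.2.1 x.2.2 1 1 w' % Nat.card B := congrArg Fin.val (congrFun hww x)
      rw [← mod_natCard_nsmul, hx, mod_natCard_nsmul]
    simp only [Set.mem_ofPred_eq, this]

/-- the same with the class of the whole word added -/
theorem twosided_pair_HT [Finite T] [Finite α] [Finite B]
    (hT : ∀ x : T, ∃ n : ℕ, x ^ n = x ^ (n + 1)) (η : α → T) (c : T → α → T → B)
    (S : Set (B × T)) :
    HT 1 {w : List α | (wsumA η c 1 1 w, wval η w) ∈ S} := by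
  have h := HT.iUnion (k := 1)
    (fun τ : T => {w : List α | wval η w = τ} ∩ {w : List α | wsumA η c 1 1 w ∈ {b | (b, τ) ∈ S}})
    (fun τ => ((wval_HT hT η (fun x => x = τ)).mono (Nat.zero_le 1)).inter
      (twosided_HT hT η c {b | (b, τ) ∈ S}))
  refine h.of_eq ?_
  ext w
  constructor
  · rintro ⟨τ, h1, h2⟩
    have h1' : wval η w = τ := h1
    have h2' : (wsumA η c 1 1 w, τ) ∈ S := h2
    show (wsumA η c 1 1 w, wval η w) ∈ S
    rw [h1']; exact h2'
  · intro hw
    exact ⟨wval η w, rfl, hw⟩

end Weights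

end Vale.Agent.Lib.P329
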