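import Vale.Agent.Lib.P329.Level

namespace Vale.Agent.Lib.P329

set_option linter.unusedSectionVars false
set_option linter.unusedSimpArgs false

variable {α : Type} [DecidableEq α]

section rank

variable {Q : Type} [DecidableEq Q]

theorem stepA_rank (δ : Q → α → Q) (b : Q) (m : Q → ℕ)
    (hmono : ∀ q a, δ q a ≠ b → m q ≤ m (δ q a)) (w : List α) (q q' : Q)
    (h : w.foldl (stepA δ b) (some q) = some q') : m q ≤ m q' := by
  induction w generalizing q with
  | nil =>
    simp only [List.foldl_nil, Option.some.injEq] at h
    rw [h]
  | cons a w ih =>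
    rw [List.foldl_cons] at h
    by_cases hb : δ q a = b
    · simp only [stepA, hb, if_true] at h
      rw [foldl_stepA_none] at h
      exact absurd h (by simp)
    · simp only [stepA, hb, if_false] at h
      exact le_trans (hmono q a hb) (ih _ h)

/-- the feedback theorem for automata with an injective rank that never decreases except on the
arrivals at the base state -/
theorem feedback_rank [Finite α] [Finite Q] (δ : Q → α → Q) (b : Q) (m : Q → ℕ)
    (hinj : Function.Injective m) (hmono : ∀ q a, δ q a ≠ b → m q ≤ m (δ q a)) (q q' : Q) :
    HT 1 {w : List α | w.foldl δ q = q'} := by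
  apply feedback δ b
  intro w q k hk h
  obtain ⟨k', rfl⟩ : ∃ k', k = k' + 1 := ⟨k - 1, by omega⟩
  rw [List.replicate_succ, List.flatten_cons, List.foldl_append] at h
  cases hs : w.foldl (stepA δ b) (some q) with
  | none => rw [hs, foldl_stepA_none] at h; exact absurd h (by simp)
  | some t =>
    rw [hs] at h
    have m1 := stepA_rank δ b m hmono _ _ _ hs
    have m2 := stepA_rank δ b m hmono _ _ _ h
    rw [hinj (le_antisymm m2 m1)]

end rank

variable {M N : ℕ}

/-- the unit step block counter: letters with `π a ≠ 0` raise the level by one, the counter counts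
the arrivals at level `l` and the marked neutral letters read at level `l` -/
def ustep (N : ℕ) (π : α → ZMod M) (l : ZMod M) (X : α → Bool) :
    ZMod N × ZMod M → α → ZMod N × ZMod M
  | (c, lam), a =>
    if π a = 0 then (if X a = true ∧ lam = l then c + 1 else c, lam)
    else (if lam + 1 = l then c + 1 else c, lam + 1)

def urank (l : ZMod M) (q : ZMod N × ZMod M) : ℕ := q.1.val * M + (q.2 - l).val

theorem urank_inj [NeZero M] [NeZero N] (l : ZMod M) :
    Function.Injective (urank (N := N) l) := by
  rintro ⟨c, lam⟩ ⟨c', lam'⟩ h
  simp only [urank] at h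
  have h1 : (lam - l).val < M := ZMod.val_lt _
  have h2 : (lam' - l).val < M := ZMod.val_lt _
  have hM : 0 < M := Nat.pos_of_ne_zero (NeZero.ne M)
  have e1 : c.val = c'.val := by
    have a1 : (c.val * M + (lam - l).val) / M = c.val := by
      rw [Nat.add_comm, Nat.add_mul_div_right _ _ hM, Nat.div_eq_of_lt h1, zero_add]
    have a2 : (c'.val * M + (lam' - l).val) / M = c'.val := by
      rw [Nat.add_comm, Nat.add_mul_div_right _ _ hM, Nat.div_eq_of_lt h2, zero_add]
    rw [← a1, ← a2, h]
  have e2 : (lam - l).val = (lam' - l).val := by
    rw [e1] at h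
    omega
  have e3 : lam - l = lam' - l := ZMod.val_injective M e2
  rw [ZMod.val_injective N e1, sub_left_injective e3]

theorem ustep_mono [NeZero M] [NeZero N] (π : α → ZMod M) (l : ZMod M) (X : α → Bool)
    (q : ZMod N × ZMod M) (a : α) (h : ustep N π l X q a ≠ (0, l)) :
    urank l q ≤ urank l (ustep N π l X q a) := by
  obtain ⟨c, lam⟩ := q
  have hd : (lam - l).val < M := ZMod.val_lt _
  simp only [ustep] at h ⊢
  by_cases h0 : π a = 0
  · simp only [h0, if_true] at h ⊢
    by_cases h1 : X a = true ∧ lam = l
    · simp only [h1, and_self, if_true] at h ⊢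
      have hne : c + 1 ≠ 0 := by
        intro e
        apply h
        rw [e]
      have := zmod_val_lt_succ c hne
      simp only [urank]
      have : c.val * M ≤ (c + 1).val * M := Nat.mul_le_mul_right _ this.le
      omega
    · simp only [h1, if_false]
      exact le_rfl
  · simp only [h0, if_false] at h ⊢
    by_cases h1 : lam + 1 = l
    · simp only [h1, if_true] at h ⊢
      have hne : c + 1 ≠ 0 := by
        intro e
        apply h
        rw [e]
      have h2 := zmod_val_lt_succ c hne
      simp only [urank, sub_self, ZMod.val_zero, add_zero]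
      have : (c.val + 1) * M ≤ (c + 1).val * M := Nat.mul_le_mul_right _ h2
      have e : (c.val + 1) * M = c.val * M + M := by ring
      omega
    · simp only [h1, if_false]
      simp only [urank]
      have hne : (lam - l) + 1 ≠ 0 := by
        intro e
        apply h1
        have : lam + 1 - l = 0 := by rw [← e]; ring
        exact sub_eq_zero.mp this
      have h2 := zmod_val_lt_succ (lam - l) hne
      have e : lam + 1 - l = lam - l + 1 := by ring
      rw [e]
      omega

theorem ustep_HT [Finite α] [NeZero M] [NeZero N] (π : α → ZMod M) (l : ZMod M) (X : α → Bool)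
    (q q' : ZMod N × ZMod M) : HT 1 {w : List α | w.foldl (ustep N π l X) q = q'} := by
  have : Finite (ZMod N) := by
    have := ZMod.fintype N
    infer_instance
  have : Finite (ZMod M) := by
    have := ZMod.fintype M
    infer_instance
  exact feedback_rank (ustep N π l X) (0, l) (urank l) (urank_inj l)
    (fun q a h => ustep_mono π l X q a h) q q'

theorem urun (π : α → ZMod M) (hπ : ∀ a, π a = 0 ∨ π a = 1) (l : ZMod M) (x : α) (hx : π x = 0)
    (w : List α) :
    (w.foldl (ustep N π l (fun a => decide (a = x))) (0, 0)).2 = (w.map π).sum ∧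
    (w.foldl (ustep N π l (fun _ => false)) (0, 0)).2 = (w.map π).sum ∧
    (w.foldl (ustep N π l (fun a => decide (a = x))) (0, 0)).1
      = (w.foldl (ustep N π l (fun _ => false)) (0, 0)).1 + ((cnt π l x w : ℕ) : ZMod N) := by
  induction w using List.reverseRecOn with
  | nil => simp [cnt_nil]
  | append_singleton w b ih =>
    obtain ⟨i1, i2, i3⟩ := ih
    rw [List.foldl_append, List.foldl_append, cnt_snoc, List.map_append, List.sum_append]
    simp only [List.foldl_cons, List.foldl_nil, List.map_cons, List.map_nil, List.sum_cons,
      List.sum_nil, add_zero]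
    set s1 := w.foldl (ustep N π l (fun a => decide (a = x))) (0, 0) with hs1
    set s2 := w.foldl (ustep N π l (fun _ => false)) (0, 0) with hs2
    obtain ⟨c1, l1⟩ := s1
    obtain ⟨c2, l2⟩ := s2
    simp only at i1 i2 i3
    subst i1
    by_cases h0 : π b = 0
    · by_cases hb : b = x
      · by_cases hl : (w.map π).sum = l
        · simp [ustep, h0, hb, hl, hx, i2, i3, add_assoc]
        · simp [ustep, h0, hb, hl, hx, i2, i3]
      · simp [ustep, h0, hb, i2, i3]
    · have h1 : π b = 1 := (hπ b).resolve_left h0
      have hbx : b ≠ x := by
        intro e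
        exact h0 (e ▸ hx)
      have h10 : (1 : ZMod M) ≠ 0 := h1 ▸ h0
      by_cases hl : (w.map π).sum + 1 = l
      · simp [ustep, h10, hbx, hl, i2, i3, h1]
        ring
      · simp [ustep, h10, hbx, hl, i2, i3, h1]

/-- **Unit step level counting.**  Let `π` map every letter to `0` or `1` in `ZMod M` (`M`
arbitrary), and let `x` be a letter with `π x = 0`.  The set of words in which the number of
occurrences of `x` read at level `l` has a given residue modulo `e` has generalized star height at
most one. -/
theorem ulevel_HT [Finite α] (M e : ℕ) [NeZero M] [NeZero e] (π : α → ZMod M)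
    (hπ : ∀ a, π a = 0 ∨ π a = 1) (l : ZMod M) (x : α) (hx : π x = 0) (r : ZMod e) :
    HT 1 {w : List α | ((cnt π l x w : ℕ) : ZMod e) = r} := by
  have : Finite (ZMod e) := by
    have := ZMod.fintype e
    infer_instance
  have : Finite (ZMod M) := by
    have := ZMod.fintype M
    infer_instance
  apply HT.of_invariants (J := Bool) (ι := ZMod e × ZMod M)
    (fun j w => w.foldl (ustep e π l (if j then (fun a => decide (a = x)) else (fun _ => false)))
      (0, 0))
  · intro j i
    exact ustep_HT π l _ _ _
  · intro w w' h
    have h1 := h true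
    have h2 := h false
    simp only [if_true, Bool.false_eq_true, if_false] at h1 h2
    have a1 := (urun (N := e) π hπ l x hx w).2.2
    have a2 := (urun (N := e) π hπ l x hx w').2.2
    rw [h1, h2, a2] at a1
    have := add_left_cancel a1
    simp only [Set.mem_ofPred_eq]
    rw [this]

theorem utotal_HT [Finite α] (M : ℕ) [NeZero M] (π : α → ZMod M)
    (hπ : ∀ a, π a = 0 ∨ π a = 1) (t : ZMod M) :
    HT 1 {w : List α | (w.map π).sum = t} := by
  have : Finite (ZMod M) := by
    have := ZMod.fintype M
    infer_instance
  have : Finite (ZMod 1) := by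
    have := ZMod.fintype 1
    infer_instance
  apply HT.of_invariant (ι := ZMod 1 × ZMod M)
    (fun w => w.foldl (ustep 1 π 0 (fun _ => false)) (0, 0))
  · intro i
    exact ustep_HT π 0 _ _ _
  · intro w w' h
    have key : ∀ v : List α, (v.foldl (ustep 1 π 0 (fun _ => false)) (0, 0)).2 = (v.map π).sum := by
      intro v
      induction v using List.reverseRecOn with
      | nil => simp
      | append_singleton v b ih =>
        rw [List.foldl_append, List.map_append, List.sum_append]
        simp only [List.foldl_cons, List.foldl_nil, List.map_cons, List.map_nil, List.sum_cons,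
          List.sum_nil, add_zero]
        set s := v.foldl (ustep 1 π 0 (fun _ => false)) (0, 0) with hs
        obtain ⟨c, lam⟩ := s
        simp only at ih
        subst ih
        by_cases h0 : π b = 0
        · simp [ustep, h0]
        · have h1 : π b = 1 := (hπ b).resolve_left h0
          have h10 : (1 : ZMod M) ≠ 0 := h1 ▸ h0
          simp [ustep, h10, h1]
    simp only [Set.mem_ofPred_eq]
    rw [← key w, ← key w', h]

end Vale.Agent.Lib.P329
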